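import Vale.Agent.P359.AlgA

/-! Part Alg: su(2) covariance, eigenspace traces, spectral reduction. -/

namespace Vale.Agent.P359
open Finset Matrix

theorem pairOp_comm (Q M P : ℕ) : pairOp Q M * pairOp Q P = pairOp Q P * pairOp Q M := by
  conv_lhs => rw [pairOp]
  conv_rhs => rw [pairOp.eq_1 Q M]
  rw [Matrix.mul_sum, Matrix.sum_mul]
  refine sum_congr rfl fun c _ => ?_
  rw [Matrix.smul_mul, Matrix.mul_smul, Matrix.mul_assoc, ann_pairOp, ← Matrix.mul_assoc,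
    ann_pairOp, Matrix.mul_assoc]

/-- Spectral theorem in elementary form. -/
theorem exists_eigenbasis {ι : Type} [Fintype ι] [DecidableEq ι] (H : Matrix ι ι ℝ)
    (hH : Hᵀ = H) : ∃ (b : ι → ι → ℝ) (l : ι → ℝ), (∀ i, H *ᵥ b i = l i • b i) ∧
      (∀ i, b i ⬝ᵥ b i = 1) ∧ ∀ v : ι → ℝ, v = ∑ i, (b i ⬝ᵥ v) • b i := by
  have hA : H.IsHermitian := by
    unfold Matrix.IsHermitian
    rw [conjTranspose_eq_transpose_of_trivial, hH]
  refine ⟨fun i => (hA.eigenvectorBasis i).ofLp, hA.eigenvalues,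
    fun i => hA.mulVec_eigenvectorBasis i, fun i => ?_, fun v => ?_⟩
  · have h := hA.eigenvectorBasis.orthonormal.1 i
    have h2 := EuclideanSpace.inner_eq_star_dotProduct (hA.eigenvectorBasis i)
      (hA.eigenvectorBasis i)
    rw [real_inner_self_eq_norm_sq, h] at h2
    simpa using h2.symm
  · have h := congrArg WithLp.ofLp (hA.eigenvectorBasis.sum_repr' (WithLp.toLp 2 v))
    simp only [WithLp.ofLp_sum, WithLp.ofLp_smul, EuclideanSpace.inner_eq_star_dotProduct,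
      star_trivial] at h
    simpa only [dotProduct_comm v] using h.symm

section om
variable {ι κ : Type} [Fintype ι] [Fintype κ] (ψ : κ → ι → ℝ)

theorem om_add_left (X X' Y : Matrix ι ι ℝ) : om ψ (X + X') Y = om ψ X Y + om ψ X' Y := by
  simp only [om, add_mulVec, add_dotProduct, sum_add_distrib]

theorem om_add_right (X Y Y' : Matrix ι ι ℝ) : om ψ X (Y + Y') = om ψ X Y + om ψ X Y' := by
  simp only [om, add_mulVec, dotProduct_add, sum_add_distrib]

theorem om_sub_right (X Y Y' : Matrix ι ι ℝ) : om ψ X (Y - Y') = om ψ X Y - om ψ X Y' := by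
  simp only [om, sub_mulVec, dotProduct_sub, sum_sub_distrib]

theorem om_smul_left (c : ℝ) (X Y : Matrix ι ι ℝ) : om ψ (c • X) Y = c * om ψ X Y := by
  simp only [om, smul_mulVec, smul_dotProduct, smul_eq_mul, mul_sum]

theorem om_smul_right (c : ℝ) (X Y : Matrix ι ι ℝ) : om ψ X (c • Y) = c * om ψ X Y := by
  simp only [om, smul_mulVec, dotProduct_smul, smul_eq_mul, mul_sum]

theorem om_sum_right {α : Type} (s : Finset α) (X : Matrix ι ι ℝ) (Y : α → Matrix ι ι ℝ) :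
    om ψ X (∑ a ∈ s, Y a) = ∑ a ∈ s, om ψ X (Y a) := by
  simp only [om, sum_mulVec, dotProduct_sum]
  exact sum_comm

theorem om_mul_left (J X Y : Matrix ι ι ℝ) : om ψ (J * X) Y = om ψ X (Jᵀ * Y) := by
  simp only [om, ← mulVec_mulVec, mulVec_dot]

theorem om_mul_right (J X Y : Matrix ι ι ℝ) : om ψ X (Jᵀ * Y) = om ψ (J * X) Y :=
  (om_mul_left ψ J X Y).symm

theorem om_adj (J X Y : Matrix ι ι ℝ)
    (h1 : ∀ r, J *ᵥ ψ r = ∑ s, (ψ s ⬝ᵥ (J *ᵥ ψ r)) • ψ s)
    (h2 : ∀ r, Jᵀ *ᵥ ψ r = ∑ s, (ψ s ⬝ᵥ (Jᵀ *ᵥ ψ r)) • ψ s) :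
    om ψ (X * J) Y = om ψ X (Y * Jᵀ) := by
  unfold om
  have e1 : ∀ r, ((X * J) *ᵥ ψ r) ⬝ᵥ (Y *ᵥ ψ r) =
      ∑ s, (ψ s ⬝ᵥ (J *ᵥ ψ r)) * ((X *ᵥ ψ s) ⬝ᵥ (Y *ᵥ ψ r)) := by
    intro r
    rw [← mulVec_mulVec]
    conv_lhs => rw [h1 r]
    simp only [mulVec_sum, mulVec_smul, sum_dotProduct, smul_dotProduct, smul_eq_mul]
  have e2 : ∀ s, (X *ᵥ ψ s) ⬝ᵥ ((Y * Jᵀ) *ᵥ ψ s) =
      ∑ r, (ψ s ⬝ᵥ (J *ᵥ ψ r)) * ((X *ᵥ ψ s) ⬝ᵥ (Y *ᵥ ψ r)) := by
    intro s
    rw [← mulVec_mulVec]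
    conv_lhs => rw [h2 s]
    simp only [mulVec_sum, mulVec_smul, dotProduct_sum, dotProduct_smul, smul_eq_mul]
    refine sum_congr rfl fun r _ => ?_
    rw [← mulVec_dot, dotProduct_comm (J *ᵥ ψ r)]
  simp only [e1, e2]
  exact sum_comm

/-- The basic covariance relation. -/
theorem om_rel (J X Y X' Y' : Matrix ι ι ℝ) (h : om ψ (X * J) Y = om ψ X (Y * Jᵀ))
    (hX : X * J = J * X + X') (hY : Y * Jᵀ = Jᵀ * Y + Y') : om ψ X' Y = om ψ X Y' := by
  rw [hX, hY, om_add_left, om_add_right, om_mul_left] at h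
  linarith

end om

theorem eig_of_basis {κ : Type} [Fintype κ] (Q : ℕ) (hQ : 1 ≤ Q) (E : ℝ) (hE : E ≠ 0)
    (ψ : κ → Idx (Q + 1) → ℝ) (hψ : ∀ r, hamF Q *ᵥ ψ r = E • ψ r)
    (hsp : ∀ w, hamF Q *ᵥ w = E • w → w = ∑ s, (ψ s ⬝ᵥ w) • ψ s)
    (hpos : 0 < ∑ r, ψ r ⬝ᵥ ψ r) : Eig Q E (om ψ (pairOp Q 0) (pairOp Q 0)) ψ := by
  have hadj : ∀ X Y, om ψ (X * Jop Q) Y = om ψ X (Y * (Jop Q)ᵀ) := by
    intro X Y
    refine om_adj ψ _ X Y (fun r => hsp _ ?_) (fun r => hsp _ ?_)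
    · rw [mulVec_mulVec, hamF_J Q hQ, ← mulVec_mulVec, hψ, mulVec_smul]
    · rw [mulVec_mulVec, hamF_JT Q hQ, ← mulVec_mulVec, hψ, mulVec_smul]
  have hnorm : ∀ M, M < 2 * Q - 1 →
      om ψ (pairOp Q M) (pairOp Q M) = om ψ (pairOp Q 0) (pairOp Q 0) := by
    intro M
    induction M with
    | zero => intro _; rfl
    | succ M ih =>
      intro hM
      have h := om_rel ψ _ _ _ _ _ (hadj _ _) (pair_J_succ Q M hQ) (pair_JT Q M hQ)
      rw [om_smul_left, om_smul_right] at h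
      rw [← ih (by omega)]
      exact (mul_left_cancel₀ (jV_pos Q M (by omega)).ne' h).symm
  refine ⟨?_, hnorm, ?_, ?_, ?_⟩
  · have h1 : ∑ M ∈ range (2 * Q - 1), om ψ (pairOp Q M) (pairOp Q M) =
        E * ∑ r, ψ r ⬝ᵥ ψ r := by
      have : ∀ M, om ψ (pairOp Q M) (pairOp Q M) = om ψ 1 ((pairOp Q M)ᵀ * pairOp Q M) := by
        intro M; rw [om_mul_right, Matrix.mul_one]
      simp only [this]
      rw [← om_sum_right]
      change om ψ 1 (hamF Q) = _
      simp only [om, hψ, one_mulVec, dotProduct_smul, smul_eq_mul, mul_sum]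
    rw [sum_congr rfl (fun M hM => hnorm M (mem_range.mp hM))] at h1
    have h0 : 0 ≤ om ψ (pairOp Q 0) (pairOp Q 0) := sum_nonneg fun r _ => dot_self_nonneg _
    refine lt_of_le_of_ne h0 fun h => ?_
    rw [← h, sum_const_zero] at h1
    exact mul_ne_zero hE hpos.ne' h1.symm
  · intro T M M' hM hM'
    have h := om_rel ψ _ _ _ _ _ (hadj _ _)
      (mul_comm_rule (ann_J Q (T + 1 - M)) (pair_J Q M hQ))
      (mul_comm_rule (ann_JT Q (T - M')) (pair_JT Q M' hQ))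
    simp only [Matrix.smul_mul, Matrix.mul_smul, om_add_left, om_add_right, om_smul_left,
      om_smul_right] at h
    have e1 : T + 1 - M - 1 = T - M := by omega
    have e2 : T - M' + 1 = T + 1 - M' := by omega
    have e3 : T + 1 - (M' + 1) = T - M' := by omega
    have e4 : (1 ≤ T + 1 - M) ↔ M ≤ T := by omega
    unfold G3
    rw [e3, ← e2, ← h, e1]
    simp only [e4]
    congr 1
    · split_ifs <;> simp
    · split_ifs with h1
      · rw [show T - (M - 1) = T + 1 - M by omega]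
      · simp
  · intro T M M' hM hM'
    have h := om_rel ψ _ _ _ _ _ (hadj _ _)
      (mul_comm_rule (pair_J Q (T + 1 - M) hQ) (pair_J Q M hQ))
      (mul_comm_rule (pair_JT Q (T - M') hQ) (pair_JT Q M' hQ))
    simp only [Matrix.smul_mul, Matrix.mul_smul, om_add_left, om_add_right, om_smul_left,
      om_smul_right] at h
    have e1 : T + 1 - M - 1 = T - M := by omega
    have e2 : T - M' + 1 = T + 1 - M' := by omega
    have e3 : T + 1 - (M' + 1) = T - M' := by omega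
    have e4 : (1 ≤ T + 1 - M) ↔ M ≤ T := by omega
    unfold G4
    rw [e3, ← e2, ← h, e1]
    simp only [e4]
    congr 1
    · split_ifs <;> simp
    · split_ifs with h1
      · rw [show T - (M - 1) = T + 1 - M by omega]
      · simp
  · have h1 : E * om ψ (pairOp Q 0) (pairOp Q 0) = om ψ (pairOp Q 0) (pairOp Q 0 * hamF Q) := by
      simp only [om, ← mulVec_mulVec, hψ, mulVec_smul, dotProduct_smul, smul_eq_mul, mul_sum]
    have h2 : ∀ M, om ψ (pairOp Q 0) (pairOp Q 0 * ((pairOp Q M)ᵀ * pairOp Q M)) =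
        (if M = 0 then om ψ (pairOp Q 0) (pairOp Q 0) else 0) -
        (phi Q M 0 * G3 Q ψ (M + 1) 0 M - phi Q M 1 * G3 Q ψ M 0 M) + G4 Q ψ M 0 0 := by
      intro M
      rw [← Matrix.mul_assoc, pair_zero_pairT Q M hQ]
      simp only [Matrix.add_mul, Matrix.sub_mul, Matrix.smul_mul, Matrix.mul_assoc, om_add_right,
        om_sub_right, om_smul_right, om_mul_right]
      unfold G3 G4
      rw [Nat.sub_zero, Nat.sub_zero, Nat.add_sub_cancel_left, Nat.sub_self, pairOp_comm Q 0 M]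
      split_ifs with h
      · rw [h, Matrix.one_mul]; ring
      · simp only [om, Matrix.zero_mul, zero_mulVec, dotProduct_zero, sum_const_zero]; ring
    rw [h1]
    unfold hamF
    rw [Matrix.mul_sum, om_sum_right]
    simp only [h2, sum_add_distrib]
    rw [sum_sub_distrib, sum_ite_eq' (range (2 * Q - 1)) 0, if_pos (mem_range.mpr (by omega))]

theorem eig_exists (Q : ℕ) (hQ : 1 ≤ Q) (E : ℝ) (hE : E ≠ 0) (v : Idx (Q + 1) → ℝ) (hv : v ≠ 0)
    (hEv : hamF Q *ᵥ v = E • v) :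
    ∃ (k : ℕ) (ψ : Fin k → Idx (Q + 1) → ℝ) (g : ℝ), Eig Q E g ψ := by
  classical
  obtain ⟨b, l, hb, hn, hx⟩ := exists_eigenbasis (hamF Q) (hamF_T Q)
  let e := Fintype.equivFin {i // l i = E}
  have hsp : ∀ w, hamF Q *ᵥ w = E • w → w = ∑ s, (b (e.symm s).1 ⬝ᵥ w) • b (e.symm s).1 := by
    intro w hw
    have h0 : ∀ i, l i ≠ E → b i ⬝ᵥ w = 0 := by
      intro i hi
      have h1 := mulVec_dot (hamF Q) (b i) w
      rw [hamF_T, hb, hw, smul_dotProduct, dotProduct_smul, smul_eq_mul, smul_eq_mul] at h1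
      by_contra h2
      exact hi (mul_right_cancel₀ h2 h1)
    rw [e.symm.sum_comp (fun i : {i // l i = E} => (b i.1 ⬝ᵥ w) • b i.1)]
    conv_lhs => rw [hx w]
    rw [← Fintype.sum_subtype_add_sum_subtype (fun i => l i = E)]
    rw [sum_eq_zero (s := (univ : Finset {i // ¬ l i = E})), add_zero]
    intro i _
    rw [h0 i.1 i.2, zero_smul]
  refine ⟨_, fun s => b (e.symm s).1, _, eig_of_basis Q hQ E hE _ (fun r => ?_) hsp ?_⟩
  · rw [hb, (e.symm r).2]
  · simp only [hn]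
    rcases isEmpty_or_nonempty (Fin (Fintype.card {i // l i = E})) with h | h
    · exact absurd ((hsp v hEv).trans (Fintype.sum_empty _)) hv
    · exact sum_pos (fun _ _ => one_pos) univ_nonempty

theorem pairOp_of_ge (Q M : ℕ) (hM : 2 * Q - 1 ≤ M) : pairOp Q M = 0 := by
  unfold pairOp
  refine sum_eq_zero fun c _ => ?_
  rcases Nat.eq_zero_or_pos Q with h | h
  · subst h; simp [phi]
  · rw [phi_of_ge Q M c h hM, zero_div, zero_smul]

theorem dot_hamF (Q : ℕ) (v : Idx (Q + 1) → ℝ) : v ⬝ᵥ (hamF Q *ᵥ v) =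
    ∑ M ∈ range (2 * Q - 1), (pairOp Q M *ᵥ v) ⬝ᵥ (pairOp Q M *ᵥ v) := by
  unfold hamF
  simp only [sum_mulVec, dotProduct_sum, ← mulVec_mulVec, mulVec_dot]

theorem fockGap_of_eig (Q : ℕ) (δ : ℝ)
    (h : ∀ (E : ℝ) (v : Idx (Q + 1) → ℝ), E ≠ 0 → v ≠ 0 → hamF Q *ᵥ v = E • v → δ ≤ E) :
    FockGap δ Q := by
  classical
  obtain ⟨b, l, hb, hn, hx⟩ := exists_eigenbasis (hamF Q) (hamF_T Q)
  intro v hv
  rw [← dot_hamF]
  have h1 : v ⬝ᵥ v = ∑ i, (b i ⬝ᵥ v) ^ 2 := by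
    conv_lhs => enter [1]; rw [hx v]
    simp only [sum_dotProduct, smul_dotProduct, smul_eq_mul, sq]
  have h2 : v ⬝ᵥ (hamF Q *ᵥ v) = ∑ i, l i * (b i ⬝ᵥ v) ^ 2 := by
    conv_lhs => enter [2, 2]; rw [hx v]
    simp only [mulVec_sum, mulVec_smul, hb, dotProduct_sum, dotProduct_smul, smul_eq_mul]
    exact sum_congr rfl fun i _ => by rw [dotProduct_comm v]; ring
  rw [h1, h2, mul_sum]
  refine sum_le_sum fun i _ => ?_
  by_cases hl : l i = 0
  · have h3 : b i ⬝ᵥ v = 0 := by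
      rw [dotProduct_comm]
      refine hv _ fun M => ?_
      by_cases hM : M < 2 * Q - 1
      · have h4 := dot_hamF Q (b i)
        rw [hb, hl, zero_smul, dotProduct_zero] at h4
        have h5 := (sum_eq_zero_iff_of_nonneg (fun M _ => dot_self_nonneg _)).mp h4.symm M
          (mem_range.mpr hM)
        exact dotProduct_self_eq_zero.mp h5
      · rw [pairOp_of_ge Q M (not_lt.mp hM), zero_mulVec]
    rw [h3]; simp
  · refine mul_le_mul_of_nonneg_right (h _ (b i) hl ?_ (hb i)) (sq_nonneg _)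
    intro h0
    have := hn i
    rw [h0] at this
    simp at this

end Vale.Agent.P359
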