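import Vale.Agent.P359.FDefs

/-! Part Coef: identities, normalization, limits and tail bound for the pair amplitudes. -/

namespace Vale.Agent.P359
open Finset Filter Topology

noncomputable def jj (n c : ℕ) : ℝ := √(((c : ℝ) + 1) * ((n : ℝ) - c))

lemma choose_step (n c : ℕ) : (n.choose (c + 1) : ℝ) * (c + 1) = n.choose c * ((n : ℝ) - c) := by
  rcases le_or_gt c n with h | h
  · exact_mod_cast Nat.choose_succ_right_eq n c
  · simp [Nat.choose_eq_zero_of_lt h, Nat.choose_eq_zero_of_lt (h.trans c.lt_succ_self)]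

lemma bet_of_lt {n c : ℕ} (h : n < c) : bet n c = 0 := by simp [bet, Nat.choose_eq_zero_of_lt h]

lemma bet_pos {n c : ℕ} (h : c ≤ n) : 0 < bet n c :=
  Real.sqrt_pos.2 (by exact_mod_cast Nat.choose_pos h)

lemma jj_top {n c : ℕ} (h : n ≤ c) : jj n c = 0 := Real.sqrt_eq_zero'.2
  (mul_nonpos_of_nonneg_of_nonpos (by positivity) (sub_nonpos.2 (by exact_mod_cast h)))

lemma jj_bet (n c : ℕ) : jj n c * bet n c = (c + 1) * bet n (c + 1) := by
  rw [jj, bet, bet, ← Real.sqrt_mul' _ (by positivity), mul_assoc, mul_comm (_ - _), ← choose_step,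
    mul_comm (n.choose _ : ℝ), ← mul_assoc, Real.sqrt_mul' _ (by positivity),
    Real.sqrt_mul_self (by positivity)]

lemma jj_bet' (n c : ℕ) : jj n c * bet n (c + 1) = (n - c) * bet n c := by
  rcases le_or_gt c n with h | h
  · rw [jj, bet, bet, ← Real.sqrt_mul' _ (by positivity), mul_comm, ← mul_assoc, choose_step,
      mul_assoc, mul_comm, Real.sqrt_mul' _ (by positivity),
      Real.sqrt_mul_self (sub_nonneg.2 (by exact_mod_cast h))]
  · rw [jj_top h.le, bet_of_lt h, zero_mul, mul_zero]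

lemma jU_eq (Q f : ℕ) : jU Q f = jj Q f / √Q := Real.sqrt_div' _ Q.cast_nonneg

lemma cast_two (Q : ℕ) (hQ : 1 ≤ Q) : ((2 * Q - 2 : ℕ) : ℝ) = 2 * Q - 2 := by
  rw [Nat.cast_sub (by omega)]; norm_num

lemma jV_eq (Q M : ℕ) (hQ : 1 ≤ Q) : jV Q M = jj (2 * Q - 2) M / √Q := by
  rw [jj, cast_two Q hQ]; exact Real.sqrt_div' _ Q.cast_nonneg

lemma phi_eq (Q : ℕ) {M c d : ℕ} (h : c + d = M + 1) : phi Q M c =
    ((d : ℝ) - c) * bet Q c * bet Q d / √Q / bet (2 * Q - 2) M := by
  have : (M : ℝ) + 1 = c + d := by exact_mod_cast h.symm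
  rw [phi, Real.sqrt_mul Q.cast_nonneg, div_div, this, show M + 1 - c = d by omega, bet.eq_1 _ M]
  ring

theorem phi_antisymm (Q M c : ℕ) (hc : c ≤ M + 1) : phi Q M (M + 1 - c) = - phi Q M c := by
  rw [phi_eq Q (Nat.sub_add_cancel hc), phi_eq Q (Nat.add_sub_cancel' hc)]
  ring

theorem phi_of_ge (Q M c : ℕ) (hQ : 1 ≤ Q) (hM : 2 * Q - 1 ≤ M) : phi Q M c = 0 := by
  simp [phi, Nat.choose_eq_zero_of_lt (show 2 * Q - 2 < M by omega)]

theorem phi_of_lt (Q M c : ℕ) (hc : Q < c) : phi Q M c = 0 := by simp [phi, bet_of_lt hc]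

theorem phi_zero_zero (Q : ℕ) (hQ : 1 ≤ Q) : phi Q 0 0 = 1 := by
  simp [phi, bet, show Q ≠ 0 by omega]

/-- nonvanishing: `c, M+1-c ≤ Q`, `2c ≠ M+1`. -/
theorem phi_ne_zero (Q M c : ℕ) (hQ : 1 ≤ Q) (hc : c ≤ M + 1) (h1 : c ≤ Q) (h2 : M + 1 - c ≤ Q)
    (h3 : 2 * c ≠ M + 1) : phi Q M c ≠ 0 := by
  rw [phi_eq Q (Nat.add_sub_cancel' hc)]
  exact div_ne_zero (div_ne_zero (mul_ne_zero (mul_ne_zero (sub_ne_zero.2 (by
    exact_mod_cast (by omega : M + 1 - c ≠ c))) (bet_pos h1).ne') (bet_pos h2).ne')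
    (Real.sqrt_pos.2 (by exact_mod_cast hQ)).ne') (bet_pos (by omega)).ne'

theorem phi_lower (Q M c : ℕ) (hQ : 1 ≤ Q) (hc : c ≤ M + 1) :
    phi Q (M + 1) c * jU Q (M + 1 - c) + phi Q (M + 1) (c + 1) * jU Q c =
      jV Q M * phi Q M c := by
  obtain ⟨d, hd⟩ : ∃ d, c + d = M + 1 := ⟨_, Nat.add_sub_cancel' hc⟩
  have h : (M : ℝ) = c + d - 1 := by rw [eq_sub_iff_add_eq]; exact_mod_cast hd.symm
  have e : (2 * Q - 2 - M) / bet (2 * Q - 2) (M + 1) = jj (2 * Q - 2) M / bet (2 * Q - 2) M := by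
    rcases lt_or_ge M (2 * Q - 2) with h | h
    · rw [div_eq_div_iff (bet_pos h).ne' (bet_pos h.le).ne', jj_bet', cast_two Q hQ]
    · rw [jj_top h, bet_of_lt (Nat.lt_succ_of_le h), div_zero, zero_div]
  rw [show M + 1 - c = d by omega, phi_eq Q (show c + (d + 1) = M + 1 + 1 by omega),
    phi_eq Q (show c + 1 + d = M + 1 + 1 by omega), phi_eq Q hd, jU_eq, jU_eq, jV_eq Q M hQ]
  push_cast
  rw [h] at e
  linear_combination ((d + 1 - c) * bet Q c / √Q / √Q / bet (2 * Q - 2) (M + 1)) * jj_bet' Q d +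
    ((d - (c + 1)) * bet Q d / √Q / √Q / bet (2 * Q - 2) (M + 1)) * jj_bet' Q c +
    ((d - c) * bet Q c * bet Q d / √Q / √Q) * e

theorem phi_raise (Q M c : ℕ) (hQ : 1 ≤ Q) (hc : c ≤ M + 2) :
    (if c ≤ M + 1 then phi Q M c * jU Q (M + 1 - c) else 0) +
      (if 1 ≤ c then phi Q M (c - 1) * jU Q (c - 1) else 0) = jV Q M * phi Q (M + 1) c := by
  obtain ⟨d, hd⟩ : ∃ d, c + d = M + 1 + 1 := ⟨_, Nat.add_sub_cancel' hc⟩
  have h : (M : ℝ) + 1 = c + d - 1 := by rw [eq_sub_iff_add_eq]; exact_mod_cast hd.symm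
  have e : (d - c) * bet Q c * bet Q d * ((M + 1) / bet (2 * Q - 2) M) =
      (d - c) * bet Q c * bet Q d * (jj (2 * Q - 2) M / bet (2 * Q - 2) (M + 1)) := by
    rcases lt_trichotomy M (2 * Q - 2) with h | h | h
    · rw [(div_eq_div_iff (bet_pos h.le).ne' (bet_pos h).ne').2 (jj_bet _ _).symm]
    · rcases lt_trichotomy c Q with h' | h' | h'
      · simp [bet_of_lt (show Q < d by omega)]
      · simp [show d = c by omega]
      · simp [bet_of_lt h']
    · rw [jj_top h.le, bet_of_lt h, div_zero, zero_div]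
  have e1 : (if c ≤ M + 1 then phi Q M c * jU Q (M + 1 - c) else 0) =
      (d - 1 - c) * d * bet Q c * bet Q d / √Q / √Q / bet (2 * Q - 2) M := by
    rcases d with _ | d
    · rw [if_neg (by omega)]; simp
    · rw [if_pos (by omega), show M + 1 - c = d by omega, phi_eq Q (show c + d = M + 1 by omega),
        jU_eq]
      push_cast
      linear_combination ((d - c) * bet Q c / √Q / √Q / bet (2 * Q - 2) M) * jj_bet Q d
  have e2 : (if 1 ≤ c then phi Q M (c - 1) * jU Q (c - 1) else 0) =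
      (d + 1 - c) * c * bet Q c * bet Q d / √Q / √Q / bet (2 * Q - 2) M := by
    rcases c with _ | c
    · simp
    · rw [if_pos (by omega), Nat.add_sub_cancel, phi_eq Q (show c + d = M + 1 by omega), jU_eq]
      push_cast
      linear_combination ((d - c) * bet Q d / √Q / √Q / bet (2 * Q - 2) M) * jj_bet Q c
  rw [e1, e2, phi_eq Q hd, jV_eq Q M hQ]
  rw [h] at e
  linear_combination (1 / √Q / √Q) * e

theorem jV_pos (Q M : ℕ) (hM : M + 2 < 2 * Q) : 0 < jV Q M := by
  have : (M : ℝ) + 2 < 2 * Q := by exact_mod_cast hM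
  exact Real.sqrt_pos.2 (div_pos (mul_pos (by positivity) (by linarith))
    (by exact_mod_cast (by omega : 0 < Q)))

theorem phi_norm (Q M : ℕ) (hQ : 1 ≤ Q) (hM : M < 2 * Q - 1) :
    ∑ c ∈ range (M + 2), phi Q M c ^ 2 = 2 := by
  induction M with
  | zero =>
    have := phi_antisymm Q 0 0 (by omega)
    norm_num [sum_range_succ, phi_zero_zero Q hQ] at this ⊢
    norm_num [this]
  | succ M ih =>
    refine mul_left_cancel₀ (jV_pos Q M (by omega)).ne' ?_
    rw [← ih (by omega), mul_sum, mul_sum, sum_congr rfl fun c hc => by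
      rw [sq, ← mul_assoc, ← phi_raise Q M c hQ (by have := mem_range.1 hc; omega), add_mul],
      sum_add_distrib, sum_range_succ, sum_range_succ' _ (M + 2), if_neg (by omega),
      if_neg (by omega), zero_mul, zero_mul, add_zero, add_zero, ← sum_add_distrib]
    refine sum_congr rfl fun c hc => ?_
    have := mem_range.1 hc
    rw [if_pos (by omega), if_pos (by omega), Nat.add_sub_cancel]
    linear_combination phi Q M c * phi_lower Q M c hQ (by omega)

theorem jV_top (Q M : ℕ) (hM : 2 * Q ≤ M + 2) : jV Q M = 0 := by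
  have : 2 * (Q : ℝ) ≤ M + 2 := by exact_mod_cast hM
  exact Real.sqrt_eq_zero'.2 (div_nonpos_of_nonpos_of_nonneg
    (mul_nonpos_of_nonneg_of_nonpos (by positivity) (by linarith)) Q.cast_nonneg)

theorem jU_top (Q f : ℕ) (hf : Q ≤ f) : jU Q f = 0 := by rw [jU_eq, jj_top hf, zero_div]

lemma tendsto_lin (a b : ℝ) : Tendsto (fun Q : ℕ => (a * Q - b) / Q) atTop (𝓝 a) := by
  refine ((tendsto_const_div_atTop_nhds_zero_nat b).const_sub a |> fun h => by
    simpa only [sub_zero] using h : Tendsto (fun Q : ℕ => a - b / Q) atTop (𝓝 a)).congr' ?_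
  filter_upwards [eventually_gt_atTop 0] with Q h
  field_simp

theorem tendsto_jU (f : ℕ) : Tendsto (fun Q => jU Q f) atTop (𝓝 (Real.sqrt (f + 1))) := by
  simpa only [jU, mul_div_assoc, one_mul, mul_one] using
    ((tendsto_lin 1 f).const_mul (f + 1 : ℝ)).sqrt

theorem tendsto_jV (M : ℕ) :
    Tendsto (fun Q => jV Q M) atTop (𝓝 (Real.sqrt (2 * (M + 1)))) := by
  simpa only [jV, mul_div_assoc, sub_sub, mul_comm (M + 1 : ℝ) 2] using
    ((tendsto_lin 2 (2 + M)).const_mul (M + 1 : ℝ)).sqrt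

lemma tendsto_choose {n : ℕ → ℕ} {a b : ℝ} (h : ∀ᶠ Q in atTop, (n Q : ℝ) = a * Q - b) (k : ℕ) :
    Tendsto (fun Q : ℕ => ((n Q).choose k : ℝ) / Q ^ k) atTop (𝓝 (a ^ k / k.factorial)) := by
  induction k with
  | zero => simp
  | succ k ih =>
    rw [show a ^ (k + 1) / (k + 1).factorial = a ^ k / k.factorial * a / (k + 1) by
      rw [Nat.factorial_succ, pow_succ]; push_cast; field_simp]
    refine ((ih.mul (tendsto_lin a (b + k))).div_const _).congr' (h.mono fun Q h => ?_)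
    dsimp only
    rw [← sub_sub, ← h, div_mul_div_comm, ← choose_step, pow_succ, div_right_comm,
      mul_div_cancel_right₀ _ (by positivity)]

theorem tendsto_phi (M c : ℕ) (hc : c ≤ M + 1) :
    Tendsto (fun Q => phi Q M c) atTop (𝓝 (phiInf M c)) := by
  have h1 := tendsto_choose (n := id) (a := 1) (b := 0) (.of_forall fun _ => by simp)
  have h2 := tendsto_choose (n := fun Q => 2 * Q - 2)
    ((eventually_ge_atTop 1).mono cast_two) M
  have := ((((h1 c).mul (h1 (M + 1 - c))).div h2 (by positivity)).sqrt.const_mul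
    ((M : ℝ) + 1 - 2 * c))
  rw [phiInf]
  convert this.congr' ?_ using 4
  · rw [one_pow, one_pow]; field_simp
  filter_upwards [eventually_gt_atTop 0] with Q h
  rw [phi, bet, bet, mul_assoc, mul_div_assoc, ← Real.sqrt_mul (by positivity),
    ← Real.sqrt_div' _ (by positivity), Pi.div_apply, div_mul_div_comm, ← pow_add,
    Nat.add_sub_cancel' hc, pow_succ, id]
  congr 2
  field_simp

theorem tail_bound : ∀ᶠ Q in atTop,
    ∑ M ∈ Ico 28 (2 * Q - 1), (|phi Q M 0| + |phi Q M 1|) ≤ 1 / 100 := by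
  filter_upwards [eventually_ge_atTop 40] with Q hQ
  have Q0 : (40 : ℝ) ≤ Q := by exact_mod_cast hQ
  have r : ∀ M, 2 ≤ M → 2 ^ M * (Q.choose M : ℝ) ≤ 1.04 * (2 * Q - 2).choose M := fun M hM => by
    induction M, hM using Nat.le_induction with
    | base =>
      rw [Nat.cast_choose_two, Nat.cast_choose_two, cast_two Q (by omega)]
      nlinarith
    | succ M hM ih =>
      rcases le_or_gt M Q with h | h
      · have h' : (M : ℝ) ≤ Q := by exact_mod_cast h
        have h2 : (2 : ℝ) ≤ M := by exact_mod_cast hM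
        refine le_of_mul_le_mul_right ?_ (show (0 : ℝ) < M + 1 by positivity)
        rw [mul_assoc, mul_assoc, choose_step, choose_step, cast_two Q (by omega), pow_succ]
        linarith [mul_le_mul ih (show 2 * (Q - M : ℝ) ≤ 2 * Q - 2 - M by linarith) (by linarith)
          (by positivity)]
      · rw [Nat.choose_eq_zero_of_lt (h.trans M.lt_succ_self), Nat.cast_zero, mul_zero]
        positivity
  have t : ∀ M, 28 ≤ M → |phi Q M 0| + |phi Q M 1| ≤
      4.5 * M * 0.7072 ^ M - 4.5 * (M + 1 : ℕ) * 0.7072 ^ (M + 1) := fun M hM => by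
    have M0 : (28 : ℝ) ≤ M := by exact_mod_cast hM
    have q0 : (0 : ℝ) < 0.7072 ^ M := by positivity
    have a1 : bet Q M / bet (2 * Q - 2) M ≤ 1.02 * 0.7072 ^ M := by
      rw [bet, bet, ← Real.sqrt_div' _ (by positivity)]
      refine Real.sqrt_le_iff.2 ⟨by positivity, div_le_of_le_mul₀ (by positivity) (by positivity)
        (le_of_mul_le_mul_left ((r M (by omega)).trans ?_) (show (0 : ℝ) < 2 ^ M by positivity))⟩
      rw [← mul_assoc, mul_pow, ← pow_mul, mul_comm M, pow_mul, mul_left_comm, ← mul_pow]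
      exact mul_le_mul_of_nonneg_right (by
        linarith [one_le_pow₀ (n := M) (show (1 : ℝ) ≤ 2 * 0.7072 ^ 2 by norm_num)]) (by positivity)
    have a0 : 0 ≤ bet Q M / bet (2 * Q - 2) M := by unfold bet; positivity
    have a2 : phi Q M 0 = jU Q M * (bet Q M / bet (2 * Q - 2) M) := by
      rw [phi_eq Q (zero_add _), jU_eq, show bet Q 0 = 1 by simp [bet]]
      push_cast
      linear_combination (-1 / √Q / bet (2 * Q - 2) M) * jj_bet Q M
    have a3 : phi Q M 1 = (M - 1) * (bet Q M / bet (2 * Q - 2) M) := by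
      have : √(Q : ℝ) ≠ 0 := by positivity
      rw [phi_eq Q (add_comm _ _), show bet Q 1 = √Q by simp [bet]]
      field_simp
      simp [mul_comm]
    have a4 : jU Q M ≤ (M + 1) / 5 := Real.sqrt_le_iff.2 ⟨by positivity,
      div_le_of_le_mul₀ (by positivity) (by positivity) ((mul_le_mul_of_nonneg_left
        (sub_le_self _ M.cast_nonneg) (by positivity)).trans
        (mul_le_mul_of_nonneg_right (by nlinarith) (by positivity)))⟩
    rw [a2, a3, abs_of_nonneg (mul_nonneg (show 0 ≤ jU Q M from Real.sqrt_nonneg _) a0),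
      abs_of_nonneg (mul_nonneg (by linarith) a0), ← add_mul, pow_succ]
    push_cast
    nlinarith [mul_le_mul (add_le_add a4 (le_refl (M - 1 : ℝ))) a1 a0 (by linarith),
      mul_nonneg (sub_nonneg.2 M0) q0.le]
  refine (sum_le_sum fun M hM => t M (mem_Ico.1 hM).1).trans ?_
  rw [← neg_le_neg_iff, ← sum_neg_distrib]
  simp only [neg_sub]
  rw [sum_Ico_sub (fun M : ℕ => (4.5 * M * 0.7072 ^ M : ℝ)) (by omega)]
  have : (0 : ℝ) ≤ 4.5 * (2 * Q - 1 : ℕ) * 0.7072 ^ (2 * Q - 1) := by positivity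
  linarith [show (4.5 * (28 : ℕ) * 0.7072 ^ 28 : ℝ) ≤ 1 / 100 by norm_num]

end Vale.Agent.P359
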