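import Vale.Agent.P359.Car
import Vale.Agent.P359.Coef

/-! Part Alg, first half: su(2) covariance of the pair operators. -/

namespace Vale.Agent.P359
open Finset Matrix

/-- The lowering generator. -/
noncomputable def Jop (Q : ℕ) : Matrix (Idx (Q + 1)) (Idx (Q + 1)) ℝ :=
  ∑ f ∈ range Q, jU Q f • ((ann (Q + 1) (f + 1))ᵀ * ann (Q + 1) f)

theorem ann_mul_bil (n g c d : ℕ) :
    ann n g * ((ann n c)ᵀ * ann n d) =
      ((ann n c)ᵀ * ann n d) * ann n g + if g = c ∧ g < n then ann n d else 0 := by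
  have h1 : ann n g * (ann n c)ᵀ =
      (if g = c ∧ g < n then 1 else 0) - (ann n c)ᵀ * ann n g := by
    rw [← ann_car]; abel
  rw [← Matrix.mul_assoc, h1, Matrix.sub_mul, Matrix.mul_assoc, ann_anticomm n g d,
    Matrix.mul_neg, ← Matrix.mul_assoc]
  split_ifs <;> simp [add_comm]

theorem ann_J (Q g : ℕ) : ann (Q + 1) g * Jop Q =
    Jop Q * ann (Q + 1) g + (if 1 ≤ g then jU Q (g - 1) else 0) • ann (Q + 1) (g - 1) := by
  unfold Jop
  rw [Matrix.mul_sum, Matrix.sum_mul]
  simp only [Matrix.mul_smul, Matrix.smul_mul, ann_mul_bil, smul_add, sum_add_distrib]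
  congr 1
  rcases g with _ | g
  · simp
  · simp only [Nat.add_right_cancel_iff, le_add_iff_nonneg_left, zero_le, if_true,
      Nat.add_sub_cancel, Nat.add_lt_add_iff_right]
    by_cases hg : g < Q
    · rw [sum_eq_single g]
      · simp [hg]
      · intro f _ hf; rw [if_neg (fun h => hf h.1.symm), smul_zero]
      · intro h; exact absurd (mem_range.mpr hg) h
    · rw [jU_top Q g (not_lt.mp hg), zero_smul]
      exact sum_eq_zero fun f _ => by rw [if_neg (fun h => hg h.2), smul_zero]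

theorem Jop_T (Q : ℕ) : (Jop Q)ᵀ =
    ∑ f ∈ range Q, jU Q f • ((ann (Q + 1) f)ᵀ * ann (Q + 1) (f + 1)) := by
  unfold Jop
  rw [transpose_sum]
  simp only [transpose_smul, transpose_mul, transpose_transpose]

theorem ann_JT (Q g : ℕ) : ann (Q + 1) g * (Jop Q)ᵀ =
    (Jop Q)ᵀ * ann (Q + 1) g + jU Q g • ann (Q + 1) (g + 1) := by
  rw [Jop_T, Matrix.mul_sum, Matrix.sum_mul]
  simp only [Matrix.mul_smul, Matrix.smul_mul, ann_mul_bil, smul_add, sum_add_distrib]
  congr 1
  by_cases hg : g < Q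
  · rw [sum_eq_single g]
    · rw [if_pos ⟨rfl, by omega⟩]
    · intro f _ hf; rw [if_neg (fun h => hf h.1.symm), smul_zero]
    · intro h; exact absurd (mem_range.mpr hg) h
  · rw [jU_top Q g (not_lt.mp hg), zero_smul]
    refine sum_eq_zero fun f hf => ?_
    have := mem_range.mp hf
    rw [if_neg (by omega), smul_zero]

theorem mul_comm_rule {ι : Type*} [Fintype ι] {X Y J X' Y' : Matrix ι ι ℝ}
    (hX : X * J = J * X + X') (hY : Y * J = J * Y + Y') :
    X * Y * J = J * (X * Y) + (X' * Y + X * Y') := by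
  rw [Matrix.mul_assoc, hY, Matrix.mul_add, ← Matrix.mul_assoc, hX, Matrix.add_mul,
    Matrix.mul_assoc, add_assoc]

theorem pair_J_succ (Q M : ℕ) (hQ : 1 ≤ Q) : pairOp Q (M + 1) * Jop Q =
    Jop Q * pairOp Q (M + 1) + jV Q M • pairOp Q M := by
  unfold pairOp
  rw [Matrix.mul_sum, Matrix.sum_mul]
  simp only [Matrix.mul_smul, Matrix.smul_mul, mul_comm_rule (ann_J Q _) (ann_J Q _), smul_add,
    sum_add_distrib, smul_sum]
  congr 1
  rw [sum_range_succ _ (M + 2), sum_range_succ' _ (M + 2)]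
  simp only [Nat.sub_self, nonpos_iff_eq_zero, one_ne_zero, if_false, zero_smul, smul_zero,
    add_zero, le_add_iff_nonneg_left, zero_le, if_true, Nat.add_sub_cancel]
  rw [← sum_add_distrib]
  refine sum_congr rfl fun c hc => ?_
  have hc' : c ≤ M + 1 := by have := mem_range.mp hc; omega
  have e1 : M + 1 + 1 - c - 1 = M + 1 - c := by omega
  have e2 : M + 1 + 1 - (c + 1) = M + 1 - c := by omega
  rw [if_pos (by omega), e1, e2, smul_smul, smul_smul, smul_smul, ← add_smul]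
  congr 1
  linarith [phi_lower Q M c hQ hc']

theorem pair_J_zero (Q : ℕ) : pairOp Q 0 * Jop Q = Jop Q * pairOp Q 0 := by
  unfold pairOp
  rw [Matrix.mul_sum, Matrix.sum_mul]
  simp only [Matrix.mul_smul, Matrix.smul_mul, mul_comm_rule (ann_J Q _) (ann_J Q _), smul_add,
    sum_add_distrib]
  simp [sum_range_succ, ann_mul_self]

theorem pair_J (Q M : ℕ) (hQ : 1 ≤ Q) : pairOp Q M * Jop Q =
    Jop Q * pairOp Q M + (if 1 ≤ M then jV Q (M - 1) else 0) • pairOp Q (M - 1) := by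
  rcases M with _ | M
  · simp [pair_J_zero]
  · simp [pair_J_succ Q M hQ]

theorem pair_JT (Q M : ℕ) (hQ : 1 ≤ Q) : pairOp Q M * (Jop Q)ᵀ =
    (Jop Q)ᵀ * pairOp Q M + jV Q M • pairOp Q (M + 1) := by
  unfold pairOp
  rw [Matrix.mul_sum, Matrix.sum_mul]
  simp only [Matrix.mul_smul, Matrix.smul_mul, mul_comm_rule (ann_JT Q _) (ann_JT Q _), smul_add,
    sum_add_distrib, smul_sum]
  congr 1
  have key : ∀ c ∈ range (M + 1 + 2), jV Q M • (phi Q (M + 1) c / 2) •
      (ann (Q + 1) (M + 1 + 1 - c) * ann (Q + 1) c) =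
      ((if c ≤ M + 1 then phi Q M c * jU Q (M + 1 - c) else 0) / 2) •
        (ann (Q + 1) (M + 1 + 1 - c) * ann (Q + 1) c) +
      ((if 1 ≤ c then phi Q M (c - 1) * jU Q (c - 1) else 0) / 2) •
        (ann (Q + 1) (M + 1 + 1 - c) * ann (Q + 1) c) := by
    intro c hc
    have hc' : c ≤ M + 2 := by have := mem_range.mp hc; omega
    rw [smul_smul, ← add_smul]
    congr 1
    linarith [phi_raise Q M c hQ hc']
  rw [sum_congr rfl key, sum_add_distrib, sum_range_succ _ (M + 2), sum_range_succ' _ (M + 2)]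
  simp only [nonpos_iff_eq_zero, one_ne_zero, if_false, zero_smul, zero_div,
    add_zero, le_add_iff_nonneg_left, zero_le, if_true, Nat.add_sub_cancel]
  rw [if_neg (by omega), zero_div, zero_smul, add_zero]
  congr 1
  · refine sum_congr rfl fun c hc => ?_
    have hc' : c ≤ M + 1 := by have := mem_range.mp hc; omega
    have e1 : M + 1 + 1 - c = M + 1 - c + 1 := by omega
    rw [if_pos hc', e1, smul_smul]
    congr 1; ring
  · refine sum_congr rfl fun c _ => ?_
    have e2 : M + 1 + 1 - (c + 1) = M + 1 - c := by omega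
    rw [e2, smul_smul]
    congr 1; ring

theorem hamF_T (Q : ℕ) : (hamF Q)ᵀ = hamF Q := by
  unfold hamF
  rw [transpose_sum]
  simp only [transpose_mul, transpose_transpose]

theorem hamF_J (Q : ℕ) (hQ : 1 ≤ Q) : hamF Q * Jop Q = Jop Q * hamF Q := by
  have h1 : ∀ M, (pairOp Q M)ᵀ * Jop Q =
      Jop Q * (pairOp Q M)ᵀ + -(jV Q M • (pairOp Q (M + 1))ᵀ) := by
    intro M
    have := congrArg transpose (pair_JT Q M hQ)
    simp only [transpose_mul, transpose_add, transpose_smul, transpose_transpose] at this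
    rw [this]; abel
  let t : ℕ → Matrix (Idx (Q + 1)) (Idx (Q + 1)) ℝ := fun M =>
    (if 1 ≤ M then jV Q (M - 1) else 0) • ((pairOp Q M)ᵀ * pairOp Q (M - 1))
  have h2 : ∀ M, (pairOp Q M)ᵀ * pairOp Q M * Jop Q =
      Jop Q * ((pairOp Q M)ᵀ * pairOp Q M) + (t M - t (M + 1)) := by
    intro M
    rw [mul_comm_rule (h1 M) (pair_J Q M hQ)]
    simp only [t, Matrix.neg_mul, Matrix.smul_mul, Matrix.mul_smul, le_add_iff_nonneg_left,
      zero_le, if_true, Nat.add_sub_cancel]
    abel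
  unfold hamF
  rw [Matrix.mul_sum, Matrix.sum_mul]
  simp only [h2, sum_add_distrib, sum_range_sub']
  have h3 : t 0 = 0 := by simp [t]
  have h4 : t (2 * Q - 1) = 0 := by
    simp only [t]
    rw [if_pos (by omega), jV_top Q _ (by omega), zero_smul]
  rw [h3, h4, sub_zero, add_zero]

theorem hamF_JT (Q : ℕ) (hQ : 1 ≤ Q) : hamF Q * (Jop Q)ᵀ = (Jop Q)ᵀ * hamF Q := by
  have := congrArg transpose (hamF_J Q hQ)
  simp only [transpose_mul, hamF_T] at this
  exact this.symm

theorem ann_pair_comm (n g c d : ℕ) :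
    ann n g * (ann n c * ann n d) = (ann n c * ann n d) * ann n g := by
  rw [← Matrix.mul_assoc, ann_anticomm n g c, Matrix.neg_mul, Matrix.mul_assoc,
    ann_anticomm n g d, Matrix.mul_neg, neg_neg, Matrix.mul_assoc]

theorem ann_pairOp (Q g M : ℕ) :
    ann (Q + 1) g * pairOp Q M = pairOp Q M * ann (Q + 1) g := by
  unfold pairOp
  rw [Matrix.mul_sum, Matrix.sum_mul]
  simp only [Matrix.mul_smul, Matrix.smul_mul, ann_pair_comm]

theorem pairOp_zero (Q : ℕ) (hQ : 1 ≤ Q) : pairOp Q 0 = ann (Q + 1) 1 * ann (Q + 1) 0 := by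
  have h1 : phi Q 0 1 = -1 := by
    have := phi_antisymm Q 0 0 (by omega)
    rw [phi_zero_zero Q hQ] at this
    simpa using this
  unfold pairOp
  simp only [sum_range_succ, range_zero, sum_empty, zero_add, phi_zero_zero Q hQ, h1,
    Nat.sub_zero, Nat.sub_self]
  rw [ann_anticomm (Q + 1) 0 1, smul_neg, ← neg_smul, ← add_smul]
  norm_num

theorem ann_pairT (Q g M : ℕ) (hg : g < Q + 1) (hgM : g ≤ M + 1) :
    ann (Q + 1) g * (pairOp Q M)ᵀ =
      (pairOp Q M)ᵀ * ann (Q + 1) g + phi Q M g • (ann (Q + 1) (M + 1 - g))ᵀ := by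
  have h1 : ∀ c, ann (Q + 1) g * (ann (Q + 1) c)ᵀ =
      (if g = c then 1 else 0) - (ann (Q + 1) c)ᵀ * ann (Q + 1) g := by
    intro c
    have := ann_car (Q + 1) g c
    simp only [hg, and_true] at this
    rw [← this]; abel
  have h2 : ∀ c d, ann (Q + 1) g * ((ann (Q + 1) c)ᵀ * (ann (Q + 1) d)ᵀ) =
      ((ann (Q + 1) c)ᵀ * (ann (Q + 1) d)ᵀ) * ann (Q + 1) g +
        ((if g = c then (ann (Q + 1) d)ᵀ else 0) - if g = d then (ann (Q + 1) c)ᵀ else 0) := by
    intro c d
    rw [← Matrix.mul_assoc, h1, Matrix.sub_mul, Matrix.mul_assoc, h1, Matrix.mul_sub,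
      Matrix.mul_assoc]
    split_ifs <;> simp <;> abel
  unfold pairOp
  rw [transpose_sum]
  simp only [transpose_smul, transpose_mul]
  rw [Matrix.mul_sum, Matrix.sum_mul]
  simp only [Matrix.mul_smul, Matrix.smul_mul, h2, smul_add, smul_sub, sum_add_distrib,
    sum_sub_distrib]
  congr 1
  rw [sum_eq_single g, sum_eq_single (M + 1 - g)]
  · rw [if_pos rfl, if_pos (by omega), phi_antisymm Q M g hgM, ← sub_smul]
    congr 1; ring
  · intro c hc hne
    have := mem_range.mp hc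
    rw [if_neg (by omega), smul_zero]
  · intro h; exact absurd (mem_range.mpr (by omega)) h
  · intro c _ hne
    rw [if_neg (fun h => hne h.symm), smul_zero]
  · intro h; exact absurd (mem_range.mpr (by omega)) h

theorem pair_zero_pairT (Q M : ℕ) (hQ : 1 ≤ Q) :
    pairOp Q 0 * (pairOp Q M)ᵀ = (if M = 0 then 1 else 0) -
      phi Q M 0 • ((ann (Q + 1) (M + 1))ᵀ * ann (Q + 1) 1) +
      phi Q M 1 • ((ann (Q + 1) M)ᵀ * ann (Q + 1) 0) + (pairOp Q M)ᵀ * pairOp Q 0 := by
  have h1 : ann (Q + 1) 1 * (ann (Q + 1) (M + 1))ᵀ =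
      (if M = 0 then 1 else 0) - (ann (Q + 1) (M + 1))ᵀ * ann (Q + 1) 1 := by
    have := ann_car (Q + 1) 1 (M + 1)
    have e : (1 = M + 1 ∧ 1 < Q + 1) ↔ M = 0 := by omega
    simp only [e] at this
    rw [← this]; abel
  have h2 : phi Q M 0 • (if M = 0 then (1 : Matrix (Idx (Q + 1)) (Idx (Q + 1)) ℝ) else 0) =
      if M = 0 then 1 else 0 := by
    split_ifs with h
    · rw [h, phi_zero_zero Q hQ, one_smul]
    · rw [smul_zero]
  rw [pairOp_zero Q hQ, Matrix.mul_assoc, ann_pairT Q 0 M (by omega) (by omega), Matrix.mul_add,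
    ← Matrix.mul_assoc, ann_pairT Q 1 M (by omega) (by omega), Matrix.mul_smul, Nat.sub_zero, h1,
    Nat.add_sub_cancel, smul_sub, h2, Matrix.add_mul, Matrix.smul_mul, Matrix.mul_assoc]
  abel

end Vale.Agent.P359
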