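import Mathlib

/-! Fock space definitions for P359. -/

namespace Vale.Agent.P359
open Finset Matrix

/-- Jordan-Wigner sign. -/
noncomputable def sg (f : ℕ) (S : Finset ℕ) : ℝ := ∏ i ∈ S, if i < f then (-1 : ℝ) else 1

/-- Annihilation operator on functions of occupation sets. -/
noncomputable def annF (f : ℕ) (Φ : Finset ℕ → ℝ) : Finset ℕ → ℝ :=
  fun S => if f ∈ S then 0 else sg f S * Φ (insert f S)

/-- Occupation basis of the Fock space with orbitals `0, …, n-1`. -/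
abbrev Idx (n : ℕ) : Type := ↥((range n).powerset)

/-- Annihilation matrix (zero for `f ≥ n`). -/
noncomputable def ann (n f : ℕ) : Matrix (Idx n) (Idx n) ℝ :=
  fun S T => if f ∉ S.1 ∧ T.1 = insert f S.1 then sg f S.1 else 0

/-- Extension by zero. -/
noncomputable def ext {n : ℕ} (v : Idx n → ℝ) : Finset ℕ → ℝ :=
  fun S => if h : S ∈ (range n).powerset then v ⟨S, h⟩ else 0

noncomputable def bet (Q c : ℕ) : ℝ := Real.sqrt (Q.choose c : ℕ)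

/-- Pair amplitude `φ_M(c, M+1-c)`, used for `c ≤ M + 1`. -/
noncomputable def phi (Q M c : ℕ) : ℝ :=
  ((M : ℝ) + 1 - 2 * c) * bet Q c * bet Q (M + 1 - c) /
    Real.sqrt ((Q : ℝ) * ((2 * Q - 2).choose M : ℕ))

noncomputable def jU (Q f : ℕ) : ℝ := Real.sqrt (((f : ℝ) + 1) * ((Q : ℝ) - f) / Q)

noncomputable def jV (Q M : ℕ) : ℝ := Real.sqrt (((M : ℝ) + 1) * (2 * (Q : ℝ) - 2 - M) / Q)

noncomputable def phiInf (M c : ℕ) : ℝ :=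
  ((M : ℝ) + 1 - 2 * c) *
    Real.sqrt ((M.factorial : ℝ) / ((c.factorial : ℝ) * ((M + 1 - c).factorial : ℝ) * 2 ^ M))

/-- Pair annihilation operator `B_M`. -/
noncomputable def pairOp (Q M : ℕ) : Matrix (Idx (Q + 1)) (Idx (Q + 1)) ℝ :=
  ∑ c ∈ range (M + 2), (phi Q M c / 2) • (ann (Q + 1) (M + 1 - c) * ann (Q + 1) c)

/-- Second quantized Hamiltonian. -/
noncomputable def hamF (Q : ℕ) : Matrix (Idx (Q + 1)) (Idx (Q + 1)) ℝ :=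
  ∑ M ∈ range (2 * Q - 1), (pairOp Q M)ᵀ * pairOp Q M

/-- `ω(X, Y) = ∑_r ⟨X ψ_r, Y ψ_r⟩`. -/
noncomputable def om {ι κ : Type} [Fintype ι] [Fintype κ] (ψ : κ → ι → ℝ)
    (X Y : Matrix ι ι ℝ) : ℝ :=
  ∑ r, (X *ᵥ ψ r) ⬝ᵥ (Y *ᵥ ψ r)

/-- Three-body Gram entries, `M, M' ≤ T`. -/
noncomputable def G3 {κ : Type} [Fintype κ] (Q : ℕ) (ψ : κ → Idx (Q + 1) → ℝ) (T M M' : ℕ) : ℝ :=
  om ψ (ann (Q + 1) (T - M) * pairOp Q M) (ann (Q + 1) (T - M') * pairOp Q M')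

/-- Four-body Gram entries, `M, M' ≤ T`. -/
noncomputable def G4 {κ : Type} [Fintype κ] (Q : ℕ) (ψ : κ → Idx (Q + 1) → ℝ) (T M M' : ℕ) : ℝ :=
  om ψ (pairOp Q (T - M) * pairOp Q M) (pairOp Q (T - M') * pairOp Q M')

/-- The facts about an eigenspace of `hamF Q` with eigenvalue `E` used by the certificates. -/
structure Eig {κ : Type} [Fintype κ] (Q : ℕ) (E g : ℝ) (ψ : κ → Idx (Q + 1) → ℝ) : Prop where
  pos : 0 < g
  norm : ∀ M, M < 2 * Q - 1 → om ψ (pairOp Q M) (pairOp Q M) = g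
  rel3 : ∀ T M M', M ≤ T + 1 → M' ≤ T →
    (if M ≤ T then jU Q (T - M) * G3 Q ψ T M M' else 0) +
      (if 1 ≤ M then jV Q (M - 1) * G3 Q ψ T (M - 1) M' else 0) =
    jU Q (T - M') * G3 Q ψ (T + 1) M M' + jV Q M' * G3 Q ψ (T + 1) M (M' + 1)
  rel4 : ∀ T M M', M ≤ T + 1 → M' ≤ T →
    (if M ≤ T then jV Q (T - M) * G4 Q ψ T M M' else 0) +
      (if 1 ≤ M then jV Q (M - 1) * G4 Q ψ T (M - 1) M' else 0) =
    jV Q (T - M') * G4 Q ψ (T + 1) M M' + jV Q M' * G4 Q ψ (T + 1) M (M' + 1)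
  energy : E * g = g - (∑ M ∈ range (2 * Q - 1),
      (phi Q M 0 * G3 Q ψ (M + 1) 0 M - phi Q M 1 * G3 Q ψ M 0 M)) +
    ∑ M ∈ range (2 * Q - 1), G4 Q ψ M 0 0

/-- The Fock space gap statement. -/
def FockGap (δ : ℝ) (Q : ℕ) : Prop :=
  ∀ v : Idx (Q + 1) → ℝ,
    (∀ κ : Idx (Q + 1) → ℝ, (∀ M, pairOp Q M *ᵥ κ = 0) → v ⬝ᵥ κ = 0) →
    δ * (v ⬝ᵥ v) ≤ ∑ M ∈ range (2 * Q - 1), (pairOp Q M *ᵥ v) ⬝ᵥ (pairOp Q M *ᵥ v)

end Vale.Agent.P359
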