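import Vale.Agent.P359.Defs
import Vale.Agent.P359.FDefs

/-! Auxiliary definitions for the bridge between first and second quantization. -/

namespace Vale.Agent.P359
open Finset Matrix

/-- Orthonormal basis of `spinComp Q` (for `M < 2Q - 1`). -/
noncomputable def wv (Q M : ℕ) (p : Orb Q × Orb Q) : ℝ :=
  if (p.1 : ℕ) + (p.2 : ℕ) = M + 1 then phi Q M p.1 / Real.sqrt 2 else 0

def AntiR {N Q : ℕ} (f : (Fin N → Orb Q) → ℝ) : Prop :=
  ∀ (σ : Equiv.Perm (Fin N)) (x : Fin N → Orb Q),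
    f (x ∘ σ) = (((Equiv.Perm.sign σ : ℤˣ) : ℤ) : ℝ) * f x

/-- Contraction of the first two particles with `wv Q M` (real version). -/
noncomputable def contrR {n Q : ℕ} (M : ℕ) (f : (Fin (n + 2) → Orb Q) → ℝ) :
    (Fin n → Orb Q) → ℝ :=
  fun x => ∑ q : Orb Q × Orb Q, wv Q M q * f (Fin.cons q.1 (Fin.cons q.2 x))

/-- First quantized wave function to Fock vector. -/
noncomputable def Tm (Q : ℕ) : (N : ℕ) → ((Fin N → Orb Q) → ℝ) → (Idx (Q + 1) → ℝ)
  | 0, f => fun S => if S.1 = ∅ then f (fun i => i.elim0) else 0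
  | N + 1, f => (1 / ((N : ℝ) + 1)) •
      ∑ c : Orb Q, (ann (Q + 1) c)ᵀ *ᵥ Tm Q N (fun x => f (Fin.cons c x))

end Vale.Agent.P359
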