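import Vale.Agent.P359.BDefs

/-! Part Laugh: the Laughlin vector is real, fermionic, nonzero and killed by the contractions. -/

namespace Vale.Agent.P359
open Finset MvPolynomial

/-- The basic antisymmetric factor `u_i v_j - u_j v_i`. -/
noncomputable def wf {N : ℕ} (i j : Fin N) : MvPolynomial (Fin N ⊕ Fin N) ℝ :=
  X (Sum.inl i) * X (Sum.inr j) - X (Sum.inl j) * X (Sum.inr i)

/-- Real form of the Laughlin polynomial. -/
noncomputable def lpR (N : ℕ) : MvPolynomial (Fin N ⊕ Fin N) ℝ :=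
  ∏ i : Fin N, ∏ j ∈ Ioi i, wf i j ^ 3

lemma laughlinPoly_eq (N : ℕ) : laughlinPoly N = map (algebraMap ℝ ℂ) (lpR N) := by
  simp [laughlinPoly, lpR, wf, map_prod]

lemma laughlin_eq (N : ℕ) (x : Fin N → Orb (3 * (N - 1))) :
    laughlin N x = ((coeff (monoExp x) (lpR N) / ∏ i, bet (3 * (N - 1)) (x i) : ℝ) : ℂ) := by
  simp [laughlin, laughlinPoly_eq, coeff_map, bet]

theorem laughlin_im (N : ℕ) (x : Fin N → Orb (3 * (N - 1))) : (laughlin N x).im = 0 := by
  rw [laughlin_eq, Complex.ofReal_im]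

lemma wf_swap {N : ℕ} (i j : Fin N) : wf i j = - wf j i := by simp [wf]

lemma rename_lpR (N : ℕ) (σ : Equiv.Perm (Fin N)) :
    rename (Sum.map σ σ) (lpR N) = C (((Equiv.Perm.sign σ : ℤˣ) : ℤ) : ℝ) * lpR N := by
  have h := σ.prod_Ioi_comp_eq_sign_mul_prod (f := fun i j => (wf i j) ^ 3)
    (fun i j => by rw [wf_swap i j]; ring)
  have h2 : rename (Sum.map σ σ) (lpR N) = ∏ i, ∏ j ∈ Ioi i, wf (σ i) (σ j) ^ 3 := by
    simp [lpR, wf, map_prod]
  rw [h2, h, lpR]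
  simp

lemma mapDomain_monoExp {N Q : ℕ} (σ : Equiv.Perm (Fin N)) (x : Fin N → Orb Q) :
    (monoExp (x ∘ σ)).mapDomain (Sum.map σ σ) = monoExp x := by
  have hinj : Function.Injective (Sum.map σ σ : Fin N ⊕ Fin N → Fin N ⊕ Fin N) :=
    Function.Injective.sumMap σ.injective σ.injective
  ext s
  have hs : s = Sum.map σ σ (Sum.map σ.symm σ.symm s) := by cases s <;> simp
  rw [hs, Finsupp.mapDomain_apply hinj]
  cases s <;> simp [monoExp]

theorem laughlin_fermionic (N : ℕ) : IsFermionic (laughlin N) := by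
  intro σ x
  have hinj : Function.Injective (Sum.map σ σ : Fin N ⊕ Fin N → Fin N ⊕ Fin N) :=
    Function.Injective.sumMap σ.injective σ.injective
  have h := coeff_rename_mapDomain _ hinj (lpR N) (monoExp (x ∘ σ))
  rw [mapDomain_monoExp, rename_lpR, coeff_C_mul] at h
  rw [laughlin_eq, laughlin_eq, ← h]
  have hp : ∏ i, bet (3 * (N - 1)) ((x ∘ σ) i) = ∏ i, bet (3 * (N - 1)) (x i) :=
    Equiv.prod_comp σ (fun i => bet (3 * (N - 1)) (x i))
  rw [hp]
  push_cast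
  ring

lemma wf_ne_zero {N : ℕ} {i j : Fin N} (h : i ≠ j) : wf i j ≠ 0 := by
  intro h0
  have := congrArg (eval (fun s => if s = Sum.inl i ∨ s = Sum.inr j then (1 : ℝ) else 0)) h0
  simp [wf, h, h.symm] at this

lemma lpR_ne_zero (N : ℕ) : lpR N ≠ 0 := by
  unfold lpR
  refine prod_ne_zero_iff.2 fun i _ => prod_ne_zero_iff.2 fun j hj => pow_ne_zero _ ?_
  exact wf_ne_zero (mem_Ioi.1 hj).ne

/-- Weight counting the degree in the variables of particle `k`. -/
def wt {N : ℕ} (k : Fin N) : Fin N ⊕ Fin N → ℕ := fun s => if Sum.elim id id s = k then 1 else 0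

lemma wf_hom {N : ℕ} (k i j : Fin N) :
    IsWeightedHomogeneous (wt k) (wf i j) ((if i = k then 1 else 0) + (if j = k then 1 else 0)) := by
  unfold wf
  refine IsWeightedHomogeneous.sub ?_ ?_
  · exact (isWeightedHomogeneous_X ℝ (wt k) (Sum.inl i)).mul
      (isWeightedHomogeneous_X ℝ (wt k) (Sum.inr j))
  · rw [add_comm]
    exact (isWeightedHomogeneous_X ℝ (wt k) (Sum.inl j)).mul
      (isWeightedHomogeneous_X ℝ (wt k) (Sum.inr i))

lemma lpR_hom {N : ℕ} (k : Fin N) : IsWeightedHomogeneous (wt k) (lpR N) (3 * (N - 1)) := by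
  have h : IsWeightedHomogeneous (wt k) (lpR N) (∑ i : Fin N, ∑ j ∈ Ioi i,
      3 • ((if i = k then 1 else 0) + (if j = k then 1 else 0))) :=
    IsWeightedHomogeneous.prod _ _ _ fun i _ =>
      IsWeightedHomogeneous.prod _ _ _ fun j _ => (wf_hom k i j).pow 3
  convert h using 1
  simp only [smul_eq_mul, ← mul_sum, sum_add_distrib]
  congr 1
  have h1 : ∑ i : Fin N, ∑ j ∈ Ioi i, (if i = k then 1 else 0) = N - 1 - k := by
    rw [sum_eq_single k]
    · simp
    · intro b _ hb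
      simp [hb]
    · simp
  have h2 : ∑ i : Fin N, ∑ j ∈ Ioi i, (if j = k then 1 else 0) = (k : ℕ) := by
    simp only [sum_ite_eq', mem_Ioi]
    rw [← card_filter, filter_gt_eq_Iio, Fin.card_Iio]
  rw [h1, h2]
  have := k.2
  omega

lemma weight_wt {N : ℕ} (k : Fin N) (d : Fin N ⊕ Fin N →₀ ℕ) :
    Finsupp.weight (wt k) d = d (Sum.inl k) + d (Sum.inr k) := by
  rw [Finsupp.weight_apply, Finsupp.sum_fintype _ _ (by simp)]
  rw [Fintype.sum_sum_type, sum_eq_single k, sum_eq_single k] <;> simp +contextual [wt]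

theorem laughlin_ne_zero (N : ℕ) : laughlin N ≠ 0 := by
  obtain ⟨d, hd⟩ := exists_coeff_ne_zero (lpR_ne_zero N)
  have hw : ∀ k, d (Sum.inl k) + d (Sum.inr k) = 3 * (N - 1) := fun k => by
    rw [← weight_wt, lpR_hom k hd]
  let x : Fin N → Orb (3 * (N - 1)) := fun k => ⟨d (Sum.inr k), by have := hw k; omega⟩
  have hx : monoExp x = d := by
    ext s
    cases s with
    | inl k => have := hw k; simp [monoExp, x]; omega
    | inr k => simp [monoExp, x]
  intro h0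
  have h1 : laughlin N x = 0 := by rw [h0]; rfl
  rw [laughlin_eq, hx, Complex.ofReal_eq_zero, div_eq_zero_iff] at h1
  rcases h1 with h1 | h1
  · exact hd h1
  · refine prod_ne_zero_iff.2 (fun i _ => ?_) h1
    refine (Real.sqrt_pos.2 ?_).ne'
    exact_mod_cast Nat.choose_pos (Nat.lt_succ_iff.1 (x i).2)

/-- The pattern of exponents seen by the contraction. -/
def Pat {n Q : ℕ} (M : ℕ) (x : Fin n → Orb Q) (m : Fin (n + 2) ⊕ Fin (n + 2) →₀ ℕ) : Prop :=
  (∀ i : Fin n, m (Sum.inl i.succ.succ) = Q - x i ∧ m (Sum.inr i.succ.succ) = x i) ∧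
    m (Sum.inl 0) + m (Sum.inr 0) = Q ∧ m (Sum.inl 1) + m (Sum.inr 1) = Q ∧
    m (Sum.inr 0) + m (Sum.inr 1) = M + 1

/-- The linear functional behind the contraction. -/
noncomputable def Lam {n Q : ℕ} (M : ℕ) (x : Fin n → Orb Q)
    (p : MvPolynomial (Fin (n + 2) ⊕ Fin (n + 2)) ℝ) : ℝ :=
  ∑ q : Orb Q × Orb Q, (if (q.1 : ℕ) + (q.2 : ℕ) = M + 1 then ((q.2 : ℕ) : ℝ) - (q.1 : ℕ) else 0) *
    coeff (monoExp (Fin.cons q.1 (Fin.cons q.2 x) : Fin (n + 2) → Orb Q)) p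

lemma Lam_add {n Q : ℕ} (M : ℕ) (x : Fin n → Orb Q) (p q) :
    Lam M x (p + q) = Lam M x p + Lam M x q := by
  simp [Lam, mul_add, sum_add_distrib]

lemma Lam_sub {n Q : ℕ} (M : ℕ) (x : Fin n → Orb Q) (p q) :
    Lam M x (p - q) = Lam M x p - Lam M x q := by
  simp [Lam, mul_sub, sum_sub_distrib]

lemma eq_monoExp {n Q : ℕ} (x : Fin n → Orb Q) (c d : Orb Q)
    (m : Fin (n + 2) ⊕ Fin (n + 2) →₀ ℕ) :
    m = monoExp (Fin.cons c (Fin.cons d x) : Fin (n + 2) → Orb Q) ↔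
      (∀ i : Fin n, m (Sum.inl i.succ.succ) = Q - x i ∧ m (Sum.inr i.succ.succ) = x i) ∧
      m (Sum.inl 0) = Q - c ∧ m (Sum.inr 0) = c ∧ m (Sum.inl 1) = Q - d ∧ m (Sum.inr 1) = d := by
  rw [Finsupp.ext_iff, Sum.forall, Fin.forall_fin_succ, Fin.forall_fin_succ, Fin.forall_fin_succ,
    Fin.forall_fin_succ]
  simp only [monoExp, Finsupp.equivFunOnFinite_symm_apply_apply, Sum.elim_inl, Sum.elim_inr,
    Fin.cons_zero, Fin.cons_succ, Fin.succ_zero_eq_one, forall_and]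
  tauto

open Classical in
lemma Lam_monomial {n Q : ℕ} (M : ℕ) (x : Fin n → Orb Q) (m : Fin (n + 2) ⊕ Fin (n + 2) →₀ ℕ)
    (a : ℝ) : Lam M x (monomial m a) =
      if Pat M x m then ((m (Sum.inr 1) : ℝ) - m (Sum.inr 0)) * a else 0 := by
  unfold Lam
  simp only [coeff_monomial, eq_monoExp]
  split_ifs with h
  · obtain ⟨h1, h2, h3, h4⟩ := h
    rw [sum_eq_single ((⟨m (Sum.inr 0), by omega⟩ : Orb Q), (⟨m (Sum.inr 1), by omega⟩ : Orb Q))]
    · rw [if_pos h4, if_pos ⟨h1, by simp; omega, rfl, by simp; omega, rfl⟩]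
    · intro b _ hb
      rw [if_neg (c := _ ∧ _), mul_zero]
      rintro ⟨-, -, e1, -, e2⟩
      exact hb (Prod.ext (Fin.ext e1.symm) (Fin.ext e2.symm))
    · simp
  · refine sum_eq_zero fun q _ => ?_
    split_ifs with h1 h2
    · exfalso
      obtain ⟨e0, e1, e2, e3, e4⟩ := h2
      have := q.1.2
      have := q.2.2
      exact h ⟨e0, by omega, by omega, by omega⟩
    all_goals simp

lemma Lam_sq {n Q : ℕ} (M : ℕ) (x : Fin n → Orb Q)
    (p : MvPolynomial (Fin (n + 2) ⊕ Fin (n + 2)) ℝ) : Lam M x (wf 0 1 ^ 2 * p) = 0 := by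
  induction p using MvPolynomial.induction_on' with
  | add p q hp hq => rw [mul_add, Lam_add, hp, hq, add_zero]
  | monomial s a =>
    set u0 : Fin (n + 2) ⊕ Fin (n + 2) →₀ ℕ := Finsupp.single (Sum.inl 0) 1 with hu0
    set u1 : Fin (n + 2) ⊕ Fin (n + 2) →₀ ℕ := Finsupp.single (Sum.inl 1) 1 with hu1
    set v0 : Fin (n + 2) ⊕ Fin (n + 2) →₀ ℕ := Finsupp.single (Sum.inr 0) 1 with hv0
    set v1 : Fin (n + 2) ⊕ Fin (n + 2) →₀ ℕ := Finsupp.single (Sum.inr 1) 1 with hv1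
    have e : wf 0 1 ^ 2 * monomial s a =
        monomial (u0 + v1 + (u0 + v1) + s) a - monomial (u0 + v1 + (u1 + v0) + s) (2 * a) +
          monomial (u1 + v0 + (u1 + v0) + s) a := by
      have hw : (wf 0 1 : MvPolynomial (Fin (n + 2) ⊕ Fin (n + 2)) ℝ) =
          monomial (u0 + v1) 1 - monomial (u1 + v0) 1 := by
        simp [wf, X, monomial_mul, hu0, hu1, hv0, hv1]
      have g : ∀ (A B : Fin (n + 2) ⊕ Fin (n + 2) →₀ ℕ) (c : ℝ),
          (monomial (A + B + s) (c * a) : MvPolynomial _ ℝ) =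
            C c * (monomial A 1 * monomial B 1 * monomial s a) := by
        intro A B c
        simp [monomial_mul, C_mul_monomial]
      have g1 := g (u0 + v1) (u0 + v1) 1
      have g2 := g (u0 + v1) (u1 + v0) 2
      have g3 := g (u1 + v0) (u1 + v0) 1
      rw [one_mul, C_1] at g1 g3
      rw [g1, g2, g3, hw, show (C 2 : MvPolynomial (Fin (n + 2) ⊕ Fin (n + 2)) ℝ) = 2 from
        rfl]
      ring
    rw [e, Lam_add, Lam_sub, Lam_monomial, Lam_monomial, Lam_monomial]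
    have s1 : ∀ i : Fin n, (1 : Fin (n + 2)) ≠ i.succ.succ := fun i h => by
      have := congrArg Fin.val h
      simp at this
    have p1 : Pat M x (u0 + v1 + (u0 + v1) + s) ↔ Pat M x (u0 + v1 + (u1 + v0) + s) := by
      simp [Pat, hu0, hu1, hv0, hv1, s1]
      intro _
      omega
    have p3 : Pat M x (u1 + v0 + (u1 + v0) + s) ↔ Pat M x (u0 + v1 + (u1 + v0) + s) := by
      simp [Pat, hu0, hu1, hv0, hv1, s1]
      intro _
      omega
    rw [p1, p3]
    split_ifs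
    · simp [hu0, hu1, hv0, hv1]
      ring
    · simp

lemma Lam_lpR {n Q : ℕ} (M : ℕ) (x : Fin n → Orb Q) : Lam M x (lpR (n + 2)) = 0 := by
  have h : wf 0 1 ^ 2 ∣ lpR (n + 2) := by
    refine dvd_trans ?_ (dvd_prod_of_mem _ (mem_univ (0 : Fin (n + 2))))
    refine dvd_trans ?_ (dvd_prod_of_mem _ (a := 1) (by simp))
    exact pow_dvd_pow _ (by norm_num)
  obtain ⟨q, hq⟩ := h
  rw [hq, Lam_sq]

lemma contr_aux {n Q : ℕ} (M : ℕ) (p : MvPolynomial (Fin (n + 2) ⊕ Fin (n + 2)) ℝ)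
    (x : Fin n → Orb Q) (h : Lam M x p = 0) :
    contrR M (fun y : Fin (n + 2) → Orb Q => coeff (monoExp y) p / ∏ i, bet Q (y i)) x = 0 := by
  have h2 := congrArg (fun t => t * (1 / (Real.sqrt ((Q : ℝ) * ((2 * Q - 2).choose M : ℕ)) *
    Real.sqrt 2 * ∏ i, bet Q (x i)))) h
  simp only [Lam, zero_mul, sum_mul] at h2
  rw [← h2, contrR]
  refine sum_congr rfl fun q _ => ?_
  unfold wv
  split_ifs with hq
  · have b1 : bet Q q.1 ≠ 0 := by
      refine (Real.sqrt_pos.2 ?_).ne'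
      exact_mod_cast Nat.choose_pos (Nat.lt_succ_iff.1 q.1.2)
    have b2 : bet Q q.2 ≠ 0 := by
      refine (Real.sqrt_pos.2 ?_).ne'
      exact_mod_cast Nat.choose_pos (Nat.lt_succ_iff.1 q.2.2)
    have e1 : M + 1 - (q.1 : ℕ) = q.2 := by omega
    have e2 : (M : ℝ) + 1 - 2 * ((q.1 : ℕ) : ℝ) = ((q.2 : ℕ) : ℝ) - (q.1 : ℕ) := by
      have : ((q.1 : ℕ) : ℝ) + (q.2 : ℕ) = M + 1 := by exact_mod_cast hq
      linarith
    simp only [phi, e1, e2, Fin.prod_univ_succ, Fin.cons_zero, Fin.cons_succ]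
    field_simp
  · simp

theorem laughlin_contr (n M : ℕ) : contrR M (fun y => (laughlin (n + 2) y).re) = 0 := by
  funext x
  simp only [laughlin_eq, Complex.ofReal_re, Pi.zero_apply]
  exact contr_aux M _ x (Lam_lpR M x)

end Vale.Agent.P359
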