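import Vale.Agent.P359.FDefs

/-! Canonical anticommutation relations. -/

namespace Vale.Agent.P359
open Finset Matrix

theorem sg_insert {f g : ℕ} {S : Finset ℕ} (h : g ∉ S) :
    sg f (insert g S) = (if g < f then -1 else 1) * sg f S := by
  unfold sg; rw [prod_insert h]

theorem sg_mul_self (f : ℕ) (S : Finset ℕ) : sg f S * sg f S = 1 := by
  unfold sg; rw [← prod_mul_distrib]
  exact prod_eq_one fun i _ => by split_ifs <;> norm_num

theorem sg_sq (f : ℕ) (S : Finset ℕ) : sg f S ^ 2 = 1 := by rw [sq, sg_mul_self]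

theorem abs_sg (f : ℕ) (S : Finset ℕ) : |sg f S| = 1 := by
  have := sg_sq f S
  rw [← sq_abs] at this
  nlinarith [abs_nonneg (sg f S)]

theorem sg_ne_zero (f : ℕ) (S : Finset ℕ) : sg f S ≠ 0 := by
  intro h; have := sg_mul_self f S; rw [h] at this; simp at this

theorem annF_anticomm (f g : ℕ) (Φ : Finset ℕ → ℝ) (S : Finset ℕ) :
    annF f (annF g Φ) S = - annF g (annF f Φ) S := by
  unfold annF
  by_cases hf : f ∈ S
  · simp [hf]
  by_cases hg : g ∈ S
  · simp [hg]
  by_cases hfg : f = g
  · subst hfg; simp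
  have hgf : g ≠ f := fun h => hfg h.symm
  simp only [hf, hg, if_false, mem_insert, hfg, hgf, false_or]
  rw [sg_insert hf, sg_insert hg, insert_comm g f]
  rcases lt_or_gt_of_ne hfg with h | h
  · simp [h, not_lt.mpr h.le]; ring
  · simp [h, not_lt.mpr h.le]; ring

theorem ext_coe {n : ℕ} (v : Idx n → ℝ) (S : Idx n) : ext v S.1 = v S := by
  unfold ext; rw [dif_pos S.2]

theorem ext_of_not {n : ℕ} (v : Idx n → ℝ) {S : Finset ℕ} (h : ¬ S ⊆ range n) : ext v S = 0 := by
  unfold ext; rw [dif_neg (by simpa using h)]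

theorem ext_inj {n : ℕ} {v w : Idx n → ℝ} (h : ext v = ext w) : v = w := by
  funext S; rw [← ext_coe v S, ← ext_coe w S, h]

theorem ext_add {n : ℕ} (v w : Idx n → ℝ) : ext (v + w) = ext v + ext w := by
  funext S; simp only [ext, Pi.add_apply]; split_ifs <;> simp

theorem ext_smul {n : ℕ} (c : ℝ) (v : Idx n → ℝ) : ext (c • v) = c • ext v := by
  funext S; simp only [ext, Pi.smul_apply]; split_ifs <;> simp

theorem ext_zero {n : ℕ} : ext (0 : Idx n → ℝ) = 0 := by
  funext S; unfold ext; by_cases h : S ∈ (range n).powerset <;> simp [h]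

theorem ext_sum {n : ℕ} {α : Type*} (s : Finset α) (v : α → Idx n → ℝ) :
    ext (∑ a ∈ s, v a) = ∑ a ∈ s, ext (v a) := by
  classical
  induction s using Finset.induction_on with
  | empty => simp [ext_zero]
  | insert a s ha ih => rw [sum_insert ha, sum_insert ha, ext_add, ih]

theorem ann_mulVec (n f : ℕ) (v : Idx n → ℝ) (S : Idx n) :
    (ann n f *ᵥ v) S = annF f (ext v) S.1 := by
  unfold annF
  simp only [mulVec, dotProduct, ann]
  by_cases hf : f ∈ S.1
  · simp [hf]
  simp only [hf, not_false_eq_true, true_and, if_false]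
  by_cases h : insert f S.1 ∈ (range n).powerset
  · rw [sum_eq_single ⟨insert f S.1, h⟩]
    · simp [ext, h]
    · intro T _ hT
      rw [if_neg, zero_mul]
      intro h'; exact hT (Subtype.ext h')
    · simp
  · rw [sum_eq_zero]
    · simp [ext, h]
    · intro T _
      rw [if_neg, zero_mul]
      intro h'; exact h (h' ▸ T.2)

theorem ext_ann (n f : ℕ) (v : Idx n → ℝ) : ext (ann n f *ᵥ v) = annF f (ext v) := by
  funext S
  by_cases h : S ∈ (range n).powerset
  · have := ann_mulVec n f v ⟨S, h⟩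
    rw [← this]; exact ext_coe _ ⟨S, h⟩
  · have h' : ¬ S ⊆ range n := by simpa using h
    rw [ext_of_not _ h']
    unfold annF
    split_ifs
    · rfl
    · rw [ext_of_not _ (fun h'' => h' ((subset_insert _ _).trans h'')), mul_zero]

theorem dot_eq {n : ℕ} (v w : Idx n → ℝ) :
    v ⬝ᵥ w = ∑ S ∈ (range n).powerset, ext v S * ext w S := by
  unfold dotProduct
  rw [← sum_coe_sort (range n).powerset]
  exact sum_congr rfl fun S _ => by rw [ext_coe, ext_coe]

theorem ann_of_le {n f : ℕ} (h : n ≤ f) : ann n f = 0 := by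
  funext S T
  unfold ann
  rw [if_neg]; · rfl
  rintro ⟨-, h2⟩
  have := T.2
  rw [h2, mem_powerset] at this
  have := mem_range.mp (this (mem_insert_self _ _))
  omega

theorem ann_anticomm (n f g : ℕ) : ann n f * ann n g = -(ann n g * ann n f) := by
  have key : ∀ v, (ann n f * ann n g) *ᵥ v = (-(ann n g * ann n f)) *ᵥ v := by
    intro v
    funext S
    rw [neg_mulVec, ← mulVec_mulVec, ← mulVec_mulVec, Pi.neg_apply, ann_mulVec, ann_mulVec,
      ext_ann, ext_ann, annF_anticomm]
  ext S T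
  have := congrFun (key (Pi.single T 1)) S
  simpa using this

theorem ann_mul_self (n f : ℕ) : ann n f * ann n f = 0 := by
  have h := ann_anticomm n f f
  have h2 : (2 : ℝ) • (ann n f * ann n f) = 0 := by
    rw [two_smul]; nth_rewrite 1 [h]; simp
  simpa using h2

/-- Creation operator on functions. -/
noncomputable def creF (f : ℕ) (Φ : Finset ℕ → ℝ) : Finset ℕ → ℝ :=
  fun S => if f ∈ S then sg f (S.erase f) * Φ (S.erase f) else 0

theorem cre_mulVec (n f : ℕ) (v : Idx n → ℝ) (S : Idx n) :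
    ((ann n f)ᵀ *ᵥ v) S = creF f (ext v) S.1 := by
  unfold creF
  simp only [mulVec, dotProduct, ann, transpose_apply]
  by_cases hf : f ∈ S.1
  · have h : S.1.erase f ∈ (range n).powerset :=
      mem_powerset.mpr ((erase_subset _ _).trans (mem_powerset.mp S.2))
    rw [if_pos hf, sum_eq_single ⟨S.1.erase f, h⟩]
    · simp [ext, h, insert_erase hf]
    · intro T _ hT
      rw [if_neg, zero_mul]
      rintro ⟨h1, h2⟩
      apply hT; apply Subtype.ext
      simp only [h2, erase_insert h1]
    · simp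
  · rw [if_neg hf, sum_eq_zero]
    intro T _
    rw [if_neg, zero_mul]
    rintro ⟨-, h2⟩
    exact hf (h2 ▸ mem_insert_self _ _)

theorem ann_car (n f g : ℕ) :
    ann n f * (ann n g)ᵀ + (ann n g)ᵀ * ann n f = if f = g ∧ f < n then 1 else 0 := by
  by_cases hfn : f < n
  swap
  · simp [ann_of_le (not_lt.mp hfn), hfn]
  have key : ∀ v : Idx n → ℝ, (ann n f * (ann n g)ᵀ + (ann n g)ᵀ * ann n f) *ᵥ v =
      (if f = g ∧ f < n then (1 : Matrix (Idx n) (Idx n) ℝ) else 0) *ᵥ v := by
    intro v
    funext S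
    rw [add_mulVec, ← mulVec_mulVec, ← mulVec_mulVec, Pi.add_apply, ann_mulVec, cre_mulVec,
      ext_ann]
    have hS := mem_powerset.mp S.2
    unfold annF
    by_cases hf : f ∈ S.1
    · rw [if_pos hf, zero_add]
      unfold creF
      by_cases hfg : f = g
      · subst hfg
        simp only [hf, if_true, hfn, and_self, one_mulVec, notMem_erase, if_false,
          insert_erase hf, ext_coe]
        rw [← mul_assoc, sg_mul_self, one_mul]
      · simp [hfg, hf]
    · have hins : insert f S.1 ∈ (range n).powerset :=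
        mem_powerset.mpr (insert_subset (mem_range.mpr hfn) hS)
      rw [if_neg hf]
      have e1 : ext ((ann n g)ᵀ *ᵥ v) (insert f S.1) = creF g (ext v) (insert f S.1) := by
        have := cre_mulVec n g v ⟨_, hins⟩
        rw [← this]; exact ext_coe _ ⟨_, hins⟩
      rw [e1]
      unfold creF
      by_cases hfg : f = g
      · subst hfg
        simp only [mem_insert_self, if_true, erase_insert hf, hf, if_false, add_zero, hfn,
          and_self, one_mulVec, ext_coe]
        rw [← mul_assoc, sg_mul_self, one_mul]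
      · have hgf : g ≠ f := fun h => hfg h.symm
        simp only [mem_insert, hgf, false_or, hfg, false_and, if_false, zero_mulVec,
          Pi.zero_apply]
        by_cases hg : g ∈ S.1
        · have hf' : f ∉ S.1.erase g := fun h => hf (mem_of_mem_erase h)
          have hg' : g ∉ S.1.erase g := notMem_erase _ _
          simp only [hg, if_true, hf', if_false]
          rw [erase_insert_of_ne hfg]
          have e2 : sg f S.1 = (if g < f then -1 else 1) * sg f (S.1.erase g) := by
            rw [← sg_insert hg', insert_erase hg]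
          rw [sg_insert hf', e2]
          rcases lt_or_gt_of_ne hfg with h | h
          · simp [h, not_lt.mpr h.le]; ring
          · simp [h, not_lt.mpr h.le]; ring
        · simp [hg]
  ext S T
  have := congrFun (key (Pi.single T 1)) S
  simpa using this

theorem dot_self_nonneg {ι : Type*} [Fintype ι] (v : ι → ℝ) : 0 ≤ v ⬝ᵥ v :=
  sum_nonneg fun _ _ => mul_self_nonneg _

theorem mulVec_dot {ι : Type*} [Fintype ι] (A : Matrix ι ι ℝ) (v w : ι → ℝ) :
    (A *ᵥ v) ⬝ᵥ w = v ⬝ᵥ (Aᵀ *ᵥ w) := by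
  rw [dotProduct_mulVec, vecMul_transpose]

/-- `‖a_f v‖ ≤ ‖v‖`. -/
theorem ann_norm_le (n f : ℕ) (v : Idx n → ℝ) :
    (ann n f *ᵥ v) ⬝ᵥ (ann n f *ᵥ v) ≤ v ⬝ᵥ v := by
  by_cases hfn : f < n
  swap
  · simp [ann_of_le (not_lt.mp hfn), dot_self_nonneg]
  have h := ann_car n f f
  rw [if_pos ⟨rfl, hfn⟩] at h
  have h1 : v ⬝ᵥ v = v ⬝ᵥ ((ann n f * (ann n f)ᵀ + (ann n f)ᵀ * ann n f) *ᵥ v) := by
    rw [h, one_mulVec]
  rw [add_mulVec, dotProduct_add, ← mulVec_mulVec, ← mulVec_mulVec, ← mulVec_dot] at h1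
  have h2 : v ⬝ᵥ (ann n f *ᵥ ((ann n f)ᵀ *ᵥ v)) = ((ann n f)ᵀ *ᵥ v) ⬝ᵥ ((ann n f)ᵀ *ᵥ v) := by
    rw [mulVec_dot, transpose_transpose]
  rw [h2] at h1
  linarith [dot_self_nonneg ((ann n f)ᵀ *ᵥ v)]

end Vale.Agent.P359
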