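import Vale.Agent.P359.BDefs
import Vale.Agent.P359.Car
import Vale.Agent.P359.Coef

/-! Part Tmap: the map to Fock space and uniqueness of the zero mode. -/

namespace Vale.Agent.P359
open Finset Matrix

theorem Tm_add (Q N : ℕ) (f g : (Fin N → Orb Q) → ℝ) :
    Tm Q N (f + g) = Tm Q N f + Tm Q N g := by
  induction N with
  | zero => funext S; simp only [Tm, Pi.add_apply]; split_ifs <;> simp
  | succ N ih =>
    rw [Tm, Tm, Tm, ← smul_add, ← sum_add_distrib]
    exact congrArg _ (sum_congr rfl fun c _ => by rw [← mulVec_add, ← ih]; rfl)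

theorem Tm_smul (Q N : ℕ) (c : ℝ) (f : (Fin N → Orb Q) → ℝ) :
    Tm Q N (c • f) = c • Tm Q N f := by
  induction N with
  | zero => funext S; simp [Tm]
  | succ N ih =>
    rw [Tm, Tm, smul_comm c, smul_sum (r := c)]
    exact congrArg _ (sum_congr rfl fun a _ => by rw [← mulVec_smul, ← ih]; rfl)

theorem Tm_sum (Q N : ℕ) {α : Type*} (s : Finset α) (f : α → (Fin N → Orb Q) → ℝ) :
    Tm Q N (∑ a ∈ s, f a) = ∑ a ∈ s, Tm Q N (f a) := by
  classical
  induction s using Finset.induction_on with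
  | empty => simpa using Tm_smul Q N 0 0
  | insert a s ha ih => rw [sum_insert ha, sum_insert ha, Tm_add, ih]

theorem Tm_supp (Q N : ℕ) (f : (Fin N → Orb Q) → ℝ) (S : Idx (Q + 1)) (hS : S.1.card ≠ N) :
    Tm Q N f S = 0 := by
  induction N generalizing S with
  | zero => exact if_neg fun h => hS (card_eq_zero.2 h)
  | succ N ih =>
    rw [Tm, Pi.smul_apply, Finset.sum_apply, sum_eq_zero fun c _ => ?_, smul_zero]
    rw [cre_mulVec, creF]
    split_ifs with h
    · rw [ext, dif_pos (mem_powerset.2 ((erase_subset _ _).trans (mem_powerset.1 S.2))), ih,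
        mul_zero]
      exact fun e => hS (by rw [← card_erase_add_one h, e])
    · rfl

theorem AntiR.cons {N Q : ℕ} {f : (Fin (N + 1) → Orb Q) → ℝ} (hf : AntiR f) (c : Orb Q) :
    AntiR (fun x : Fin N → Orb Q => f (Fin.cons c x)) := fun σ x => by
  have := hf (Equiv.Perm.decomposeFin.symm (0, σ)) (Fin.cons c x)
  rw [Equiv.Perm.decomposeFin.symm_sign, if_pos rfl, one_mul] at this
  rw [← this]
  exact congrArg f (funext fun i => by cases i using Fin.cases <;> simp)

theorem AntiR.swap {N Q : ℕ} {f : (Fin (N + 2) → Orb Q) → ℝ} (hf : AntiR f) (c d : Orb Q)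
    (x : Fin N → Orb Q) : f (Fin.cons c (Fin.cons d x)) = -f (Fin.cons d (Fin.cons c x)) := by
  have := hf (Equiv.swap 0 1) (Fin.cons d (Fin.cons c x))
  rw [Equiv.Perm.sign_swap Fin.zero_ne_one] at this
  refine Eq.trans (congrArg f (funext fun i => ?_)) (this.trans (by simp))
  cases i using Fin.cases with
  | zero => simp
  | succ i =>
    cases i using Fin.cases with
    | zero => simp
    | succ i =>
      rw [Function.comp, Equiv.swap_apply_of_ne_of_ne (Fin.succ_ne_zero _) (Fin.succ_succ_ne_one _)]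
      simp

theorem ann_Tm (Q N : ℕ) (f : (Fin (N + 1) → Orb Q) → ℝ) (hf : AntiR f) (c : Orb Q) :
    ann (Q + 1) c *ᵥ Tm Q (N + 1) f = Tm Q N (fun x => f (Fin.cons c x)) := by
  have key : ∀ N (f : (Fin (N + 1) → Orb Q) → ℝ), ann (Q + 1) c *ᵥ Tm Q (N + 1) f =
      (1 / ((N : ℝ) + 1)) • (Tm Q N (fun x => f (Fin.cons c x)) - ∑ d : Orb Q, (ann (Q + 1) d)ᵀ *ᵥ
        (ann (Q + 1) c *ᵥ Tm Q N fun x => f (Fin.cons d x))) := fun N f => by
    rw [Tm, mulVec_smul, mulVec_sum, sum_congr rfl fun (d : Orb Q) _ => by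
      rw [mulVec_mulVec, eq_sub_of_add_eq (ann_car _ c d), sub_mulVec, ← mulVec_mulVec],
      sum_sub_distrib, sum_eq_single c (fun d _ h => by
        rw [if_neg fun e => h (Fin.ext e.1.symm), zero_mulVec]) (by simp), if_pos ⟨rfl, c.2⟩,
      one_mulVec]
  induction N with
  | zero =>
    rw [key, sum_eq_zero fun d _ => ?_]
    · simp
    rw [show ann (Q + 1) c *ᵥ Tm Q 0 (fun x => f (Fin.cons d x)) = 0 from funext fun S => ?_,
      mulVec_zero]
    rw [ann_mulVec, annF, ext]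
    split_ifs <;> simp [Tm]
  | succ N ih =>
    rw [key, sum_congr rfl fun (d : Orb Q) _ => by
      rw [ih _ (hf.cons d), show (fun x => f (Fin.cons d (Fin.cons c x))) = (-1 : ℝ) • fun x =>
        f (Fin.cons c (Fin.cons d x)) from funext fun x => by simpa using hf.swap d c x, Tm_smul,
        mulVec_smul], ← smul_sum, Tm, neg_smul, one_smul, sub_neg_eq_add, smul_add, smul_smul,
      ← add_smul]
    congr 1
    push_cast
    field_simp
    ring

theorem Tm_dot (Q N : ℕ) (f g : (Fin N → Orb Q) → ℝ) (hg : AntiR g) :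
    Tm Q N f ⬝ᵥ Tm Q N g = (1 / (N.factorial : ℝ)) * ∑ x, f x * g x := by
  induction N with
  | zero =>
    rw [dotProduct, sum_eq_single ⟨∅, by simp⟩ (fun S _ h => by
      rw [Tm_supp Q 0 f S fun e => h (Subtype.ext (card_eq_zero.1 e)), zero_mul]) (by simp)]
    simp only [Tm, if_true, Nat.factorial_zero, Nat.cast_one, div_one, one_mul, univ_unique,
      sum_singleton]
    congr 2 <;> exact Subsingleton.elim _ _
  | succ N ih =>
    rw [Tm, smul_dotProduct, sum_dotProduct, sum_congr rfl fun (c : Orb Q) _ => by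
      rw [mulVec_dot, transpose_transpose, ann_Tm Q N g hg, ih _ _ (hg.cons c)], ← mul_sum,
      ← (Fin.consEquiv fun _ => Orb Q).sum_comp, Fintype.sum_prod_type, smul_eq_mul, ← mul_assoc,
      Nat.factorial_succ]
    congr 1
    push_cast
    field_simp

theorem AntiR.contr {n Q : ℕ} {f : (Fin (n + 2) → Orb Q) → ℝ} (hf : AntiR f) (M : ℕ) :
    AntiR (contrR M f) := fun σ x => by
  rw [contrR, contrR, mul_sum]
  exact sum_congr rfl fun q _ => (congrArg _ ((hf.cons q.1).cons q.2 σ x)).trans (mul_left_comm _ _ _)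

theorem pairOp_Tm (Q n M : ℕ) (f : (Fin (n + 2) → Orb Q) → ℝ) (hf : AntiR f) :
    pairOp Q M *ᵥ Tm Q (n + 2) f = (1 / Real.sqrt 2) • Tm Q n (contrR M f) := by
  obtain ⟨A, hA⟩ : ∃ A : ℕ → ℕ → Idx (Q + 1) → ℝ, ∀ c d, A c d =
    (phi Q M c / 2) • (ann (Q + 1) d * ann (Q + 1) c) *ᵥ Tm Q (n + 2) f := ⟨_, fun _ _ => rfl⟩
  have e : ∀ q : Orb Q × Orb Q, (1 / Real.sqrt 2) • Tm Q n (wv Q M q • fun x =>
      f (Fin.cons q.1 (Fin.cons q.2 x))) = if (q.1 : ℕ) + q.2 = M + 1 then A q.1 q.2 else 0 := by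
    intro q
    rw [Tm_smul, smul_smul, wv, hA, ← mulVec_mulVec, ann_Tm _ _ _ hf, ann_Tm _ _ _ (hf.cons _)]
    split_ifs
    · rw [div_mul_div_comm, Real.mul_self_sqrt zero_le_two, one_mul]
    · simp
  rw [show contrR M f = ∑ q : Orb Q × Orb Q, wv Q M q • fun x => f (Fin.cons q.1 (Fin.cons q.2 x))
    from funext fun x => by simp [contrR], Tm_sum, smul_sum, sum_congr rfl fun q _ => e q,
    Fintype.sum_prod_type, pairOp, sum_mulVec, Fin.sum_univ_eq_sum_range (fun c =>
      ∑ d : Orb Q, if c + d = M + 1 then A c d else 0), sum_congr rfl fun c _ => by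
      rw [smul_mulVec, ← hA], ← sum_filter_of_ne (p := (· < Q + 1)) fun c _ h => by
      by_contra h'
      simp [hA, ann_of_le (not_lt.1 h')] at h]
  rw [show {c ∈ range (M + 2) | c < Q + 1} = {c ∈ range (Q + 1) | c < M + 2} by
    ext; simp [and_comm], sum_filter]
  refine sum_congr rfl fun c _ => ?_
  rw [Fin.sum_univ_eq_sum_range fun d => if c + d = M + 1 then A c d else 0]
  split_ifs with h
  · rw [sum_eq_single (M + 1 - c) (fun d _ hd => if_neg (by omega)) fun hd => by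
      simp [hA, ann_of_le (not_lt.1 (mt mem_range.2 hd))], if_pos (by omega)]
  · exact (sum_eq_zero fun d _ => if_neg (by omega)).symm

theorem pairOp_apply (Q M : ℕ) (v : Idx (Q + 1) → ℝ) (S : Idx (Q + 1)) : (pairOp Q M *ᵥ v) S =
    ∑ c ∈ range (M + 2), phi Q M c / 2 * annF (M + 1 - c) (annF c (ext v)) S.1 := by
  rw [pairOp, sum_mulVec, Finset.sum_apply]
  exact sum_congr rfl fun c _ => by
    rw [smul_mulVec, ← mulVec_mulVec, Pi.smul_apply, ann_mulVec, ext_ann, smul_eq_mul]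

/-- The `N`-particle part of a zero mode is a zero mode. -/
theorem ker_sector (Q N : ℕ) (κ : Idx (Q + 1) → ℝ) (hκ : ∀ M, pairOp Q M *ᵥ κ = 0) (M : ℕ) :
    pairOp Q M *ᵥ (fun S => if S.1.card = N then κ S else 0) = 0 := by
  funext S
  have e : ∀ T, ext (fun S => if S.1.card = N then κ S else 0) T =
      if T.card = N then ext κ T else 0 := fun T => by unfold ext; split_ifs <;> simp [*]
  rw [pairOp_apply, sum_congr rfl (g := fun c => if S.1.card + 2 = N then
    phi Q M c / 2 * annF (M + 1 - c) (annF c (ext κ)) S.1 else 0) fun c _ => ?_]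
  · split_ifs
    · rw [← pairOp_apply, hκ]
    · simp
  simp only [annF, e]
  by_cases h1 : M + 1 - c ∈ S.1
  · simp [h1]
  by_cases h2 : c ∈ insert (M + 1 - c) S.1
  · simp only [h2, if_true, mul_zero, ite_self]
  simp only [if_neg h1, if_neg h2, card_insert_of_notMem h1, card_insert_of_notMem h2, mul_ite,
    mul_zero]

theorem ker_gap (Q : ℕ) (hQ : 1 ≤ Q) (κ : Idx (Q + 1) → ℝ) (hκ : ∀ M, pairOp Q M *ᵥ κ = 0)
    (hne : κ ≠ 0) : ∃ S, κ S ≠ 0 ∧ ∀ c ∈ S.1, ∀ d ∈ S.1, c < d → c + 3 ≤ d := by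
  obtain ⟨S, h1, h2⟩ := exists_max_image {S | κ S ≠ 0} (fun S => ∑ i ∈ S.1, i ^ 2)
    (by simpa [Finset.Nonempty, funext_iff] using hne)
  refine ⟨S, (mem_filter.1 h1).2, fun c hc d hd h => not_lt.1 fun h' => ?_⟩
  have hS := mem_powerset.1 S.2
  have c1 := mem_range.1 (hS hc)
  have d1 := mem_range.1 (hS hd)
  obtain ⟨R, r1, r2, r3⟩ : ∃ R : Finset ℕ, d ∉ R ∧ c ∉ insert d R ∧ insert c (insert d R) = S.1 :=
    ⟨(S.1.erase c).erase d, notMem_erase _ _, by simp [h.ne], by
      rw [insert_erase (mem_erase.2 ⟨h.ne', hd⟩), insert_erase hc]⟩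
  obtain ⟨M, hM⟩ : ∃ M, M + 1 = c + d := ⟨c + d - 1, by omega⟩
  have e := congrFun (hκ M) ⟨R, mem_powerset.2 (((subset_insert _ _).trans
    (subset_insert _ _)).trans (r3.le.trans hS))⟩
  have a := phi_antisymm Q M c (by omega)
  rw [pairOp_apply, sum_eq_add c d h.ne (fun a ha ⟨n1, n2⟩ => ?_) (by simp; omega) (by simp; omega),
    show M + 1 - d = c by omega, annF_anticomm c, show M + 1 - c = d by omega] at e
  · rw [show M + 1 - c = d by omega] at a
    simp only [a, annF, if_neg r1, if_neg r2, r3, ext_coe, Pi.zero_apply] at e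
    exact mul_ne_zero (phi_ne_zero Q M c hQ (by omega) (by omega) (by omega) (by omega))
      (mul_ne_zero (sg_ne_zero d R) (mul_ne_zero (sg_ne_zero c (insert d R)) (mem_filter.1 h1).2))
      (by linarith)
  · obtain ⟨b, hb⟩ : ∃ b, a + b = M + 1 := ⟨M + 1 - a, by have := mem_range.1 ha; omega⟩
    simp only [show M + 1 - a = b by omega, annF, ext]
    split_ifs with h3 h4 h5
    any_goals simp
    by_contra h6
    have := h2 ⟨_, h5⟩ (mem_filter.2 ⟨mem_univ _, fun h => h6 (by simp [h])⟩)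
    simp only [← r3, sum_insert r1, sum_insert r2, sum_insert h3, sum_insert h4] at this
    have h7 : a ≠ b := fun e => h4 (e ▸ mem_insert_self _ _)
    rcases (show a + 1 ≤ c ∨ d + 1 ≤ a by omega) with h8 | h8
    · obtain ⟨k, rfl⟩ := Nat.exists_eq_add_of_le h8
      obtain rfl : b = d + 1 + k := by omega
      nlinarith
    · obtain ⟨k, rfl⟩ := Nat.exists_eq_add_of_le h8
      obtain rfl : c = b + 1 + k := by omega
      nlinarith

/-- Uniqueness of the `N`-particle zero mode at `Q = 3 (N - 1)`. -/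
theorem ker_unique (N : ℕ) (hN : 2 ≤ N) (κ κ' : Idx (3 * (N - 1) + 1) → ℝ)
    (hκ : ∀ M, pairOp (3 * (N - 1)) M *ᵥ κ = 0) (hκ' : ∀ M, pairOp (3 * (N - 1)) M *ᵥ κ' = 0)
    (hs : ∀ S, S.1.card ≠ N → κ S = 0) (hs' : ∀ S, S.1.card ≠ N → κ' S = 0) (hne : κ' ≠ 0) :
    ∃ c : ℝ, κ = c • κ' := by
  let r : Idx (3 * (N - 1) + 1) := ⟨(range N).image (3 * ·), mem_powerset.2 fun i hi => by
    obtain ⟨k, hk, rfl⟩ := mem_image.1 hi
    simp only [mem_range] at hk ⊢
    omega⟩
  have key : ∀ κ : Idx (3 * (N - 1) + 1) → ℝ, (∀ M, pairOp (3 * (N - 1)) M *ᵥ κ = 0) →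
      (∀ S, S.1.card ≠ N → κ S = 0) → κ ≠ 0 → κ r ≠ 0 := fun κ h1 h2 h3 => by
    obtain ⟨S, a1, a2⟩ := ker_gap _ (by omega) κ h1 h3
    have a3 : S.1.card = N := by_contra fun h => a1 (h2 S h)
    have a4 : ∀ i ∈ S.1, i < 3 * (N - 1) + 1 := fun i hi => mem_range.1 (mem_powerset.1 S.2 hi)
    have a5 : ∀ k ≤ 2, ∑ i ∈ S.1, (i + k) / 3 = ∑ j ∈ range N, j := fun k hk => by
      have inj : Set.InjOn (fun i => (i + k) / 3) S.1 := fun i hi j hj e => by
        have := a2 i hi j hj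
        have := a2 j hj i hi
        simp only at e
        omega
      rw [← eq_of_subset_of_card_le (s := S.1.image fun i => (i + k) / 3) (t := range N)
        (fun j hj => by
          obtain ⟨i, hi, rfl⟩ := mem_image.1 hj
          have := a4 i hi
          exact mem_range.2 (by omega)) (by rw [card_image_of_injOn inj, card_range, a3]),
        sum_image inj]
    have a6 := (sum_eq_sum_iff_of_le fun i _ => (by omega : (i + 0) / 3 ≤ (i + 2) / 3)).1
      ((a5 0 (by omega)).trans (a5 2 le_rfl).symm)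
    rwa [← show S = r from Subtype.ext (eq_of_subset_of_card_le (fun i hi => mem_image.2
      ⟨i / 3, mem_range.2 (by have := a4 i hi; omega), by have := a6 i hi; omega⟩)
      (card_image_le.trans_eq (by rw [card_range, a3])))]
  refine ⟨κ r / κ' r, sub_eq_zero.1 (by_contra fun h => key _ (fun M => ?_) (fun S hS => ?_) h ?_)⟩
  · rw [mulVec_sub, mulVec_smul, hκ, hκ', smul_zero, sub_zero]
  · simp [hs S hS, hs' S hS]
  · simp [key κ' hκ' hs' hne]

end Vale.Agent.P359
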