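import Vale.Agent.P359.Proj
import Vale.Agent.P359.Tmap
import Vale.Agent.P359.Laugh

/-! Part Bridge: from the Fock space gap to the first quantized statement. -/

namespace Vale.Agent.P359
open Finset Matrix

theorem contrR_zero {n Q : ℕ} (M : ℕ) :
    contrR M (fun _ : Fin (n + 2) → Orb Q => (0 : ℝ)) = 0 := by
  funext x; simp [contrR]

theorem contrR_add_smul {n Q : ℕ} (M : ℕ) (f g : (Fin (n + 2) → Orb Q) → ℝ) (c : ℝ) :
    contrR M (fun y => f y + c * g y) = contrR M f + c • contrR M g := by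
  funext x
  simp only [contrR, Pi.add_apply, Pi.smul_apply, smul_eq_mul, mul_sum, ← sum_add_distrib]
  exact sum_congr rfl fun q _ => by ring

theorem IsFermionic.antiR_re {N Q : ℕ} {ψ : State N Q} (h : IsFermionic ψ) :
    AntiR (fun y => (ψ y).re) := by
  intro σ x
  simp only [h σ x]
  rw [show (((Equiv.Perm.sign σ : ℤˣ) : ℤ) : ℂ) = (((((Equiv.Perm.sign σ : ℤˣ) : ℤ) : ℝ)) : ℂ) by
    push_cast; rfl, Complex.re_ofReal_mul]

theorem IsFermionic.antiR_im {N Q : ℕ} {ψ : State N Q} (h : IsFermionic ψ) :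
    AntiR (fun y => (ψ y).im) := by
  intro σ x
  simp only [h σ x]
  rw [show (((Equiv.Perm.sign σ : ℤˣ) : ℤ) : ℂ) = (((((Equiv.Perm.sign σ : ℤˣ) : ℤ) : ℝ)) : ℂ) by
    push_cast; rfl, Complex.im_ofReal_mul]

theorem Tm_zero (Q N : ℕ) : Tm Q N 0 = 0 := by
  have := Tm_smul Q N 0 0
  simpa using this

theorem ham_laughlin (N : ℕ) (hN : 2 ≤ N) : ham (laughlin N) = 0 := by
  obtain ⟨n, rfl⟩ : ∃ n, N = n + 2 := ⟨N - 2, by omega⟩
  refine ham_eq_zero n _ (by omega) _ (laughlin_fermionic _) (laughlin_contr n) fun M => ?_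
  simp only [laughlin_im]
  exact contrR_zero M

/-- The real form of the gap inequality. -/
theorem bridge_real (δ : ℝ) (n : ℕ) (h : FockGap δ (3 * (n + 2 - 1)))
    (f : (Fin (n + 2) → Orb (3 * (n + 2 - 1))) → ℝ) (hf : AntiR f)
    (ho : ∑ x, f x * (laughlin (n + 2) x).re = 0) :
    δ * ∑ x, f x ^ 2 ≤ (((n : ℝ) + 2) * ((n : ℝ) + 1) / 2) *
      ∑ M ∈ range (2 * (3 * (n + 2 - 1)) - 1), ∑ x, contrR M f x ^ 2 := by
  set L : (Fin (n + 2) → Orb (3 * (n + 2 - 1))) → ℝ := fun y => (laughlin (n + 2) y).re with hL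
  have hLa : AntiR L := (laughlin_fermionic _).antiR_re
  have hL0 : ∀ M, pairOp (3 * (n + 2 - 1)) M *ᵥ Tm _ (n + 2) L = 0 := by
    intro M
    rw [pairOp_Tm _ _ _ _ hLa, hL, laughlin_contr, Tm_zero, smul_zero]
  have hfac : (0 : ℝ) < ((n + 2).factorial : ℝ) := by exact_mod_cast Nat.factorial_pos _
  have hfac' : (0 : ℝ) < (n.factorial : ℝ) := by exact_mod_cast Nat.factorial_pos _
  have hLne : Tm _ (n + 2) L ≠ 0 := by
    intro h0
    have h1 := Tm_dot _ (n + 2) L L hLa
    rw [h0, zero_dotProduct] at h1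
    have h2 : ∑ x, L x * L x = 0 := by
      rcases mul_eq_zero.mp h1.symm with h3 | h3
      · exact absurd h3 (by positivity)
      · exact h3
    rw [sum_eq_zero_iff_of_nonneg fun x _ => mul_self_nonneg _] at h2
    apply laughlin_ne_zero (n + 2)
    ext x
    apply Complex.ext
    · simpa using mul_self_eq_zero.mp (h2 x (mem_univ _))
    · simpa using laughlin_im _ x
  have key := h (Tm _ (n + 2) f) (by
    intro κ hκ
    obtain ⟨c, hc⟩ := ker_unique (n + 2) (by omega)
      (fun S => if S.1.card = n + 2 then κ S else 0) (Tm _ (n + 2) L)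
      (ker_sector _ _ κ hκ) hL0 (fun S hS => if_neg hS) (fun S hS => Tm_supp _ _ _ S hS) hLne
    have e1 : Tm _ (n + 2) f ⬝ᵥ κ =
        Tm _ (n + 2) f ⬝ᵥ (fun S => if S.1.card = n + 2 then κ S else 0) := by
      unfold dotProduct
      refine sum_congr rfl fun S _ => ?_
      by_cases hS : S.1.card = n + 2
      · simp [hS]
      · rw [Tm_supp _ _ _ S hS, zero_mul, zero_mul]
    rw [e1, hc, dotProduct_smul, Tm_dot _ _ _ _ hLa, ho]
    simp)
  rw [Tm_dot _ _ _ _ hf] at key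
  have e2 : ∀ M, (pairOp (3 * (n + 2 - 1)) M *ᵥ Tm _ (n + 2) f) ⬝ᵥ
      (pairOp (3 * (n + 2 - 1)) M *ᵥ Tm _ (n + 2) f) =
      (1 / (2 * (n.factorial : ℝ))) * ∑ x, contrR M f x ^ 2 := by
    intro M
    rw [pairOp_Tm _ _ _ _ hf, smul_dotProduct, dotProduct_smul, Tm_dot _ _ _ _ (hf.contr M)]
    have h2 : Real.sqrt 2 * Real.sqrt 2 = 2 := Real.mul_self_sqrt (by norm_num)
    have h3 : Real.sqrt 2 ≠ 0 := by positivity
    simp only [smul_eq_mul, sq]
    field_simp
    rw [sq, h2, mul_comm]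
  simp only [e2, ← mul_sum] at key
  have e3 : ((n + 2).factorial : ℝ) = ((n : ℝ) + 2) * ((n : ℝ) + 1) * (n.factorial : ℝ) := by
    rw [Nat.factorial_succ, Nat.factorial_succ]; push_cast; ring
  have key2 := mul_le_mul_of_nonneg_left key hfac.le
  simp only [← sq] at key2
  calc δ * ∑ x, f x ^ 2
      = ((n + 2).factorial : ℝ) * (δ * (1 / ((n + 2).factorial : ℝ) * ∑ x, f x ^ 2)) := by
        field_simp
    _ ≤ _ := key2
    _ = _ := by rw [e3]; field_simp

theorem bridge (δ : ℝ) (N : ℕ) (hN : 2 ≤ N) (h : FockGap δ (3 * (N - 1)))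
    (ψ : State N (3 * (N - 1))) (hψ : IsFermionic ψ) :
    δ * (inner ℂ ψ (ψ - (ℂ ∙ laughlin N).starProjection ψ)).re ≤ (inner ℂ ψ (ham ψ)).re := by
  obtain ⟨n, rfl⟩ : ∃ n, N = n + 2 := ⟨N - 2, by omega⟩
  set L := laughlin (n + 2) with hL
  set φ := ψ - (ℂ ∙ L).starProjection ψ with hφ
  obtain ⟨c, hc⟩ : ∃ c : ℂ, c • L = (ℂ ∙ L).starProjection ψ :=
    Submodule.mem_span_singleton.mp (Submodule.starProjection_apply_mem _ ψ)
  have hperp : φ ∈ (ℂ ∙ L)ᗮ := Submodule.sub_starProjection_mem_orthogonal ψ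
  have hLφ : inner ℂ L φ = 0 :=
    (Submodule.mem_orthogonal _ _).mp hperp L (Submodule.mem_span_singleton_self L)
  have hsum : ψ = φ + c • L := by rw [hφ, hc]; abel
  have hLim : ∀ x, (L x).im = 0 := laughlin_im _
  have hφf : IsFermionic φ := by
    intro σ x
    rw [hφ, ← hc]
    simp only [PiLp.sub_apply, PiLp.smul_apply, smul_eq_mul, hψ σ x, laughlin_fermionic _ σ x, hL]
    ring
  have h1 : (inner ℂ ψ φ).re = ∑ x, (φ x).re ^ 2 + ∑ x, (φ x).im ^ 2 := by
    have : inner ℂ ψ φ = inner ℂ φ φ := by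
      nth_rewrite 1 [hsum]
      rw [inner_add_left, inner_smul_left, hLφ, mul_zero, add_zero]
    rw [this, PiLp.inner_apply, Complex.re_sum, ← sum_add_distrib]
    refine sum_congr rfl fun x _ => ?_
    rw [RCLike.inner_apply, Complex.mul_re, Complex.conj_re, Complex.conj_im]
    ring
  have h2 : ∑ x, (φ x).re * (L x).re = 0 := by
    have := congrArg Complex.re hLφ
    rw [PiLp.inner_apply, Complex.re_sum] at this
    simpa [hLim] using this
  have h3 : ∑ x, (φ x).im * (L x).re = 0 := by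
    have := congrArg Complex.im hLφ
    rw [PiLp.inner_apply, Complex.im_sum] at this
    simpa [hLim] using this
  have h4 : ∀ M, contrR M (fun y => (ψ y).re) = contrR M (fun y => (φ y).re) := by
    intro M
    have : (fun y => (ψ y).re) = fun y => (φ y).re + c.re * (L y).re := by
      funext y; nth_rewrite 1 [hsum]; simp [hLim]
    rw [this, contrR_add_smul, hL, laughlin_contr, smul_zero, add_zero]
  have h5 : ∀ M, contrR M (fun y => (ψ y).im) = contrR M (fun y => (φ y).im) := by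
    intro M
    have : (fun y => (ψ y).im) = fun y => (φ y).im + c.im * (L y).re := by
      funext y; nth_rewrite 1 [hsum]; simp [hLim]
    rw [this, contrR_add_smul, hL, laughlin_contr, smul_zero, add_zero]
  rw [energy_eq n _ (by omega) ψ hψ, h1]
  simp only [h4, h5, sum_add_distrib]
  have k1 := bridge_real δ n h _ hφf.antiR_re h2
  have k2 := bridge_real δ n h _ hφf.antiR_im h3
  linarith

end Vale.Agent.P359
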