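import Mathlib

/-! Kernel-friendly computational primitives. -/

namespace Vale.Agent.P359

noncomputable def force {α : Type} (n : ℕ) (k : ℕ → α) : α :=
  Nat.rec (motive := fun _ => α) (k 0) (fun m _ => k (Nat.succ m)) n

theorem force_eq {α : Type} (n : ℕ) (k : ℕ → α) : force n k = k n := by
  cases n <;> rfl

noncomputable def loop (n : ℕ) (F : ℕ → ℕ) : ℕ :=
  Nat.rec (motive := fun _ => ℕ) 0 (fun i ih => Nat.add (F i) ih) n

theorem loop_eq (n : ℕ) (F : ℕ → ℕ) : loop n F = ∑ i ∈ Finset.range n, F i := by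
  induction n with
  | zero => rfl
  | succ n ih =>
    rw [Finset.sum_range_succ, ← ih]; exact Nat.add_comm _ _

noncomputable def allLt (n : ℕ) (p : ℕ → Bool) : Bool :=
  Nat.rec (motive := fun _ => Bool) true (fun i ih => and (p i) ih) n

theorem allLt_iff {n : ℕ} {p : ℕ → Bool} : allLt n p = true ↔ ∀ i < n, p i = true := by
  induction n with
  | zero => simp [allLt]
  | succ n ih =>
    have : allLt (n + 1) p = (p n && allLt n p) := rfl
    rw [this, Bool.and_eq_true, ih]
    constructor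
    · rintro ⟨h1, h2⟩ i hi
      rcases Nat.lt_succ_iff_lt_or_eq.mp hi with h | h
      · exact h2 i h
      · exact h ▸ h1
    · intro h; exact ⟨h n (Nat.lt_succ_self n), fun i hi => h i (Nat.lt_succ_of_lt hi)⟩

/-- digit `i` of width `w` (with `m = 2 ^ w`). -/
def dg (n w m i : ℕ) : ℕ := Nat.mod (Nat.shiftRight n (Nat.mul w i)) m

/-- bit test as a `Bool`. -/
def bt (s f : ℕ) : Bool := Nat.beq (Nat.mod (Nat.shiftRight s f) 2) 1

/-- toggle a bit. -/
def tg (s f : ℕ) : ℕ := Nat.xor s (Nat.shiftLeft 1 f)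

/-- `2 ^ 144`. -/
def BW : ℕ := 22300745198530623141535718272648361505980416

/-- leaf at local position `j`, sign parity `σ`, magnitude `m`; `tb = BW ^ (2 d)`. -/
def leafP (d tb j σ m : ℕ) : ℕ :=
  Nat.mul m (Nat.add (Nat.shiftLeft 1 (Nat.mul 144 (Nat.add j (Nat.mul d (Nat.mod σ 2))))) tb)

/-- digit `j` of `N`, where `N' = N * 2 ^ 64 + salt`. -/
def dgS (N' j : ℕ) : ℕ := Nat.mod (Nat.shiftRight N' (Nat.add 64 (Nat.mul 144 j))) BW

/-- final test of one row. -/
noncomputable def rowOK (d eps i N : ℕ) : Bool :=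
  force (Nat.add (Nat.shiftLeft N 64) (Nat.mod i 1024)) fun N' =>
  and (Nat.ble (Nat.succ (Nat.shiftRight N' (Nat.add 64 (Nat.mul 144 (Nat.mul 2 d))))) BW)
    (allLt d fun j =>
      cond (Nat.beq j i) (Nat.ble (Nat.add (dgS N' (Nat.add j d)) (Nat.mul d eps)) (dgS N' j))
        (and (Nat.ble (dgS N' j) (Nat.add (dgS N' (Nat.add j d)) eps))
          (Nat.ble (dgS N' (Nat.add j d)) (Nat.add (dgS N' j) eps))))

/-- spread column `c` (entries `k, k+1, …, d-1`, width 34) with extra sign parity `τ`. -/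
noncomputable def spread (d tb k c τ : ℕ) : ℕ :=
  loop (Nat.sub d k) fun j => force (dg c 34 17179869184 j) fun e =>
    leafP d tb (Nat.add j k) (Nat.add e τ) (Nat.shiftRight e 1)

noncomputable def mkCols {α : Type} (d tb : ℕ) (cs : List ℕ) :
    ℕ → (List (ℕ × ℕ × ℕ × ℕ) → α) → α :=
  List.rec (motive := fun _ => ℕ → (List (ℕ × ℕ × ℕ × ℕ) → α) → α) (fun _ cont => cont [])
    (fun c _ ih k cont => force k fun k' => force (spread d tb k' c 0) fun p0 =>
      force (spread d tb k' c 1) fun p1 => ih (Nat.succ k') fun l => cont ((k', c, p0, p1) :: l)) cs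

/-- packed row `i` of `- L Lᵀ`. -/
noncomputable def lRow (i : ℕ) (l : List (ℕ × ℕ × ℕ × ℕ)) : ℕ :=
  List.rec (motive := fun _ => ℕ) 0
    (fun q _ ih => cond (Nat.ble q.1 i)
      (Nat.add (force (dg q.2.1 34 17179869184 (Nat.sub i q.1)) fun e =>
        Nat.mul (Nat.shiftRight e 1) (cond (Nat.beq (Nat.mod e 2) 1) q.2.2.1 q.2.2.2)) ih) 0) l

end Vale.Agent.P359
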