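import Vale.Agent.P359.Chk

/-! Soundness of the packed row arithmetic. -/

namespace Vale.Agent.P359
open Finset

theorem BW_eq : BW = 2 ^ 144 := by decide +kernel

theorem BW_pos : 0 < BW := by rw [BW_eq]; positivity

def Rep (d : ℕ) (x : ℕ → ℝ) (N : ℕ) (r : ℝ) : Prop :=
  BW ^ (2 * d) * BW ≤ N ∨ ∃ n : ℕ → ℕ,
    N = ∑ j ∈ range (2 * d), n j * BW ^ j + (∑ j ∈ range (2 * d), n j) * BW ^ (2 * d) ∧
    r = ∑ j ∈ range d, ((n j : ℝ) - n (j + d)) * x j

variable {d : ℕ} {x : ℕ → ℝ}

theorem Rep.zero : Rep d x 0 0 := Or.inr ⟨fun _ => 0, by simp, by simp⟩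

theorem Rep.poison (r : ℝ) : Rep d x (BW ^ (2 * d) * BW) r := Or.inl le_rfl

theorem Rep.congr {N : ℕ} {r r' : ℝ} (h : Rep d x N r) (e : r = r') : Rep d x N r' := e ▸ h

theorem Rep.add {N N' : ℕ} {r r' : ℝ} (h : Rep d x N r) (h' : Rep d x N' r') :
    Rep d x (N + N') (r + r') := by
  rcases h with h | ⟨n, h1, h2⟩
  · exact Or.inl (h.trans (Nat.le_add_right _ _))
  rcases h' with h' | ⟨n', h1', h2'⟩
  · exact Or.inl (h'.trans (Nat.le_add_left _ _))
  refine Or.inr ⟨fun j => n j + n' j, ?_, ?_⟩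
  · rw [h1, h1']; simp only [add_mul, sum_add_distrib]; ring
  · rw [h2, h2', ← sum_add_distrib]
    exact sum_congr rfl fun j _ => by push_cast; ring

theorem Rep.mul {N : ℕ} {r : ℝ} (c : ℕ) (h : Rep d x N r) : Rep d x (c * N) (c * r) := by
  induction c with
  | zero => simpa using Rep.zero
  | succ c ih =>
    have := ih.add h
    rw [Nat.succ_mul]
    exact this.congr (by push_cast; ring)

theorem Rep.sum {n : ℕ} {F : ℕ → ℕ} {r : ℕ → ℝ} (h : ∀ i < n, Rep d x (F i) (r i)) :
    Rep d x (loop n F) (∑ i ∈ range n, r i) := by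
  rw [loop_eq]
  induction n with
  | zero => simpa using Rep.zero
  | succ n ih =>
    rw [sum_range_succ, sum_range_succ]
    exact (ih fun i hi => h i (Nat.lt_succ_of_lt hi)).add (h n (Nat.lt_succ_self n))

theorem Rep.leaf {j : ℕ} (hj : j < d) (σ m : ℕ) :
    Rep d x (leafP d (BW ^ (2 * d)) j σ m) ((-1) ^ σ * m * x j) := by
  have hp : j + d * (σ % 2) < 2 * d := by
    rcases Nat.mod_two_eq_zero_or_one σ with h | h <;> rw [h] <;> omega
  refine Or.inr ⟨fun i => if i = j + d * (σ % 2) then m else 0, ?_, ?_⟩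
  · have e : leafP d (BW ^ (2 * d)) j σ m = m * (1 <<< (144 * (j + d * (σ % 2))) + BW ^ (2 * d)) :=
      rfl
    rw [e, Nat.shiftLeft_eq, one_mul, pow_mul, ← BW_eq]
    simp only [ite_mul, zero_mul, sum_ite_eq', mem_range, hp, if_true]
    ring
  · rw [neg_one_pow_eq_pow_mod_two]
    rcases Nat.mod_two_eq_zero_or_one σ with h | h
    · rw [h, sum_eq_single j]
      · have : d ≠ 0 := by omega
        simp [this]
      · intro i hi hij
        have h1 : i + d ≠ j := by omega
        simp [hij, h1]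
      · intro h; exact absurd (mem_range.mpr hj) h
    · rw [h, sum_eq_single j]
      · have : d ≠ 0 := by omega
        simp [this]
      · intro i hi hij
        have h1 : i ≠ j + d := by have := mem_range.mp hi; omega
        simp [hij, h1]
      · intro h; exact absurd (mem_range.mpr hj) h

theorem digit_lt {B : ℕ} (n : ℕ → ℕ) (D : ℕ) (h : ∀ j < D, n j < B) :
    ∑ j ∈ range D, n j * B ^ j < B ^ D := by
  induction D with
  | zero => simp
  | succ D ih =>
    have h1 := ih fun j hj => h j (Nat.lt_succ_of_lt hj)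
    have h2 : n D + 1 ≤ B := h D (Nat.lt_succ_self D)
    rw [sum_range_succ, pow_succ]
    calc _ < B ^ D + n D * B ^ D := by omega
      _ = (n D + 1) * B ^ D := by ring
      _ ≤ B * B ^ D := Nat.mul_le_mul_right _ h2
      _ = _ := by ring

theorem digit_eq {B : ℕ} (hB : 0 < B) (n : ℕ → ℕ) (D : ℕ) (h : ∀ j < D, n j < B) (t j : ℕ)
    (hj : j < D) : (∑ i ∈ range D, n i * B ^ i + t * B ^ D) / B ^ j % B = n j := by
  induction D generalizing t with
  | zero => omega
  | succ D ih =>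
    have e : ∑ i ∈ range (D + 1), n i * B ^ i + t * B ^ (D + 1) =
        ∑ i ∈ range D, n i * B ^ i + (n D + t * B) * B ^ D := by
      rw [sum_range_succ]; ring
    rw [e]
    rcases Nat.lt_succ_iff_lt_or_eq.mp hj with h1 | h1
    · exact ih (fun j hj => h j (Nat.lt_succ_of_lt hj)) _ h1
    · subst h1
      have h2 := digit_lt n j fun i hi => h i (Nat.lt_succ_of_lt hi)
      rw [Nat.add_mul_div_right _ _ (pow_pos hB j), Nat.div_eq_of_lt h2, zero_add,
        Nat.add_mul_mod_self_right, Nat.mod_eq_of_lt (h j (Nat.lt_succ_self j))]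

/-- the matrix entry read off a packed row. -/
noncomputable def Rv (d N j : ℕ) : ℝ :=
  ((N / BW ^ j % BW : ℕ) : ℝ) - ((N / BW ^ (j + d) % BW : ℕ) : ℝ)

theorem Rep.read {N : ℕ} {r : ℝ} (h : Rep d x N r) (hN : N / BW ^ (2 * d) < BW) :
    r = ∑ j ∈ range d, Rv d N j * x j := by
  have hp : 0 < BW ^ (2 * d) := pow_pos BW_pos _
  rcases h with h | ⟨n, h1, h2⟩
  · exfalso
    have := (Nat.le_div_iff_mul_le hp).mpr ((mul_comm _ _).le.trans h)
    omega
  have ht : ∑ j ∈ range (2 * d), n j ≤ N / BW ^ (2 * d) :=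
    (Nat.le_div_iff_mul_le hp).mpr (h1 ▸ Nat.le_add_left _ _)
  have hn : ∀ j < 2 * d, n j < BW := fun j hj =>
    lt_of_le_of_lt ((single_le_sum (fun i _ => Nat.zero_le (n i)) (mem_range.mpr hj)).trans ht) hN
  rw [h2]
  refine sum_congr rfl fun j hj => ?_
  have hj := mem_range.mp hj
  unfold Rv
  rw [h1, digit_eq BW_pos n _ hn _ j (by omega), digit_eq BW_pos n _ hn _ (j + d) (by omega)]

theorem shift_salt (N i k : ℕ) :
    (N <<< 64 + i % 1024) >>> (64 + 144 * k) = N / BW ^ k := by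
  rw [Nat.shiftRight_eq_div_pow, Nat.shiftLeft_eq, pow_add, ← Nat.div_div_eq_div_mul, pow_mul,
    ← BW_eq, add_comm, Nat.add_mul_div_right _ _ (by positivity),
    Nat.div_eq_of_lt (a := i % 1024), zero_add]
  exact lt_trans (Nat.mod_lt _ (by norm_num)) (by norm_num)

theorem rowOK_sound {eps i N : ℕ} (h : rowOK d eps i N = true) :
    N / BW ^ (2 * d) < BW ∧ (∀ j < d, j ≠ i → |Rv d N j| ≤ eps) ∧
      (i < d → (d : ℝ) * eps ≤ Rv d N i) := by
  unfold rowOK at h
  rw [force_eq, Bool.and_eq_true, allLt_iff] at h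
  obtain ⟨h1, h2⟩ := h
  have e : ∀ k, dgS (Nat.add (Nat.shiftLeft N 64) (Nat.mod i 1024)) k = N / BW ^ k % BW :=
    fun k => congrArg (· % BW) (shift_salt N i k)
  simp only [e] at h2
  refine ⟨?_, fun j hj hji => ?_, fun hi => ?_⟩
  · have := Nat.le_of_ble_eq_true h1
    have e2 := shift_salt N i (2 * d)
    exact e2 ▸ this
  · have := h2 j hj
    have hb : Nat.beq j i = false := by
      rw [← Bool.not_eq_true, Nat.beq_eq]; exact hji
    rw [hb, cond_false, Bool.and_eq_true] at this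
    have a1 : N / BW ^ j % BW ≤ N / BW ^ (j + d) % BW + eps := Nat.le_of_ble_eq_true this.1
    have a2 : N / BW ^ (j + d) % BW ≤ N / BW ^ j % BW + eps := Nat.le_of_ble_eq_true this.2
    have b1 : ((N / BW ^ j % BW : ℕ) : ℝ) ≤ (N / BW ^ (j + d) % BW : ℕ) + eps := by
      exact_mod_cast a1
    have b2 : ((N / BW ^ (j + d) % BW : ℕ) : ℝ) ≤ (N / BW ^ j % BW : ℕ) + eps := by
      exact_mod_cast a2
    unfold Rv
    rw [abs_le]; constructor <;> linarith
  · have := h2 i hi
    rw [Nat.beq_refl, cond_true] at this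
    have a1 : N / BW ^ (i + d) % BW + d * eps ≤ N / BW ^ i % BW := Nat.le_of_ble_eq_true this
    have b1 : ((N / BW ^ (i + d) % BW : ℕ) : ℝ) + d * eps ≤ (N / BW ^ i % BW : ℕ) := by
      exact_mod_cast a1
    unfold Rv
    linarith

theorem psd_of_dom (R : ℕ → ℕ → ℝ) (ε : ℝ) (hε : 0 ≤ ε)
    (h1 : ∀ i < d, ∀ j < d, j ≠ i → |R i j| ≤ ε) (h2 : ∀ i < d, d * ε ≤ R i i) :
    0 ≤ ∑ i ∈ range d, x i * ∑ j ∈ range d, R i j * x j := by
  have key : ∀ i ∈ range d, ∀ j ∈ range d,
      (if j = i then (d : ℝ) * ε * x i ^ 2 else 0) - ε * ((x i ^ 2 + x j ^ 2) / 2) ≤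
        x i * (R i j * x j) := by
    intro i hi j hj
    split_ifs with hji
    · subst hji
      have := h2 j (mem_range.mp hi)
      nlinarith [sq_nonneg (x j), mul_nonneg hε (sq_nonneg (x j))]
    · have h3 := h1 i (mem_range.mp hi) j (mem_range.mp hj) hji
      have h4 : |x i * (R i j * x j)| ≤ ε * ((x i ^ 2 + x j ^ 2) / 2) := by
        rw [show x i * (R i j * x j) = R i j * (x i * x j) by ring, abs_mul]
        refine mul_le_mul h3 ?_ (abs_nonneg _) hε
        rw [abs_le]; constructor <;> nlinarith [sq_nonneg (x i + x j), sq_nonneg (x i - x j)]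
      linarith [neg_abs_le (x i * (R i j * x j))]
  have h5 : ∑ i ∈ range d, ∑ j ∈ range d,
      ((if j = i then (d : ℝ) * ε * x i ^ 2 else 0) - ε * ((x i ^ 2 + x j ^ 2) / 2)) = 0 := by
    have e1 : ∀ i ∈ range d, ∑ j ∈ range d,
        ((if j = i then (d : ℝ) * ε * x i ^ 2 else 0) - ε * ((x i ^ 2 + x j ^ 2) / 2)) =
        d * ε / 2 * x i ^ 2 - ε / 2 * ∑ j ∈ range d, x j ^ 2 := by
      intro i hi
      rw [sum_sub_distrib, sum_ite_eq' (range d) i, if_pos hi]
      have : ∀ j, ε * ((x i ^ 2 + x j ^ 2) / 2) = ε / 2 * x i ^ 2 + ε / 2 * x j ^ 2 := fun j => by ring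
      simp only [this, sum_add_distrib, sum_const, card_range, nsmul_eq_mul, ← mul_sum]
      ring
    rw [sum_congr rfl e1, sum_sub_distrib, ← mul_sum, sum_const, card_range, nsmul_eq_mul]
    ring
  rw [← h5]
  refine sum_le_sum fun i hi => ?_
  rw [mul_sum]
  exact sum_le_sum fun j hj => key i hi j hj

/-- signed value of a sign-magnitude code. -/
noncomputable def sv (e : ℕ) : ℝ := (-1 : ℝ) ^ e * ((e >>> 1 : ℕ) : ℝ)

noncomputable def lval (k c j : ℕ) : ℝ := if k ≤ j then sv (dg c 34 17179869184 (j - k)) else 0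

noncomputable def lin (d : ℕ) (x : ℕ → ℝ) (k c : ℕ) : ℝ := ∑ j ∈ range d, lval k c j * x j

theorem spread_rep (k c τ : ℕ) :
    Rep d x (spread d (BW ^ (2 * d)) k c τ) ((-1) ^ τ * lin d x k c) := by
  unfold spread
  refine (Rep.sum (r := fun j => (-1) ^ τ * (sv (dg c 34 17179869184 j) * x (j + k)))
    fun j hj => ?_).congr ?_
  · rw [force_eq]
    have hj' : j + k < d := by have : j < d - k := hj; omega
    refine (Rep.leaf hj' _ _).congr ?_
    show (-1 : ℝ) ^ (dg c 34 17179869184 j + τ) * ((dg c 34 17179869184 j >>> 1 : ℕ) : ℝ) *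
      x (j + k) = _
    unfold sv; rw [pow_add]; ring
  · rw [← mul_sum]
    congr 1
    unfold lin lval
    show ∑ j ∈ range (d - k), _ = _
    rw [← sum_subset (s₁ := Ico k d) (s₂ := range d)]
    · rw [sum_Ico_eq_sum_range]
      refine sum_congr rfl fun j _ => ?_
      simp [add_comm]
    · intro j hj; exact mem_range.mpr (mem_Ico.mp hj).2
    · intro j hj hj'
      have : ¬ k ≤ j := fun h => hj' (mem_Ico.mpr ⟨h, mem_range.mp hj⟩)
      simp [this]

noncomputable def colSpec (d tb : ℕ) : List ℕ → ℕ → List (ℕ × ℕ × ℕ × ℕ)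
  | [], _ => []
  | c :: cs, k => (k, c, spread d tb k c 0, spread d tb k c 1) :: colSpec d tb cs (k + 1)

theorem mkCols_eq {α : Type} (d tb : ℕ) (cs : List ℕ) (k : ℕ)
    (cont : List (ℕ × ℕ × ℕ × ℕ) → α) : mkCols d tb cs k cont = cont (colSpec d tb cs k) := by
  induction cs generalizing k cont with
  | nil => rfl
  | cons c cs ih =>
    have e : mkCols d tb (c :: cs) k cont = force k fun k' => force (spread d tb k' c 0) fun p0 =>
      force (spread d tb k' c 1) fun p1 => mkCols d tb cs (Nat.succ k')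
        fun l => cont ((k', c, p0, p1) :: l) := rfl
    rw [e, force_eq, force_eq, force_eq, ih]; rfl

noncomputable def rowS (d : ℕ) (x : ℕ → ℝ) : List ℕ → ℕ → ℕ → ℝ
  | [], _, _ => 0
  | c :: cs, k, i => lval k c i * lin d x k c + rowS d x cs (k + 1) i

theorem rowS_zero (cs : List ℕ) (k i : ℕ) (h : i < k) : rowS d x cs k i = 0 := by
  induction cs generalizing k with
  | nil => rfl
  | cons c cs ih =>
    unfold rowS
    rw [ih (k + 1) (by omega), lval, if_neg (by omega)]; simp

theorem rowS_nonneg (cs : List ℕ) (k : ℕ) : 0 ≤ ∑ i ∈ range d, x i * rowS d x cs k i := by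
  induction cs generalizing k with
  | nil => simp [rowS]
  | cons c cs ih =>
    have e : ∀ i, x i * rowS d x (c :: cs) k i =
        lval k c i * x i * lin d x k c + x i * rowS d x cs (k + 1) i := fun i => by
      rw [rowS]; ring
    simp only [e, sum_add_distrib, ← sum_mul]
    exact add_nonneg (mul_self_nonneg (lin d x k c)) (ih _)

theorem lRow_rep (cs : List ℕ) (k i : ℕ) :
    Rep d x (lRow i (colSpec d (BW ^ (2 * d)) cs k)) (- rowS d x cs k i) := by
  induction cs generalizing k with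
  | nil => exact Rep.zero.congr (by simp [rowS])
  | cons c cs ih =>
    have e : lRow i (colSpec d (BW ^ (2 * d)) (c :: cs) k) = cond (Nat.ble k i)
      ((force (dg c 34 17179869184 (i - k)) fun e =>
        (e >>> 1) * (cond (Nat.beq (e % 2) 1) (spread d (BW ^ (2 * d)) k c 0)
          (spread d (BW ^ (2 * d)) k c 1))) + lRow i (colSpec d (BW ^ (2 * d)) cs (k + 1))) 0 := rfl
    rw [e, force_eq]
    by_cases hk : k ≤ i
    · rw [Nat.ble_eq_true_of_le hk, cond_true]
      have h1 : Rep d x ((dg c 34 17179869184 (i - k) >>> 1) *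
          (cond (Nat.beq (dg c 34 17179869184 (i - k) % 2) 1) (spread d (BW ^ (2 * d)) k c 0)
          (spread d (BW ^ (2 * d)) k c 1))) (-(lval k c i * lin d x k c)) := by
        rw [lval, if_pos hk, sv, neg_one_pow_eq_pow_mod_two]
        rcases Nat.mod_two_eq_zero_or_one (dg c 34 17179869184 (i - k)) with h | h <;> rw [h]
        · exact ((spread_rep k c 1).mul _).congr (by ring)
        · exact ((spread_rep k c 0).mul _).congr (by ring)
      exact (h1.add (ih (k + 1))).congr (by rw [rowS]; ring)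
    · have : Nat.ble k i = false := by
        rw [← Bool.not_eq_true, Nat.ble_eq]; exact hk
      rw [this, cond_false, rowS_zero _ _ _ (by omega)]
      simpa using Rep.zero

end Vale.Agent.P359
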