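import Mathlib

/-! Statement definitions for P359 (spherical V1 pseudopotential Hamiltonian). -/

namespace Vale.Agent.P359

/-- Labels of the orthonormal basis `e_m = sqrt(C(Q,m)) u^(Q-m) v^m`, `0 ≤ m ≤ Q`, of `U_Q`. -/
abbrev Orb (Q : ℕ) : Type := Fin (Q + 1)

/-- `U_Q ⊗ U_Q` in the orthonormal basis `e_a ⊗ e_b`. -/
abbrev Two (Q : ℕ) : Type := EuclideanSpace ℂ (Orb Q × Orb Q)

/-- `U_Q^{⊗ N}` in the orthonormal product basis. -/
abbrev State (N Q : ℕ) : Type := EuclideanSpace ℂ (Fin N → Orb Q)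

/-- Matrix element `⟨e_a, S₋ e_b⟩` of the spin lowering operator `S₋ = v ∂/∂u` on `U_Q`. -/
noncomputable def lowerEl (Q : ℕ) (a b : Orb Q) : ℂ :=
  if (a : ℕ) = (b : ℕ) + 1 then (Real.sqrt ((((b : ℕ) : ℝ) + 1) * ((Q : ℝ) - ((b : ℕ) : ℝ))) : ℝ)
  else 0

/-- The total lowering operator `S₋ ⊗ 1 + 1 ⊗ S₋` on `U_Q ⊗ U_Q`. -/
noncomputable def lowerTwo (Q : ℕ) (w : Two Q) : Two Q :=
  WithLp.toLp 2 fun p =>
    (∑ c : Orb Q, lowerEl Q p.1 c * w (c, p.2)) + ∑ c : Orb Q, lowerEl Q p.2 c * w (p.1, c)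

/-- The highest weight vector `e_0 ⊗ e_1 - e_1 ⊗ e_0` of total spin `Q - 1`. -/
noncomputable def topVec (Q : ℕ) : Two Q :=
  EuclideanSpace.single ((0 : Orb Q), (1 : Orb Q)) (1 : ℂ) -
    EuclideanSpace.single ((1 : Orb Q), (0 : Orb Q)) (1 : ℂ)

/-- The irreducible component of total spin `Q - 1` of `U_Q ⊗ U_Q`. -/
noncomputable def spinComp (Q : ℕ) : Submodule ℂ (Two Q) :=
  Submodule.span ℂ (Set.range fun k : ℕ => (lowerTwo Q)^[k] (topVec Q))

/-- The two-particle vector seen in tensor factors `i`, `j` when the other labels are those of `x`. -/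
noncomputable def slice {N Q : ℕ} (ψ : State N Q) (x : Fin N → Orb Q) (i j : Fin N) : Two Q :=
  WithLp.toLp 2 fun p => ψ (Function.update (Function.update x i p.1) j p.2)

/-- `P^{(1)}_{ij}`: the orthogonal projection onto `spinComp Q` acting in tensor factors `i`, `j`. -/
noncomputable def pairTerm {N Q : ℕ} (i j : Fin N) (ψ : State N Q) : State N Q :=
  WithLp.toLp 2 fun x => (spinComp Q).starProjection (slice ψ x i j) (x i, x j)

/-- `H_{N,Q} = ∑_{i<j} P^{(1)}_{ij}`. -/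
noncomputable def ham {N Q : ℕ} (ψ : State N Q) : State N Q :=
  ∑ i : Fin N, ∑ j ∈ Finset.Ioi i, pairTerm i j ψ

/-- Membership in the fermionic space `⋀^N U_Q`. -/
def IsFermionic {N Q : ℕ} (ψ : State N Q) : Prop :=
  ∀ (σ : Equiv.Perm (Fin N)) (x : Fin N → Orb Q),
    ψ (x ∘ σ) = (((Equiv.Perm.sign σ : ℤˣ) : ℤ) : ℂ) * ψ x

/-- `∏_{i<j} (u_i v_j - u_j v_i)^3` with `u_i = X (inl i)`, `v_i = X (inr i)`. -/
noncomputable def laughlinPoly (N : ℕ) : MvPolynomial (Fin N ⊕ Fin N) ℂ :=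
  ∏ i : Fin N, ∏ j ∈ Finset.Ioi i,
    (MvPolynomial.X (Sum.inl i) * MvPolynomial.X (Sum.inr j) -
      MvPolynomial.X (Sum.inl j) * MvPolynomial.X (Sum.inr i)) ^ 3

/-- The exponent vector of the monomial `∏_i u_i^(Q - x_i) v_i^(x_i)`. -/
noncomputable def monoExp {N Q : ℕ} (x : Fin N → Orb Q) : (Fin N ⊕ Fin N) →₀ ℕ :=
  Finsupp.equivFunOnFinite.symm (Sum.elim (fun i => Q - (x i : ℕ)) (fun i => (x i : ℕ)))

/-- The Laughlin vector at flux `Q = 3 (N - 1)`, in the orthonormal product basis. -/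
noncomputable def laughlin (N : ℕ) : State N (3 * (N - 1)) :=
  WithLp.toLp 2 fun x =>
    MvPolynomial.coeff (monoExp x) (laughlinPoly N) /
      ∏ i : Fin N, ((Real.sqrt ((3 * (N - 1)).choose (x i : ℕ) : ℕ) : ℝ) : ℂ)

end Vale.Agent.P359
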