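import Vale.Agent.P359.LDefs
import Vale.Agent.P359.Alg

/-! Part GramP: table accuracy, operator bounds, Gram structure of the eigenspace data. -/

namespace Vale.Agent.P359
open Finset Matrix Filter

/-- All coefficients are eventually close to the table values. -/
structure Close (Q : ℕ) : Prop where
  big : 30 ≤ Q
  hu : ∀ f < 29, |jU Q f - (uOf f : ℝ) / 2 ^ 48| ≤ 1 / 2 ^ 42
  hv : ∀ f < 29, |jV Q f - (vOf f : ℝ) / 2 ^ 48| ≤ 1 / 2 ^ 42
  hp : ∀ M < 28, ∀ c < 5, c ≤ M + 1 → |phi Q M c - (phI M c : ℝ) / 2 ^ 48| ≤ 1 / 2 ^ 42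

theorem uTab_ok : ∀ f < 29, uOf f ^ 2 ≤ (f + 1) * 2 ^ 96 ∧ (f + 1) * 2 ^ 96 ≤ (uOf f + 1) ^ 2 := by
  decide +kernel

theorem vTab_ok : ∀ f < 29,
    vOf f ^ 2 ≤ 2 * (f + 1) * 2 ^ 96 ∧ 2 * (f + 1) * 2 ^ 96 ≤ (vOf f + 1) ^ 2 := by
  decide +kernel

theorem rTab_ok : ∀ M < 28, ∀ c < 5, c ≤ M + 1 →
    rOf M c ^ 2 * (c.factorial * (M + 1 - c).factorial * 2 ^ M) ≤ M.factorial * 2 ^ 96 ∧
    M.factorial * 2 ^ 96 ≤ (rOf M c + 1) ^ 2 * (c.factorial * (M + 1 - c).factorial * 2 ^ M) := by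
  decide +kernel

theorem alTab_ok : 10000 * loop 7 alOf ≤ 9554 * 2 ^ 32 := by decide +kernel

theorem sqrt_close {x r : ℝ} (hr : 0 ≤ r) (h1 : r ^ 2 ≤ x * 2 ^ 96) (h2 : x * 2 ^ 96 ≤ (r + 1) ^ 2) :
    |Real.sqrt x - r / 2 ^ 48| ≤ 1 / 2 ^ 48 := by
  have a1 : r / 2 ^ 48 ≤ Real.sqrt x := by
    apply Real.le_sqrt_of_sq_le
    rw [div_pow, div_le_iff₀ (by positivity)]
    norm_num at h1 ⊢; linarith
  have a2 : Real.sqrt x ≤ (r + 1) / 2 ^ 48 := by
    apply Real.sqrt_le_iff.mpr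
    refine ⟨by positivity, ?_⟩
    rw [div_pow, le_div_iff₀ (by positivity)]
    norm_num at h2 ⊢; linarith
  rw [abs_le]
  constructor
  · have : (0 : ℝ) ≤ 1 / 2 ^ 48 := by positivity
    linarith
  · rw [add_div] at a2; linarith

theorem ev_close {a : ℕ → ℝ} {L t ε : ℝ} (h : Tendsto a atTop (nhds L)) (hL : |L - t| < ε) :
    ∀ᶠ Q in atTop, |a Q - t| ≤ ε :=
  ((h.sub_const t).abs).eventually (ge_mem_nhds hL)

theorem phI_cast (M c : ℕ) : (phI M c : ℝ) = ((M : ℝ) + 1 - 2 * c) * (rOf M c : ℝ) := by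
  have : phI M c = (((M + 1 : ℕ) : ℤ) - ((2 * c : ℕ) : ℤ)) * (rOf M c : ℤ) := by
    rw [← Int.subNatNat_eq_coe]; rfl
  rw [this]; push_cast; ring

theorem eventually_close : ∀ᶠ Q in atTop, Close Q := by
  have h1 : ∀ᶠ Q in atTop, ∀ f ∈ range 29, |jU Q f - (uOf f : ℝ) / 2 ^ 48| ≤ 1 / 2 ^ 42 := by
    refine (eventually_all_finset _).2 fun f hf => ev_close (tendsto_jU f) ?_
    obtain ⟨a, b⟩ := uTab_ok f (mem_range.1 hf)
    refine lt_of_le_of_lt (sqrt_close (by positivity) (by exact_mod_cast a)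
      (by exact_mod_cast b)) (by norm_num)
  have h2 : ∀ᶠ Q in atTop, ∀ f ∈ range 29, |jV Q f - (vOf f : ℝ) / 2 ^ 48| ≤ 1 / 2 ^ 42 := by
    refine (eventually_all_finset _).2 fun f hf => ev_close (tendsto_jV f) ?_
    obtain ⟨a, b⟩ := vTab_ok f (mem_range.1 hf)
    refine lt_of_le_of_lt (sqrt_close (by positivity) (by exact_mod_cast a)
      (by exact_mod_cast b)) (by norm_num)
  have h3 : ∀ᶠ Q in atTop, ∀ M ∈ range 28, ∀ c ∈ range 5, c ≤ M + 1 →
      |phi Q M c - (phI M c : ℝ) / 2 ^ 48| ≤ 1 / 2 ^ 42 := by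
    refine (eventually_all_finset _).2 fun M hM => (eventually_all_finset _).2 fun c hc => ?_
    by_cases hcM : c ≤ M + 1
    swap
    · exact Eventually.of_forall fun _ h => absurd h hcM
    refine (ev_close (tendsto_phi M c hcM) ?_).mono fun _ h _ => h
    obtain ⟨a, b⟩ := rTab_ok M (mem_range.1 hM) c (mem_range.1 hc) hcM
    have hD : (0 : ℝ) < (c.factorial : ℝ) * ((M + 1 - c).factorial : ℝ) * 2 ^ M := by positivity
    have k := sqrt_close (x := (M.factorial : ℝ) /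
      ((c.factorial : ℝ) * ((M + 1 - c).factorial : ℝ) * 2 ^ M)) (r := rOf M c) (by positivity)
      (by rw [div_mul_eq_mul_div, le_div_iff₀ hD]; exact_mod_cast a)
      (by rw [div_mul_eq_mul_div, div_le_iff₀ hD]; exact_mod_cast b)
    rw [phI_cast, phiInf, mul_div_assoc, ← mul_sub, abs_mul]
    have hM' : (M : ℝ) ≤ 28 := by exact_mod_cast (mem_range.1 hM).le
    have hc' : (c : ℝ) ≤ 5 := by exact_mod_cast (mem_range.1 hc).le
    have h29 : |(M : ℝ) + 1 - 2 * c| ≤ 29 := by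
      rw [abs_le]; constructor <;> nlinarith [(Nat.cast_nonneg M : (0 : ℝ) ≤ M),
        (Nat.cast_nonneg c : (0 : ℝ) ≤ c)]
    calc _ ≤ 29 * (1 / 2 ^ 48 : ℝ) := mul_le_mul h29 k (abs_nonneg _) (by norm_num)
      _ < _ := by norm_num
  filter_upwards [h1, h2, h3, eventually_ge_atTop 30] with Q a b c d
  exact ⟨d, fun f hf => a f (mem_range.2 hf), fun f hf => b f (mem_range.2 hf),
    fun M hM e he => c M (mem_range.2 hM) e (mem_range.2 he)⟩

theorem alpha_sum : ∑ M ∈ range 7, (alOf M : ℝ) / 2 ^ 32 ≤ 9554 / 10000 := by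
  have h := alTab_ok
  rw [loop_eq] at h
  have h' : (10000 : ℝ) * ∑ M ∈ range 7, (alOf M : ℝ) ≤ 9554 * 2 ^ 32 := by exact_mod_cast h
  rw [← sum_div, div_le_div_iff₀ (by positivity) (by positivity)]
  linarith

theorem sum_half {α : Type*} [AddCommMonoid α] (n : ℕ) (f : ℕ → α)
    (h1 : ∀ c < n, f (n - 1 - c) = f c) (h2 : ∀ c, 2 * c + 1 = n → f c = 0) :
    ∑ c ∈ range n, f c = ∑ c ∈ range (n / 2), f c + ∑ c ∈ range (n / 2), f c := by
  obtain ⟨m, hm⟩ : ∃ m, n = n / 2 + m := ⟨n - n / 2, by omega⟩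
  conv_lhs => rw [hm]
  rw [sum_range_add, ← sum_range_reflect (fun x => f (n / 2 + x)) m]
  congr 1
  have e : ∑ j ∈ range m, f (n / 2 + (m - 1 - j)) = ∑ j ∈ range m, f j := by
    refine sum_congr rfl fun j hj => ?_
    have := mem_range.1 hj
    rw [← h1 j (by omega)]
    congr 1; omega
  rw [e]
  rcases (by omega : m = n / 2 ∨ m = n / 2 + 1) with h | h
  · rw [h]
  · rw [h, sum_range_succ, h2 _ (by omega), add_zero]

theorem pairOp_half (Q P : ℕ) : pairOp Q P =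
    ∑ c ∈ range ((P + 2) / 2), phi Q P c • (ann (Q + 1) (P + 1 - c) * ann (Q + 1) c) := by
  unfold pairOp
  rw [sum_half (P + 2), ← sum_add_distrib]
  · refine sum_congr rfl fun c _ => ?_
    rw [← add_smul, add_halves]
  · intro c hc
    have e1 : P + 2 - 1 - c = P + 1 - c := by omega
    have e2 : P + 1 - (P + 1 - c) = c := by omega
    rw [e1, e2, phi_antisymm Q P c (by omega), ann_anticomm (Q + 1) c, neg_div, neg_smul,
      smul_neg, neg_neg]
  · intro c hc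
    rw [show P + 1 - c = c by omega, ann_mul_self, smul_zero]

theorem pairOp_del (Q M : ℕ) (w : Idx (Q + 1) → ℝ) (S : Idx (Q + 1)) (hS : Del M S.1) :
    (pairOp Q M *ᵥ w) S = 0 := by
  rw [pairOp_half, sum_mulVec, Finset.sum_apply]
  refine sum_eq_zero fun c hc => ?_
  rw [smul_mulVec, Pi.smul_apply, ← mulVec_mulVec, ann_mulVec, ext_ann]
  rcases hS c (mem_range.1 hc) with h | h
  · simp [annF, h]
  · simp [annF, h]

section bounds
variable {ι : Type} [Fintype ι]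

/-- Euclidean norm. -/
noncomputable def nrm (v : ι → ℝ) : ℝ := ‖(WithLp.toLp 2 v : EuclideanSpace ℝ ι)‖

theorem nrm_nonneg (v : ι → ℝ) : 0 ≤ nrm v := norm_nonneg _

theorem nrm_sq (v : ι → ℝ) : nrm v ^ 2 = v ⬝ᵥ v := by
  unfold nrm
  rw [EuclideanSpace.real_norm_sq_eq]
  simp [dotProduct, sq]

theorem abs_dot_le (v w : ι → ℝ) : |v ⬝ᵥ w| ≤ nrm v * nrm w := by
  have := abs_real_inner_le_norm (WithLp.toLp 2 v : EuclideanSpace ℝ ι) (WithLp.toLp 2 w)
  rw [EuclideanSpace.inner_toLp_toLp] at this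
  simpa [dotProduct_comm, nrm] using this

/-- Operator norm bound. -/
def Bd (X : Matrix ι ι ℝ) (C : ℝ) : Prop := 0 ≤ C ∧ ∀ v, nrm (X *ᵥ v) ≤ C * nrm v

theorem Bd.mono {X : Matrix ι ι ℝ} {C D : ℝ} (h : Bd X C) (hD : C ≤ D) : Bd X D :=
  ⟨h.1.trans hD, fun v => (h.2 v).trans (mul_le_mul_of_nonneg_right hD (nrm_nonneg v))⟩

theorem Bd.mul {X Y : Matrix ι ι ℝ} {C D : ℝ} (h : Bd X C) (h' : Bd Y D) : Bd (X * Y) (C * D) :=
  ⟨mul_nonneg h.1 h'.1, fun v => by
    rw [← mulVec_mulVec, mul_assoc]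
    exact (h.2 _).trans (mul_le_mul_of_nonneg_left (h'.2 v) h.1)⟩

theorem Bd.smul {X : Matrix ι ι ℝ} {C : ℝ} (h : Bd X C) (c : ℝ) : Bd (c • X) (|c| * C) :=
  ⟨mul_nonneg (abs_nonneg c) h.1, fun v => by
    have : nrm ((c • X) *ᵥ v) = |c| * nrm (X *ᵥ v) := by
      rw [smul_mulVec]; unfold nrm
      rw [WithLp.toLp_smul, norm_smul, Real.norm_eq_abs]
    rw [this, mul_assoc]
    exact mul_le_mul_of_nonneg_left (h.2 v) (abs_nonneg c)⟩

theorem Bd.add {X Y : Matrix ι ι ℝ} {C D : ℝ} (h : Bd X C) (h' : Bd Y D) : Bd (X + Y) (C + D) :=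
  ⟨add_nonneg h.1 h'.1, fun v => by
    have : nrm ((X + Y) *ᵥ v) ≤ nrm (X *ᵥ v) + nrm (Y *ᵥ v) := by
      rw [add_mulVec]; unfold nrm
      rw [WithLp.toLp_add]; exact norm_add_le _ _
    linarith [h.2 v, h'.2 v]⟩

theorem Bd.sum {α : Type} (s : Finset α) {X : α → Matrix ι ι ℝ} {C : ℝ}
    (h : ∀ a ∈ s, Bd (X a) C) : Bd (∑ a ∈ s, X a) (s.card * C) := by
  classical
  induction s using Finset.induction_on with
  | empty => exact ⟨by simp, fun v => by simp [nrm]⟩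
  | insert a s ha ih =>
    rw [sum_insert ha, card_insert_of_notMem ha]
    refine ((h a (mem_insert_self _ _)).add (ih fun b hb => h b (mem_insert_of_mem hb))).mono ?_
    push_cast; linarith

variable {κ : Type} [Fintype κ] (ψ : κ → ι → ℝ)

theorem om_bound {X Y A B : Matrix ι ι ℝ} {C D g : ℝ} (hX : Bd X C) (hY : Bd Y D)
    (hA : om ψ A A = g) (hB : om ψ B B = g) : |om ψ (X * A) (Y * B)| ≤ C * D * g := by
  have hg : C * D * g = ∑ r, C * D * (((A *ᵥ ψ r) ⬝ᵥ (A *ᵥ ψ r) + (B *ᵥ ψ r) ⬝ᵥ (B *ᵥ ψ r)) / 2) := by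
    rw [← mul_sum, ← sum_div, sum_add_distrib]
    unfold om at hA hB
    rw [hA, hB]; ring
  rw [hg]
  unfold om
  refine (abs_sum_le_sum_abs _ _).trans (sum_le_sum fun r _ => ?_)
  rw [← mulVec_mulVec, ← mulVec_mulVec, ← nrm_sq, ← nrm_sq]
  refine (abs_dot_le _ _).trans ?_
  have a := nrm_nonneg (A *ᵥ ψ r)
  have b := nrm_nonneg (B *ᵥ ψ r)
  calc _ ≤ (C * nrm (A *ᵥ ψ r)) * (D * nrm (B *ᵥ ψ r)) :=
        mul_le_mul (hX.2 _) (hY.2 _) (nrm_nonneg _) (mul_nonneg hX.1 a)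
    _ = C * D * (nrm (A *ᵥ ψ r) * nrm (B *ᵥ ψ r)) := by ring
    _ ≤ _ := mul_le_mul_of_nonneg_left (by nlinarith [sq_nonneg (nrm (A *ᵥ ψ r) - nrm (B *ᵥ ψ r))])
        (mul_nonneg hX.1 hY.1)

theorem om_symm (X Y : Matrix ι ι ℝ) : om ψ X Y = om ψ Y X := by
  unfold om; exact sum_congr rfl fun r _ => dotProduct_comm _ _

theorem om_psd (X : ℕ → Matrix ι ι ℝ) (s : Finset ℕ) (R : ℕ → ℕ → ℝ)
    (h : ∀ x : ℕ → ℝ, 0 ≤ ∑ A ∈ s, ∑ B ∈ s, R A B * (x A * x B)) :
    0 ≤ ∑ A ∈ s, ∑ B ∈ s, R A B * om ψ (X A) (X B) := by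
  have : ∑ A ∈ s, ∑ B ∈ s, R A B * om ψ (X A) (X B) = ∑ r, ∑ S, ∑ A ∈ s, ∑ B ∈ s,
      R A B * ((X A *ᵥ ψ r) S * (X B *ᵥ ψ r) S) := by
    simp only [om, dotProduct, mul_sum]
    calc _ = ∑ A ∈ s, ∑ r, ∑ S, ∑ B ∈ s, R A B * ((X A *ᵥ ψ r) S * (X B *ᵥ ψ r) S) :=
          sum_congr rfl fun A _ => by
            rw [sum_comm]; exact sum_congr rfl fun r _ => sum_comm
      _ = _ := by
          rw [sum_comm]; exact sum_congr rfl fun r _ => sum_comm
  rw [this]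
  exact sum_nonneg fun r _ => sum_nonneg fun S _ => h fun A => (X A *ᵥ ψ r) S

end bounds

theorem ann_bd (n f : ℕ) : Bd (ann n f) 1 :=
  ⟨zero_le_one, fun v => by
    rw [one_mul]
    have := ann_norm_le n f v
    rw [← nrm_sq, ← nrm_sq] at this
    exact (sq_le_sq₀ (nrm_nonneg _) (nrm_nonneg _)).1 this⟩

theorem pairOp_bd (Q M : ℕ) (hQ : 30 ≤ Q) (hM : M ≤ 28) : Bd (pairOp Q M) (15 * Real.sqrt 2) := by
  rw [pairOp_half]
  refine (Bd.sum _ (C := Real.sqrt 2) fun c hc => ?_).mono ?_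
  · refine (((ann_bd _ _).mul (ann_bd _ _)).smul _).mono ?_
    rw [mul_one, mul_one]
    apply Real.abs_le_sqrt
    rw [← phi_norm Q M (by omega) (by omega)]
    exact single_le_sum (f := fun c => phi Q M c ^ 2) (fun _ _ => sq_nonneg _)
      (mem_range.2 (by have := mem_range.1 hc; omega))
  · rw [card_range]
    have : (((M + 2) / 2 : ℕ) : ℝ) ≤ 15 := by exact_mod_cast (by omega : (M + 2) / 2 ≤ 15)
    exact mul_le_mul_of_nonneg_right this (by positivity)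

variable {κ : Type} [Fintype κ] {Q : ℕ} {E g : ℝ} {ψ : κ → Idx (Q + 1) → ℝ}

/-- Three-body entries are bounded by `g` in all sectors. -/
theorem G3_bound (h : Eig Q E g ψ) (T A B : ℕ) (hA : A < 2 * Q - 1) (hB : B < 2 * Q - 1) :
    |G3 Q ψ T A B| ≤ g := by
  have := om_bound ψ (ann_bd (Q + 1) (T - A)) (ann_bd (Q + 1) (T - B)) (h.norm A hA) (h.norm B hB)
  simpa [G3] using this

theorem G4_nonneg (Q : ℕ) (ψ : κ → Idx (Q + 1) → ℝ) (T A : ℕ) : 0 ≤ G4 Q ψ T A A :=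
  sum_nonneg fun _ _ => dot_self_nonneg _

theorem gram3 (hQ : Close Q) (h : Eig Q E g ψ) : Gram (G3 Q ψ) (jU Q) (jV Q) g where
  bound T A B hT hA hB := G3_bound h T A B (by have := hQ.big; omega) (by have := hQ.big; omega)
  symm _ _ _ := om_symm _ _ _
  psd T R hR := om_psd ψ (fun A => ann (Q + 1) (T - A) * pairOp Q A) _ R hR
  rel := h.rel3

theorem gram4 (hQ : Close Q) (h : Eig Q E g ψ) : Gram (G4 Q ψ) (jV Q) (jV Q) (450 * g) where
  bound T A B hT hA hB := by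
    have hb := hQ.big
    have := om_bound ψ (pairOp_bd Q (T - A) hb (by omega)) (pairOp_bd Q (T - B) hb (by omega))
      (h.norm A (by omega)) (h.norm B (by omega))
    have e : 15 * Real.sqrt 2 * (15 * Real.sqrt 2) = 450 := by
      have := Real.mul_self_sqrt (show (0 : ℝ) ≤ 2 by norm_num)
      nlinarith
    rw [e] at this
    exact this
  symm _ _ _ := om_symm _ _ _
  psd T R hR := om_psd ψ (fun A => pairOp Q (T - A) * pairOp Q A) _ R hR
  rel := h.rel4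

theorem G3_null (hQ : Close Q) (T A B : ℕ) (hA : A ≤ T) (hn : null3 T A = true) :
    G3 Q ψ T A B = 0 := by
  have _ := hQ.big
  have z1 : ∀ f e, ann (Q + 1) f * (ann (Q + 1) f * ann (Q + 1) e) = 0 := fun f e => by
    rw [← Matrix.mul_assoc, ann_mul_self, Matrix.zero_mul]
  have z2 : ∀ f e, ann (Q + 1) f * (ann (Q + 1) e * ann (Q + 1) f) = 0 := fun f e => by
    rw [ann_pair_comm, Matrix.mul_assoc, ann_mul_self, Matrix.mul_zero]
  have key : ann (Q + 1) (T - A) * pairOp Q A = 0 := by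
    have : (T = 0 ∧ A = 0) ∨ (T = 1 ∧ A = 0) ∨ (T = 1 ∧ A = 1) ∨ (T = 3 ∧ A = 1) := by
      simp only [null3, Bool.or_eq_true, Bool.and_eq_true, Nat.ble_eq, Nat.beq_eq] at hn
      omega
    rw [pairOp_half]
    rcases this with ⟨rfl, rfl⟩ | ⟨rfl, rfl⟩ | ⟨rfl, rfl⟩ | ⟨rfl, rfl⟩ <;> simp [z1, z2]
  simp [G3, om, key]

theorem G4_swap (T A B : ℕ) (hA : A ≤ T) : G4 Q ψ T (T - A) B = G4 Q ψ T A B := by
  unfold G4
  rw [show T - (T - A) = A by omega, pairOp_comm Q A]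

theorem hat_bd (hQ : Close Q) (P : ℕ) (hP : P ≤ 8) :
    Bd (pairHat (Q + 1) P - pairOp Q P) (5 / 2 ^ 42) := by
  rw [pairOp_half, pairHat, ← sum_sub_distrib]
  refine (Bd.sum _ (C := 1 / 2 ^ 42) fun c hc => ?_).mono ?_
  · have hc' := mem_range.1 hc
    rw [← sub_smul]
    refine (((ann_bd _ _).mul (ann_bd _ _)).smul _).mono ?_
    rw [mul_one, mul_one, abs_sub_comm]
    have e : (phN P c : ℝ) = phI P c := by
      rw [phI_cast]
      have : phN P c = (P + 1 - 2 * c) * rOf P c := rfl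
      rw [this, Nat.cast_mul, Nat.cast_sub (by omega)]
      push_cast; ring
    rw [e]
    exact hQ.hp P (by omega) c (by omega) (by omega)
  · rw [card_range]
    have : (((P + 2) / 2 : ℕ) : ℝ) ≤ 5 := by exact_mod_cast (by omega : (P + 2) / 2 ≤ 5)
    calc _ ≤ 5 * (1 / 2 ^ 42 : ℝ) := mul_le_mul_of_nonneg_right this (by positivity)
      _ = _ := by ring

theorem abs_sgd_le (e : ℕ) : |(sgd e : ℝ)| ≤ e := by
  have h : ((Nat.shiftRight e 1 : ℕ) : ℝ) ≤ e := by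
    exact_mod_cast (by rw [Nat.shiftRight_eq_div_pow]; exact Nat.div_le_self _ _ : e >>> 1 ≤ e)
  unfold sgd
  rw [force_eq]
  generalize Nat.shiftRight e 1 = m at h
  cases Nat.beq (Nat.mod e 2) 1
  · simpa using h
  · simpa [Int.negOfNat_eq] using h

theorem yI_cases (T A B : ℕ) : yI T A B = 0 ∨ (T - A ≤ 8 ∧ T - B ≤ 8 ∧ |(yI T A B : ℝ)| ≤ 2 ^ 37) := by
  unfold yI
  cases hb : (and (and (Nat.ble A 6) (val4 T A)) (and (Nat.ble B 6) (val4 T B)))
  · left; rfl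
  · right
    simp only [val4, Bool.and_eq_true, Nat.ble_eq, Nat.sub_eq] at hb
    refine ⟨hb.1.2.2, hb.2.2.2, (abs_sgd_le _).trans ?_⟩
    have : yOf T A B ≤ 2 ^ 37 := (Nat.mod_lt _ (by norm_num)).le
    exact_mod_cast this

/-- Replacing the outer pair operators by their rational approximants costs little. -/
theorem hat_error (hQ : Close Q) (h : Eig Q E g ψ) :
    secSum (fun T A B => (yI T A B : ℝ) / 2 ^ 32 *
        om ψ (pairHat (Q + 1) (T - A) * pairOp Q A) (pairHat (Q + 1) (T - B) * pairOp Q B)) ≤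
      secSum (fun T A B => (yI T A B : ℝ) / 2 ^ 32 * G4 Q ψ T A B) + g / 1000 := by
  have hb := hQ.big
  have hg := h.pos
  have key : ∀ T < 29, ∀ A ≤ T, ∀ B ≤ T, (yI T A B : ℝ) / 2 ^ 32 *
      om ψ (pairHat (Q + 1) (T - A) * pairOp Q A) (pairHat (Q + 1) (T - B) * pairOp Q B) ≤
      (yI T A B : ℝ) / 2 ^ 32 * G4 Q ψ T A B + g / 2 ^ 28 := by
    intro T hT A hA B hB
    rcases yI_cases T A B with h0 | ⟨h1, h2, h3⟩
    · rw [h0]; simp; positivity
    have s2 : Real.sqrt 2 ≤ 2 := Real.sqrt_le_iff.2 ⟨by norm_num, by norm_num⟩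
    have b1 : Bd (pairOp Q (T - A)) 30 := (pairOp_bd Q _ hb (by omega)).mono (by linarith)
    have b2 : Bd (pairOp Q (T - B)) 30 := (pairOp_bd Q _ hb (by omega)).mono (by linarith)
    have c1 := hat_bd hQ _ h1
    have c2 := hat_bd hQ _ h2
    have b3 : Bd (pairHat (Q + 1) (T - B)) 31 := by
      have := c2.add b2
      rw [sub_add_cancel] at this
      exact this.mono (by norm_num)
    have nA := h.norm A (by omega)
    have nB := h.norm B (by omega)
    have e1 := om_bound ψ c1 b3 nA nB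
    have e2 := om_bound ψ b1 c2 nA nB
    have e : om ψ (pairHat (Q + 1) (T - A) * pairOp Q A) (pairHat (Q + 1) (T - B) * pairOp Q B) -
        G4 Q ψ T A B = om ψ ((pairHat (Q + 1) (T - A) - pairOp Q (T - A)) * pairOp Q A)
          (pairHat (Q + 1) (T - B) * pairOp Q B) + om ψ (pairOp Q (T - A) * pairOp Q A)
          ((pairHat (Q + 1) (T - B) - pairOp Q (T - B)) * pairOp Q B) := by
      rw [Matrix.sub_mul, Matrix.sub_mul, om_sub_right, om_symm ψ (_ - _), om_sub_right, G4,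
        om_symm ψ (pairHat (Q + 1) (T - B) * _), om_symm ψ (pairHat (Q + 1) (T - B) * _)]
      ring
    have e3 : |om ψ (pairHat (Q + 1) (T - A) * pairOp Q A) (pairHat (Q + 1) (T - B) * pairOp Q B) -
        G4 Q ψ T A B| ≤ 305 / 2 ^ 42 * g := by
      rw [e]; refine (abs_add_le _ _).trans ?_; linarith
    have e4 : |(yI T A B : ℝ) / 2 ^ 32| ≤ 32 := by
      rw [abs_div, abs_of_pos (by positivity : (0 : ℝ) < 2 ^ 32), div_le_iff₀ (by positivity)]
      exact h3.trans (by norm_num)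
    have e5 := mul_le_mul e4 e3 (abs_nonneg _) (by norm_num)
    rw [← abs_mul, mul_sub] at e5
    have := (abs_le.1 e5).2
    have : 32 * (305 / 2 ^ 42 * g) ≤ g / 2 ^ 28 := by
      rw [← mul_assoc, div_eq_inv_mul g]
      exact mul_le_mul_of_nonneg_right (by norm_num) hg.le
    linarith
  unfold secSum
  calc _ ≤ ∑ T ∈ range 29, ((∑ A ∈ range (T + 1), ∑ B ∈ range (T + 1),
        (yI T A B : ℝ) / 2 ^ 32 * G4 Q ψ T A B) + 841 * (g / 2 ^ 28)) := by
        refine sum_le_sum fun T hT => ?_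
        have hT' := mem_range.1 hT
        calc _ ≤ ∑ A ∈ range (T + 1), ∑ B ∈ range (T + 1),
            ((yI T A B : ℝ) / 2 ^ 32 * G4 Q ψ T A B + g / 2 ^ 28) :=
              sum_le_sum fun A hA => sum_le_sum fun B hB => key T hT' A
                (by have := mem_range.1 hA; omega) B (by have := mem_range.1 hB; omega)
          _ ≤ _ := by
            simp only [sum_add_distrib, sum_const, card_range, nsmul_eq_mul]
            have : ((T + 1 : ℕ) : ℝ) ≤ 29 := by exact_mod_cast hT'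
            have h0 : (0 : ℝ) ≤ ((T + 1 : ℕ) : ℝ) := by positivity
            have h1 : (0 : ℝ) ≤ g / 2 ^ 28 := by positivity
            nlinarith [mul_le_mul this this h0 (by norm_num)]
    _ ≤ _ := by
      rw [sum_add_distrib, sum_const, card_range, nsmul_eq_mul]
      have : ((29 : ℕ) : ℝ) * (841 * (g / 2 ^ 28)) ≤ g / 1000 := by
        rw [div_eq_inv_mul g, div_eq_inv_mul g, ← mul_assoc, ← mul_assoc]
        exact mul_le_mul_of_nonneg_right (by norm_num) hg.le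
      linarith

end Vale.Agent.P359
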