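import Vale.Agent.P359.LocB

/-! Part Loc: soundness of the local certificate. -/

namespace Vale.Agent.P359
open Finset Matrix

noncomputable def ipF (n : ℕ) (A B : Finset ℕ → ℝ) : ℝ := ∑ S ∈ (range n).powerset, A S * B S

theorem ip_adj {n f : ℕ} (hf : f < n) (Φ V : Finset ℕ → ℝ) :
    ipF n Φ (creF f V) = ipF n (annF f Φ) V := by
  have h := mulVec_dot (ann n f) (fun S : Idx n => Φ S.1) (fun S : Idx n => V S.1)
  unfold ipF
  rw [← sum_coe_sort (range n).powerset, ← sum_coe_sort (range n).powerset]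
  unfold dotProduct at h
  simp only [ann_mulVec, cre_mulVec] at h
  refine Eq.trans (sum_congr rfl fun S _ => ?_) (h.symm.trans (sum_congr rfl fun S _ => ?_))
  · unfold creF
    split_ifs
    · have : S.1.erase f ∈ (range n).powerset :=
        mem_powerset.mpr ((erase_subset _ _).trans (mem_powerset.mp S.2))
      simp only [ext, dif_pos this]
    · rfl
  · unfold annF
    split_ifs
    · rfl
    · have : insert f S.1 ∈ (range n).powerset :=
        mem_powerset.mpr (insert_subset (mem_range.mpr hf) (mem_powerset.mp S.2))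
      simp only [ext, dif_pos this]

theorem annF_mul (f : ℕ) (a : ℝ) (Φ : Finset ℕ → ℝ) :
    annF f (fun S => a * Φ S) = fun S => a * annF f Φ S := by
  funext S; unfold annF; split_ifs <;> ring

theorem ip_sum {n k : ℕ} (A : Finset ℕ → ℝ) (B : ℕ → Finset ℕ → ℝ) :
    ipF n A (fun S => ∑ i ∈ range k, B i S) = ∑ i ∈ range k, ipF n A (B i) := by
  unfold ipF; simp only [mul_sum]; exact sum_comm

theorem ip_comm (n : ℕ) (A B : Finset ℕ → ℝ) : ipF n A B = ipF n B A :=
  sum_congr rfl fun _ _ => mul_comm _ _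

theorem ip_ite {n : ℕ} (A B : Finset ℕ → ℝ) (c : Prop) [Decidable c] :
    ipF n A (fun S => if c then B S else 0) = if c then ipF n A B else 0 := by
  unfold ipF; split_ifs <;> simp

theorem ip_mul {n : ℕ} (A B : Finset ℕ → ℝ) (a : ℝ) :
    ipF n A (fun S => a * B S) = a * ipF n A B := by
  unfold ipF; rw [mul_sum]; exact sum_congr rfl fun _ _ => by ring

theorem ip_add {n : ℕ} (A B C : Finset ℕ → ℝ) :
    ipF n A (fun S => B S + C S) = ipF n A B + ipF n A C := by
  unfold ipF; rw [← sum_add_distrib]; exact sum_congr rfl fun _ _ => by ring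

theorem ip_pair {n P : ℕ} (hP : P + 1 < n) (Φ V : Finset ℕ → ℝ) :
    ipF n Φ (pairCF P V) = ipF n (pairF P Φ) V := by
  unfold pairCF pairF
  rw [ip_sum, ip_comm n _ V, ip_sum]
  refine sum_congr rfl fun c hc => ?_
  have := mem_range.mp hc
  rw [ip_adj (by omega), ip_adj (by omega), ip_mul, annF_mul, annF_mul, ip_mul, ip_comm]

noncomputable def QF (n : ℕ) (Φ : ℕ → Finset ℕ → ℝ) : ℝ :=
  ∑ M ∈ range 7, ((S96 : ℝ) * ((alOf M : ℝ) * ipF n (Φ M) (Φ M) +
    ∑ T ∈ range 16, if val3 T M = true then ∑ M' ∈ range 7, if val3 T M' = true then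
      sv (zOf T M M') * ipF n (annF (T - M) (Φ M)) (annF (T - M') (Φ M')) else 0 else 0) +
    ∑ T ∈ range 16, if val4 T M = true then ∑ M' ∈ range 7, if val4 T M' = true then
      sv (yOf T M M') * ipF n (pairF (T - M) (Φ M)) (pairF (T - M') (Φ M')) else 0 else 0)

theorem QF_ten (Φ : ℕ → Finset ℕ → ℝ) :
    QF 10 Φ = ∑ M ∈ range 7, ∑ S ∈ (range 10).powerset, Φ M S * Row Φ M S := by
  unfold QF
  refine sum_congr rfl fun M _ => ?_
  symm
  change ipF 10 (Φ M) (fun S => Row Φ M S) = _
  unfold Row RowA RowB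
  rw [ip_add, ip_mul, ip_add, ip_mul, ip_sum, ip_sum]
  congr 1
  · congr 2
    refine sum_congr rfl fun T _ => ?_
    rw [ip_ite]
    split_ifs with h
    · have := val3_iff.mp h
      rw [ip_adj (by omega), ip_sum]
      refine sum_congr rfl fun M' _ => ?_
      rw [ip_ite, annF_mul, ip_mul]
    · rfl
  · refine sum_congr rfl fun T _ => ?_
    rw [ip_ite]
    split_ifs with h
    · have := val4_iff.mp h
      rw [ip_pair (by omega), ip_sum]
      refine sum_congr rfl fun M' _ => ?_
      rw [ip_ite, ip_mul]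
    · rfl

theorem ip_succ (n : ℕ) (A B A' B' : Finset ℕ → ℝ) (hA : ∀ S, n ∉ S → A (insert n S) = A' S)
    (hB : ∀ S, n ∉ S → B (insert n S) = B' S) :
    ipF (n + 1) A B = ipF n A B + ipF n A' B' := by
  unfold ipF
  rw [range_add_one, sum_powerset_insert notMem_range_self]
  congr 1
  refine sum_congr rfl fun S hS => ?_
  have : n ∉ S := fun h => notMem_range_self (mem_powerset.mp hS h)
  rw [hA S this, hB S this]

theorem annF_ins {n f : ℕ} (hf : f < n) (A A' : Finset ℕ → ℝ)
    (hA : ∀ S, n ∉ S → A (insert n S) = A' S) (S : Finset ℕ) (hS : n ∉ S) :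
    annF f A (insert n S) = annF f A' S := by
  unfold annF
  have h1 : f ≠ n := hf.ne
  have h2 : n ∉ insert f S := by simp [hS, h1.symm]
  simp only [mem_insert, h1, false_or]
  rw [sg_insert hS, if_neg (not_lt.mpr hf.le), one_mul, insert_comm f n, hA _ h2]

theorem pairF_ins {n P : ℕ} (hP : P + 1 < n) (A A' : Finset ℕ → ℝ)
    (hA : ∀ S, n ∉ S → A (insert n S) = A' S) (S : Finset ℕ) (hS : n ∉ S) :
    pairF P A (insert n S) = pairF P A' S := by
  unfold pairF
  refine sum_congr rfl fun c hc => ?_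
  have := mem_range.mp hc
  exact annF_ins (by omega) _ _ (annF_ins (by omega) _ _ fun S hS => by rw [hA S hS]) S hS

theorem QF_succ {n : ℕ} (hn : 10 ≤ n) (Φ : ℕ → Finset ℕ → ℝ) :
    QF (n + 1) Φ = QF n Φ + QF n (fun M S => Φ M (insert n S)) := by
  unfold QF
  rw [← sum_add_distrib]
  refine sum_congr rfl fun M _ => ?_
  rw [ip_succ n (Φ M) (Φ M) _ _ (fun _ _ => rfl) (fun _ _ => rfl)]
  have e3 : ∀ T, (if val3 T M = true then ∑ M' ∈ range 7, if val3 T M' = true then
      sv (zOf T M M') * ipF (n + 1) (annF (T - M) (Φ M)) (annF (T - M') (Φ M')) else 0 else 0) =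
      (if val3 T M = true then ∑ M' ∈ range 7, if val3 T M' = true then
      sv (zOf T M M') * ipF n (annF (T - M) (Φ M)) (annF (T - M') (Φ M')) else 0 else 0) +
      (if val3 T M = true then ∑ M' ∈ range 7, if val3 T M' = true then
      sv (zOf T M M') * ipF n (annF (T - M) fun S => Φ M (insert n S))
        (annF (T - M') fun S => Φ M' (insert n S)) else 0 else 0) := by
    intro T
    split_ifs with h
    · rw [← sum_add_distrib]
      refine sum_congr rfl fun M' _ => ?_
      split_ifs with h'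
      · have := val3_iff.mp h
        have := val3_iff.mp h'
        rw [ip_succ n _ _ _ _ (annF_ins (by omega) _ _ fun _ _ => rfl)
          (annF_ins (by omega) _ _ fun _ _ => rfl), mul_add]
      · simp
    · simp
  have e4 : ∀ T, (if val4 T M = true then ∑ M' ∈ range 7, if val4 T M' = true then
      sv (yOf T M M') * ipF (n + 1) (pairF (T - M) (Φ M)) (pairF (T - M') (Φ M')) else 0 else 0) =
      (if val4 T M = true then ∑ M' ∈ range 7, if val4 T M' = true then
      sv (yOf T M M') * ipF n (pairF (T - M) (Φ M)) (pairF (T - M') (Φ M')) else 0 else 0) +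
      (if val4 T M = true then ∑ M' ∈ range 7, if val4 T M' = true then
      sv (yOf T M M') * ipF n (pairF (T - M) fun S => Φ M (insert n S))
        (pairF (T - M') fun S => Φ M' (insert n S)) else 0 else 0) := by
    intro T
    split_ifs with h
    · rw [← sum_add_distrib]
      refine sum_congr rfl fun M' _ => ?_
      split_ifs with h'
      · have := val4_iff.mp h
        have := val4_iff.mp h'
        rw [ip_succ n _ _ _ _ (pairF_ins (by omega) _ _ fun _ _ => rfl)
          (pairF_ins (by omega) _ _ fun _ _ => rfl), mul_add]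
      · simp
    · simp
  simp only [e3, e4, sum_add_distrib]
  ring

theorem QF_nonneg {n : ℕ} (hn : 10 ≤ n) (Φ : ℕ → Finset ℕ → ℝ)
    (hdel : ∀ M < 7, ∀ S, Del M S → Φ M S = 0) : 0 ≤ QF n Φ := by
  induction n, hn using Nat.le_induction generalizing Φ with
  | base => rw [QF_ten]; exact rows_nonneg hdel
  | succ n hn ih =>
    rw [QF_succ hn]
    refine add_nonneg (ih _ hdel) (ih _ fun M hM S hS => ?_)
    refine hdel M hM _ (fun c hc => ?_)
    rcases hS c hc with h | h
    · exact Or.inl (mem_insert_of_mem h)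
    · exact Or.inr (mem_insert_of_mem h)

theorem sgd_cast (e : ℕ) : ((sgd e : ℤ) : ℝ) = sv e := by
  unfold sgd sv
  rw [force_eq, neg_one_pow_eq_pow_mod_two]
  show (((cond (Nat.beq (e % 2) 1) (Int.negOfNat (e >>> 1)) (Int.ofNat (e >>> 1))) : ℤ) : ℝ) = _
  generalize e >>> 1 = k
  rcases Nat.mod_two_eq_zero_or_one e with h | h <;> rw [h]
  · show ((Int.ofNat k : ℤ) : ℝ) = _
    simp
  · simp [Int.negOfNat_eq]

theorem sum_range_ext {a c : ℕ} (h : a ≤ c) (f : ℕ → ℝ) (hf : ∀ i, a ≤ i → f i = 0) :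
    ∑ i ∈ range a, f i = ∑ i ∈ range c, f i :=
  sum_subset (range_subset_range.mpr h) fun i _ hi => hf i (by simpa using hi)

theorem secSum_eq (F : ℕ → ℕ → ℕ → ℝ)
    (hF : ∀ T A B, ¬ (A < 7 ∧ B < 7 ∧ A ≤ T ∧ B ≤ T ∧ T < 16) → F T A B = 0) :
    secSum F = ∑ A ∈ range 7, ∑ T ∈ range 16, ∑ B ∈ range 7, F T A B := by
  unfold secSum
  rw [sum_comm (s := range 7), sum_range_ext (a := 16) (c := 29) (by norm_num)]
  · refine sum_congr rfl fun T hT => ?_
    have hT := mem_range.mp hT
    rw [sum_range_ext (a := T + 1) (c := 29) (by omega), sum_range_ext (a := 7) (c := 29) (by omega)]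
    · refine sum_congr rfl fun A _ => ?_
      rw [sum_range_ext (a := T + 1) (c := 29) (by omega),
        sum_range_ext (a := 7) (c := 29) (by omega)]
      · intro i hi; exact hF _ _ _ (by omega)
      · intro i hi; exact hF _ _ _ (by omega)
    · intro i hi; exact sum_eq_zero fun B _ => hF _ _ _ (by omega)
    · intro i hi; exact sum_eq_zero fun B _ => hF _ _ _ (by omega)
  · intro i hi; exact sum_eq_zero fun A _ => sum_eq_zero fun B _ => hF _ _ _ (by omega)

theorem zI_cast (T A B : ℕ) : (zI T A B : ℝ) =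
    if (A ≤ 6 ∧ val3 T A = true) ∧ (B ≤ 6 ∧ val3 T B = true) then sv (zOf T A B) else 0 := by
  unfold zI
  rw [Bool.cond_eq_ite]
  simp only [Bool.and_eq_true, Nat.ble_eq]
  split_ifs
  · exact sgd_cast _
  · simp

theorem yI_cast (T A B : ℕ) : (yI T A B : ℝ) =
    if (A ≤ 6 ∧ val4 T A = true) ∧ (B ≤ 6 ∧ val4 T B = true) then sv (yOf T A B) else 0 := by
  unfold yI
  rw [Bool.cond_eq_ite]
  simp only [Bool.and_eq_true, Nat.ble_eq]
  split_ifs
  · exact sgd_cast _
  · simp

theorem pairF_ext (n P : ℕ) (v : Idx n → ℝ) :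
    pairF P (ext v) = fun S => 2 ^ 48 * ext (pairHat n P *ᵥ v) S := by
  funext S
  unfold pairF pairHat
  rw [sum_mulVec, ext_sum, Finset.sum_apply, mul_sum]
  refine sum_congr rfl fun c _ => ?_
  rw [smul_mulVec, ext_smul, ← mulVec_mulVec, ext_ann, ext_ann, annF_mul, annF_mul]
  simp only [Pi.smul_apply, smul_eq_mul]
  field_simp

theorem local_ineq (n : ℕ) (hn : 10 ≤ n) (v : ℕ → Idx n → ℝ)
    (hdel : ∀ M < 7, ∀ S : Idx n, Del M S.1 → v M S = 0) :
    0 ≤ ∑ M ∈ range 7, (alOf M : ℝ) / 2 ^ 32 * (v M ⬝ᵥ v M) +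
      secSum (fun T A B => (zI T A B : ℝ) / 2 ^ 32 *
        ((ann n (T - A) *ᵥ v A) ⬝ᵥ (ann n (T - B) *ᵥ v B))) +
      secSum (fun T A B => (yI T A B : ℝ) / 2 ^ 32 *
        ((pairHat n (T - A) *ᵥ v A) ⬝ᵥ (pairHat n (T - B) *ᵥ v B))) := by
  have h := QF_nonneg hn (fun M => ext (v M)) fun M hM S hS => by
    unfold ext
    split_ifs with h
    · exact hdel M hM ⟨S, h⟩ hS
    · rfl
  have hS : (S96 : ℝ) = 2 ^ 96 := by unfold S96; norm_num
  rw [secSum_eq, secSum_eq, ← sum_add_distrib, ← sum_add_distrib]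
  · refine (div_nonneg h (by positivity : (0 : ℝ) ≤ 2 ^ 128)).trans_eq ?_
    unfold QF
    rw [sum_div]
    refine sum_congr rfl fun M hM => ?_
    have hM := mem_range.mp hM
    rw [hS, add_div, mul_add, add_div, mul_sum, sum_div, sum_div]
    congr 1
    · congr 1
      · rw [dot_eq]; unfold ipF; field_simp
      · refine sum_congr rfl fun T _ => ?_
        split_ifs with h1
        · rw [mul_sum, sum_div]
          refine sum_congr rfl fun B hB => ?_
          have hB := mem_range.mp hB
          rw [zI_cast, dot_eq, ext_ann, ext_ann]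
          by_cases h2 : val3 T B = true
          · rw [if_pos h2, if_pos ⟨⟨by omega, h1⟩, by omega, h2⟩]; unfold ipF; field_simp
          · rw [if_neg h2, if_neg (fun h => h2 h.2.2)]; simp
        · rw [sum_eq_zero]; · simp
          intro B _
          rw [zI_cast, if_neg (fun h => h1 h.1.2)]; simp
    · refine sum_congr rfl fun T _ => ?_
      split_ifs with h1
      · rw [sum_div]
        refine sum_congr rfl fun B hB => ?_
        have hB := mem_range.mp hB
        rw [yI_cast, dot_eq]
        by_cases h2 : val4 T B = true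
        · rw [if_pos h2, if_pos ⟨⟨by omega, h1⟩, by omega, h2⟩, pairF_ext, pairF_ext, ip_mul,
            ip_comm, ip_mul, ip_comm]
          unfold ipF; field_simp
        · rw [if_neg h2, if_neg (fun h => h2 h.2.2)]; simp
      · rw [sum_eq_zero]; · simp
        intro B _
        rw [yI_cast, if_neg (fun h => h1 h.1.2)]; simp
  · intro T A B hn
    rw [yI_cast, if_neg, zero_div, zero_mul]
    rintro ⟨⟨h1, h2⟩, h3, h4⟩
    have := val4_iff.mp h2
    have := val4_iff.mp h4
    omega
  · intro T A B hn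
    rw [zI_cast, if_neg, zero_div, zero_mul]
    rintro ⟨⟨h1, h2⟩, h3, h4⟩
    have := val3_iff.mp h2
    have := val3_iff.mp h4
    omega

end Vale.Agent.P359
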