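import Vale.Agent.P359.Sec
import Vale.Agent.P359.Loc
import Vale.Agent.P359.GramP

/-! Part Final: every nonzero eigenvalue is at least `1/100` for large `Q`. -/

namespace Vale.Agent.P359
open Finset Matrix Filter

theorem secSum_sum {κ : Type} [Fintype κ] (c : ℕ → ℕ → ℕ → ℝ) (F : κ → ℕ → ℕ → ℕ → ℝ) :
    ∑ r, secSum (fun T A B => c T A B * F r T A B) =
      secSum (fun T A B => c T A B * ∑ r, F r T A B) := by
  unfold secSum
  rw [sum_comm]
  refine sum_congr rfl fun T _ => ?_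
  rw [sum_comm]
  refine sum_congr rfl fun A _ => ?_
  rw [sum_comm]
  exact sum_congr rfl fun B _ => (mul_sum _ _ _).symm

theorem eig_lower {κ : Type} [Fintype κ] {Q : ℕ} {E g : ℝ} {ψ : κ → Idx (Q + 1) → ℝ}
    (hQ : Close Q)
    (ht : ∑ M ∈ Ico 28 (2 * Q - 1), (|phi Q M 0| + |phi Q M 1|) ≤ 1 / 100)
    (h : Eig Q E g ψ) : 1 / 100 ≤ E := by
  have hb := hQ.big
  have hg := h.pos
  have h3 := sector3 (G3 Q ψ) (jU Q) (jV Q) (fun M => phi Q M 0) (fun M => phi Q M 1) g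
    (gram3 hQ h) hQ.hu hQ.hv (fun M hM => hQ.hp M hM 0 (by norm_num) (by omega))
    (fun M hM => hQ.hp M hM 1 (by norm_num) (by omega))
    (fun T A B hA hn => G3_null hQ T A B hA hn)
  have h4 := sector4 (G4 Q ψ) (jV Q) (450 * g) (gram4 hQ h) hQ.hv
    (fun T A B hA => G4_swap T A B hA)
  have h5 := hat_error hQ h
  have hl : 0 ≤ ∑ M ∈ range 7, (alOf M : ℝ) / 2 ^ 32 * g +
      secSum (fun T A B => (zI T A B : ℝ) / 2 ^ 32 * G3 Q ψ T A B) +
      secSum (fun T A B => (yI T A B : ℝ) / 2 ^ 32 *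
        om ψ (pairHat (Q + 1) (T - A) * pairOp Q A) (pairHat (Q + 1) (T - B) * pairOp Q B)) := by
    have := sum_nonneg (s := univ) fun r _ => local_ineq (Q + 1) (by omega)
      (fun M => pairOp Q M *ᵥ ψ r) (fun M _ S hS => pairOp_del Q M (ψ r) S hS)
    refine this.trans_eq ?_
    rw [sum_add_distrib, sum_add_distrib, secSum_sum, secSum_sum, sum_comm]
    simp only [mulVec_mulVec]
    congr 2
    refine sum_congr rfl fun M hM => ?_
    have hM := mem_range.mp hM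
    rw [← mul_sum, ← h.norm M (by omega)]
    rfl
  rw [← sum_mul] at hl
  have ha := mul_le_mul_of_nonneg_right alpha_sum hg.le
  have he := h.energy
  rw [← sum_range_add_sum_Ico _ (show 28 ≤ 2 * Q - 1 by omega)] at he
  have htail : ∑ M ∈ Ico 28 (2 * Q - 1),
      (phi Q M 0 * G3 Q ψ (M + 1) 0 M - phi Q M 1 * G3 Q ψ M 0 M) ≤ 1 / 100 * g := by
    refine le_trans ?_ (mul_le_mul_of_nonneg_right ht hg.le)
    rw [sum_mul]
    refine sum_le_sum fun M hM => ?_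
    have hM := (mem_Ico.mp hM).2
    have b1 := G3_bound h (M + 1) 0 M (by omega) hM
    have b2 := G3_bound h M 0 M (by omega) hM
    have c1 : |phi Q M 0 * G3 Q ψ (M + 1) 0 M| ≤ |phi Q M 0| * g := by
      rw [abs_mul]; exact mul_le_mul_of_nonneg_left b1 (abs_nonneg _)
    have c2 : |phi Q M 1 * G3 Q ψ M 0 M| ≤ |phi Q M 1| * g := by
      rw [abs_mul]; exact mul_le_mul_of_nonneg_left b2 (abs_nonneg _)
    linarith [le_abs_self (phi Q M 0 * G3 Q ψ (M + 1) 0 M), neg_abs_le (phi Q M 1 * G3 Q ψ M 0 M)]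
  have h6 : ∑ T ∈ range 29, G4 Q ψ T 0 0 ≤ ∑ M ∈ range (2 * Q - 1), G4 Q ψ M 0 0 :=
    sum_le_sum_of_subset_of_nonneg (range_subset_range.mpr (by omega))
      fun M _ _ => G4_nonneg Q ψ M 0
  have h7 : 1 / 100 * g ≤ E * g := by linarith
  exact le_of_mul_le_mul_right h7 hg

theorem fock_gap : ∃ Q0 : ℕ, ∀ Q, Q0 ≤ Q → FockGap (1 / 100) Q := by
  obtain ⟨Q0, h⟩ := eventually_atTop.mp (eventually_close.and tail_bound)
  refine ⟨Q0, fun Q hQ => fockGap_of_eig Q _ fun E v hE hv hEv => ?_⟩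
  obtain ⟨h1, h2⟩ := h Q hQ
  obtain ⟨k, ψ, g, he⟩ := eig_exists Q (by have := h1.big; omega) E hE v hv hEv
  exact eig_lower h1 h2 he

end Vale.Agent.P359
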