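import Vale.Agent.P359.LocN
import Vale.Agent.P359.STabs

/-! The sector certificates: computational part. -/

namespace Vale.Agent.P359

/-- sign-magnitude decoding. -/
noncomputable def sgd (e : ℕ) : ℤ :=
  force e fun e' => cond (Nat.beq (Nat.mod e' 2) 1) (Int.negOfNat (Nat.shiftRight e' 1))
    (Int.ofNat (Nat.shiftRight e' 1))

noncomputable def nth (l : List ℕ) : ℕ → ℕ :=
  List.rec (motive := fun _ => ℕ → ℕ) (fun _ => 0)
    (fun a _ ih k => Nat.rec (motive := fun _ => ℕ) a (fun k' _ => ih k') k) l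

noncomputable def xg (x A B : ℕ) : ℤ := sgd (dg x 52 4503599627370496 (Nat.add (Nat.mul 32 A) B))
noncomputable def lg (x A : ℕ) : ℤ := sgd (dg x 52 4503599627370496 A)
def uOf (f : ℕ) : ℕ := dg uTab 52 4503599627370496 f
def vOf (f : ℕ) : ℕ := dg vTab 52 4503599627370496 f

noncomputable def commI (u v : ℕ → ℕ) (xa xb T A B : ℕ) : ℤ :=
  Int.sub
    (Int.add (cond (Nat.ble (Nat.succ B) T) (Int.mul (xg xa A B) (Int.ofNat (u (Nat.sub T (Nat.succ B))))) 0)
      (cond (Nat.ble 1 B) (Int.mul (xg xa A (Nat.sub B 1)) (Int.ofNat (v (Nat.sub B 1)))) 0))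
    (Int.add (Int.mul (xg xb A B) (Int.ofNat (u (Nat.sub T A))))
      (Int.mul (xg xb (Nat.succ A) B) (Int.ofNat (v A))))

/-- `2 ^ 48 φ_∞(M, c)` approximant. -/
def phI (M c : ℕ) : ℤ := Int.mul (Int.subNatNat (Nat.succ M) (Nat.mul 2 c)) (Int.ofNat (rOf M c))

def S44 : ℤ := 17592186044416
def S60 : ℤ := 1152921504606846976
def S92 : ℤ := 4951760157141521099596496896
def MU : ℤ := 4611686018427387904
def EPS2 : ℕ := 72057594037927936

noncomputable def zI (T A B : ℕ) : ℤ :=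
  cond (and (and (Nat.ble A 6) (val3 T A)) (and (Nat.ble B 6) (val3 T B))) (sgd (zOf T A B)) 0

noncomputable def yI (T A B : ℕ) : ℤ :=
  cond (and (and (Nat.ble A 6) (val4 T A)) (and (Nat.ble B 6) (val4 T B))) (sgd (yOf T A B)) 0

noncomputable def base3 (T A B : ℕ) : ℤ :=
  Int.sub
    (cond (Nat.beq A 0)
      (Int.add (Int.mul S44 (Int.sub (cond (and (Nat.beq B T) (Nat.ble T 27)) (phI T 1) 0)
          (cond (Nat.beq (Nat.succ B) T) (phI B 0) 0)))
        (cond (Nat.beq B 0) (Int.mul S60 (Int.ofNat (sOf T))) 0)) 0)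
    (Int.mul S60 (zI T A B))

noncomputable def base4 (T A B : ℕ) : ℤ :=
  Int.sub (cond (and (Nat.beq A 0) (Nat.beq B 0)) S92 0) (Int.mul S60 (yI T A B))

noncomputable def K3 (xa xb T A B : ℕ) : ℤ := Int.add (base3 T A B) (commI uOf vOf xa xb T A B)
noncomputable def K4 (xa xb T A B : ℕ) : ℤ := Int.add (base4 T A B) (commI vOf vOf xa xb T A B)

def null3 (T A : ℕ) : Bool := or (Nat.ble T 1) (and (Nat.beq T 3) (Nat.beq A 1))

noncomputable def R3 (xa xb T A B : ℕ) : ℤ :=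
  cond (or (null3 T A) (null3 T B)) 0 (Int.add (K3 xa xb T A B) (K3 xa xb T B A))

noncomputable def R4h (xa xb T A B : ℕ) : ℤ := Int.add (K4 xa xb T A B) (K4 xa xb T B A)

noncomputable def R4 (xa xb T A B : ℕ) : ℤ :=
  Int.add (Int.add (R4h xa xb T A B) (R4h xa xb T (Nat.sub T A) B))
    (Int.add (R4h xa xb T A (Nat.sub T B)) (R4h xa xb T (Nat.sub T A) (Nat.sub T B)))

/-- `R + μ I - l lᵀ` has small off-diagonal and large diagonal entries. -/
noncomputable def secOK (R : ℕ → ℕ → ℤ) (μ : ℤ) (l d : ℕ) : Bool :=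
  allLt d fun A => allLt d fun B =>
    cond (Nat.beq A B)
      (decide (Int.ofNat (Nat.mul d EPS2) ≤ Int.sub (Int.add (R A B) μ) (Int.mul (lg l A) (lg l B))))
      (Nat.ble (Int.natAbs (Int.sub (R A B) (Int.mul (lg l A) (lg l B)))) EPS2)

noncomputable def sec3OK (T : ℕ) : Bool :=
  force (nth xL3 (Nat.sub T 1)) fun xa => force (nth xL3 T) fun xb => force (nth lL3 T) fun l =>
    secOK (R3 xa xb T) (Int.mul 2 MU) l (Nat.succ T)

noncomputable def sec4OK (T : ℕ) : Bool :=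
  force (nth xL4 (Nat.sub T 1)) fun xa => force (nth xL4 T) fun xb => force (nth lL4 T) fun l =>
    secOK (R4 xa xb T) (Int.mul 8 MU) l (Nat.succ T)

end Vale.Agent.P359
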