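import Vale.Agent.P359.FDefs
import Vale.Agent.P359.SecN

/-! Definitions linking the certificate tables with the Fock space. -/

namespace Vale.Agent.P359
open Finset Matrix

/-- Rational approximant of the pair annihilation operator `B_P`, `P ≤ 8`. -/
noncomputable def pairHat (n P : ℕ) : Matrix (Idx n) (Idx n) ℝ :=
  ∑ c ∈ range ((P + 2) / 2), ((phN P c : ℝ) / 2 ^ 48) • (ann n (P + 1 - c) * ann n c)

/-- `S` meets every pair of `B_M`. -/
def Del (M : ℕ) (S : Finset ℕ) : Prop := ∀ c < (M + 2) / 2, c ∈ S ∨ M + 1 - c ∈ S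

/-- Sum over all sectors `T < 29` and `A, B ≤ T`. -/
noncomputable def secSum (F : ℕ → ℕ → ℕ → ℝ) : ℝ :=
  ∑ T ∈ range 29, ∑ A ∈ range (T + 1), ∑ B ∈ range (T + 1), F T A B

/-- Abstract properties of a family of Gram matrices. -/
structure Gram (G : ℕ → ℕ → ℕ → ℝ) (u v : ℕ → ℝ) (Γ : ℝ) : Prop where
  bound : ∀ T A B, T < 29 → A ≤ T → B ≤ T → |G T A B| ≤ Γ
  symm : ∀ T A B, G T A B = G T B A
  psd : ∀ (T : ℕ) (R : ℕ → ℕ → ℝ),
    (∀ x : ℕ → ℝ, 0 ≤ ∑ A ∈ range (T + 1), ∑ B ∈ range (T + 1), R A B * (x A * x B)) →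
    0 ≤ ∑ A ∈ range (T + 1), ∑ B ∈ range (T + 1), R A B * G T A B
  rel : ∀ T M M', M ≤ T + 1 → M' ≤ T →
    (if M ≤ T then u (T - M) * G T M M' else 0) +
      (if 1 ≤ M then v (M - 1) * G T (M - 1) M' else 0) =
    u (T - M') * G (T + 1) M M' + v M' * G (T + 1) M (M' + 1)

end Vale.Agent.P359
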