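import Vale.Agent.P359.ChkS
import Vale.Agent.P359.Car
import Vale.Agent.P359.LocD

/-! Local certificate: bit masks versus finite sets, soundness of one block. -/

namespace Vale.Agent.P359
open Finset

def toF (s : ℕ) : Finset ℕ := (range 10).filter (fun i => s.testBit i)

theorem mem_toF {s f : ℕ} : f ∈ toF s ↔ f < 10 ∧ s.testBit f = true := by simp [toF]

theorem bt_eq (s f : ℕ) : bt s f = s.testBit f := by
  rw [Nat.testBit_eq_decide_div_mod_eq, ← Nat.shiftRight_eq_div_pow]
  show Nat.beq (s >>> f % 2) 1 = _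
  by_cases h : s >>> f % 2 = 1
  · rw [h]; simp
  · have : Nat.beq (s >>> f % 2) 1 = false := by
      rw [← Bool.not_eq_true, Nat.beq_eq]; exact h
    rw [this]; simp [h]

theorem tg_eq (s f : ℕ) : tg s f = s ^^^ 2 ^ f := by
  show s ^^^ (1 <<< f) = _
  rw [Nat.shiftLeft_eq, one_mul]

theorem tg_lt {s f : ℕ} (hs : s < 1024) (hf : f < 10) : tg s f < 1024 := by
  rw [tg_eq]
  exact Nat.xor_lt_two_pow (n := 10) hs (Nat.pow_lt_pow_right (by norm_num) hf)

theorem toF_tg_ins {s f : ℕ} (hf : f < 10) (h : s.testBit f = false) :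
    toF (tg s f) = insert f (toF s) := by
  ext i
  rw [mem_insert, mem_toF, mem_toF, tg_eq, Nat.testBit_xor, Nat.testBit_two_pow]
  by_cases hi : f = i
  · subst hi; simp [h, hf]
  · have : i ≠ f := fun h => hi h.symm
    simp [hi, this]

theorem toF_tg_era {s f : ℕ} (h : s.testBit f = true) :
    toF (tg s f) = (toF s).erase f := by
  ext i
  rw [mem_erase, mem_toF, mem_toF, tg_eq, Nat.testBit_xor, Nat.testBit_two_pow]
  by_cases hi : f = i
  · subst hi; simp [h]
  · have : i ≠ f := fun h => hi h.symm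
    simp [hi, this]

theorem par_chk : allLt 1024 (fun s => allLt 10 fun f =>
    Nat.beq (par f s) (Nat.mod (loop f fun i => cond (bt s i) 1 0) 2)) = true := by
  decide +kernel

theorem sg_toF {s f : ℕ} (hs : s < 1024) (hf : f < 10) : sg f (toF s) = (-1) ^ par f s := by
  have h := Nat.eq_of_beq_eq_true (allLt_iff.mp (allLt_iff.mp par_chk s hs) f hf)
  have h' : par f s = (∑ i ∈ range f, cond (bt s i) 1 0) % 2 := by rw [h, loop_eq]; rfl
  rw [h', ← neg_one_pow_eq_pow_mod_two, ← prod_pow_eq_pow_sum]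
  unfold sg toF
  rw [prod_filter, ← prod_subset (s₁ := range f) (s₂ := range 10)]
  · refine prod_congr rfl fun i hi => ?_
    rw [bt_eq]
    cases s.testBit i <;> simp [mem_range.mp hi]
  · intro i hi; exact mem_range.mpr ((mem_range.mp hi).trans hf)
  · intro i _ hi
    have : ¬ i < f := fun h => hi (mem_range.mpr h)
    simp [this]

theorem sum_toF (F : Finset ℕ → ℝ) :
    ∑ S ∈ (range 10).powerset, F S = ∑ s ∈ range 1024, F (toF s) := by
  have hinj : ∀ a ∈ range 1024, ∀ b ∈ range 1024, toF a = toF b → a = b := by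
    intro a ha b hb h
    apply Nat.eq_of_testBit_eq
    intro i
    by_cases hi : i < 10
    · have h1 : i ∈ toF a ↔ i ∈ toF b := by rw [h]
      rw [mem_toF, mem_toF] at h1
      simp only [hi, true_and] at h1
      exact Bool.eq_iff_iff.mpr h1
    · have h2 : (2 : ℕ) ^ 10 ≤ 2 ^ i := Nat.pow_le_pow_right (by norm_num) (not_lt.mp hi)
      rw [Nat.testBit_lt_two_pow (lt_of_lt_of_le (mem_range.mp ha) h2),
        Nat.testBit_lt_two_pow (lt_of_lt_of_le (mem_range.mp hb) h2)]
  have himg : (range 1024).image toF = (range 10).powerset := by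
    apply eq_of_subset_of_card_le
    · intro S hS
      obtain ⟨s, -, rfl⟩ := mem_image.mp hS
      exact mem_powerset.mpr (filter_subset _ _)
    · rw [card_image_of_injOn (fun a ha b hb => hinj a ha b hb), card_powerset, card_range,
        card_range]
      norm_num
  rw [← himg, sum_image hinj]

def RepF (d : ℕ) (x : ℕ → ℝ) (F : ℕ → ℕ → ℕ → ℕ) (V : Finset ℕ → ℝ) : Prop :=
  ∀ s < 1024, ∀ σ m : ℕ, Rep d x (F s σ m) ((-1) ^ σ * m * V (toF s))

variable {d : ℕ} {x : ℕ → ℝ} {F G : ℕ → ℕ → ℕ → ℕ} {V W : Finset ℕ → ℝ}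

theorem RepF.ann {f : ℕ} (hf : f < 10) (h : RepF d x F V) : RepF d x (annN f F) (annF f V) := by
  intro s hs σ m
  unfold annN annF
  rw [bt_eq]
  cases hb : s.testBit f
  · have : f ∉ toF s := by rw [mem_toF, hb]; simp
    rw [cond_false, force_eq, force_eq, if_neg this, sg_toF hs hf, ← toF_tg_ins hf hb]
    refine (h _ (tg_lt hs hf) _ m).congr ?_
    show (-1 : ℝ) ^ (σ + par f s) * _ * _ = _
    rw [pow_add]; ring
  · have : f ∈ toF s := mem_toF.mpr ⟨hf, hb⟩
    rw [cond_true, if_pos this]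
    exact Rep.zero.congr (by simp)

theorem RepF.cre {f : ℕ} (hf : f < 10) (h : RepF d x F V) : RepF d x (creN f F) (creF f V) := by
  intro s hs σ m
  unfold creN creF
  rw [bt_eq]
  cases hb : s.testBit f
  · have : f ∉ toF s := by rw [mem_toF, hb]; simp
    rw [cond_false, if_neg this]
    exact Rep.zero.congr (by simp)
  · have hm : f ∈ toF s := mem_toF.mpr ⟨hf, hb⟩
    have e : sg f ((toF s).erase f) = sg f (toF s) := by
      have := sg_insert (f := f) (notMem_erase f (toF s))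
      rw [insert_erase hm] at this
      simp [this]
    rw [cond_true, force_eq, force_eq, if_pos hm, e, sg_toF hs hf, ← toF_tg_era hb]
    refine (h _ (tg_lt hs hf) _ m).congr ?_
    show (-1 : ℝ) ^ (σ + par f s) * _ * _ = _
    rw [pow_add]; ring

theorem RepF.scS (e : ℕ) (h : RepF d x F V) : RepF d x (scS e F) (fun S => sv e * V S) := by
  intro s hs σ m
  unfold Vale.Agent.P359.scS
  rw [force_eq, force_eq]
  refine (h s hs _ _).congr ?_
  show (-1 : ℝ) ^ (σ + e) * ((m * (e >>> 1) : ℕ) : ℝ) * _ = _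
  unfold sv; rw [pow_add]; push_cast; ring

theorem RepF.scN (e : ℕ) (h : RepF d x F V) : RepF d x (scN e F) (fun S => (e : ℝ) * V S) := by
  intro s hs σ m
  unfold Vale.Agent.P359.scN
  rw [force_eq]
  refine (h s hs _ _).congr ?_
  show (-1 : ℝ) ^ σ * ((m * e : ℕ) : ℝ) * _ = _
  push_cast; ring

theorem RepF.sum {n : ℕ} {F : ℕ → ℕ → ℕ → ℕ → ℕ} {V : ℕ → Finset ℕ → ℝ}
    (h : ∀ i < n, RepF d x (F i) (V i)) :
    RepF d x (sumN n F) (fun S => ∑ i ∈ range n, V i S) := by
  intro s hs σ m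
  unfold sumN
  exact (Rep.sum fun i hi => h i hi s hs σ m).congr (by rw [mul_sum])

theorem RepF.ite (c : Bool) (h : c = true → RepF d x F V) :
    RepF d x (ifN c F) (fun S => if c = true then V S else 0) := by
  intro s hs σ m
  unfold ifN
  cases c
  · exact Rep.zero.congr (by simp)
  · exact (h rfl s hs σ m).congr (by simp)

theorem RepF.add (h : RepF d x F V) (h' : RepF d x G W) :
    RepF d x (addN F G) (fun S => V S + W S) := by
  intro s hs σ m
  exact ((h s hs σ m).add (h' s hs σ m)).congr (by ring)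

noncomputable def pairF (P : ℕ) (Φ : Finset ℕ → ℝ) : Finset ℕ → ℝ := fun S =>
  ∑ c ∈ range ((P + 2) / 2), annF (P + 1 - c) (annF c fun S => (phN P c : ℝ) * Φ S) S

noncomputable def pairCF (P : ℕ) (Φ : Finset ℕ → ℝ) : Finset ℕ → ℝ := fun S =>
  ∑ c ∈ range ((P + 2) / 2), creF c (creF (P + 1 - c) fun S => (phN P c : ℝ) * Φ S) S

theorem half_eq (P : ℕ) : Nat.shiftRight (Nat.add P 2) 1 = (P + 2) / 2 :=
  Nat.shiftRight_eq_div_pow (P + 2) 1

theorem RepF.pair {P : ℕ} (hP : P ≤ 8) (h : RepF d x F V) : RepF d x (pairN P F) (pairF P V) := by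
  unfold pairN pairF
  rw [half_eq]
  exact RepF.sum fun c hc => RepF.ann (f := P + 1 - c) (by omega) (RepF.ann (by omega) (h.scN _))

theorem RepF.pairC {P : ℕ} (hP : P ≤ 8) (h : RepF d x F V) :
    RepF d x (pairC P F) (pairCF P V) := by
  unfold Vale.Agent.P359.pairC pairCF
  rw [half_eq]
  exact RepF.sum fun c hc => RepF.cre (by omega) (RepF.cre (f := P + 1 - c) (by omega) (h.scN _))

theorem val3_iff {T M : ℕ} : val3 T M = true ↔ M ≤ T ∧ T - M ≤ 9 := by
  simp [val3, Nat.ble_eq]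

theorem val4_iff {T M : ℕ} : val4 T M = true ↔ M ≤ T ∧ T - M ≤ 8 := by
  simp [val4, Nat.ble_eq]

noncomputable def RowA (Φ : ℕ → Finset ℕ → ℝ) (M : ℕ) : Finset ℕ → ℝ := fun S =>
  (alOf M : ℝ) * Φ M S + ∑ T ∈ range 16, if val3 T M = true then
    creF (T - M) (fun S => ∑ M' ∈ range 7, if val3 T M' = true then
      annF (T - M') (fun S => sv (zOf T M M') * Φ M' S) S else 0) S else 0

noncomputable def RowB (Φ : ℕ → Finset ℕ → ℝ) (M : ℕ) : Finset ℕ → ℝ := fun S =>
  ∑ T ∈ range 16, if val4 T M = true then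
    pairCF (T - M) (fun S => ∑ M' ∈ range 7, if val4 T M' = true then
      sv (yOf T M M') * pairF (T - M') (Φ M') S else 0) S else 0

theorem rowA_rep {lf : ℕ → ℕ → ℕ → ℕ → ℕ} {Φ : ℕ → Finset ℕ → ℝ}
    (h : ∀ M < 7, RepF d x (lf M) (Φ M)) {M : ℕ} (hM : M < 7) :
    RepF d x (rowA lf M) (RowA Φ M) := by
  unfold rowA RowA
  refine ((h M hM).scN _).add (RepF.sum fun T _ => RepF.ite _ fun hv => ?_)
  have := val3_iff.mp hv
  refine RepF.cre (f := T - M) (by omega) (RepF.sum fun M' hM' => RepF.ite _ fun hv' => ?_)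
  have := val3_iff.mp hv'
  exact RepF.ann (f := T - M') (by omega) ((h M' hM').scS _)

theorem rowB_rep {lf : ℕ → ℕ → ℕ → ℕ → ℕ} {Φ : ℕ → Finset ℕ → ℝ}
    (h : ∀ M < 7, RepF d x (lf M) (Φ M)) (M : ℕ) :
    RepF d x (rowB lf M) (RowB Φ M) := by
  unfold rowB RowB
  refine RepF.sum fun T _ => RepF.ite _ fun hv => ?_
  refine RepF.pairC (P := T - M) (val4_iff.mp hv).2
    (RepF.sum fun M' hM' => RepF.ite _ fun hv' => ?_)
  exact (RepF.pair (P := T - M') (val4_iff.mp hv').2 (h M' hM')).scS _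

end Vale.Agent.P359
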