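import Vale.Agent.P359.LocA
import Vale.Agent.P359.LDefs

/-! Local certificate: all blocks together. -/

namespace Vale.Agent.P359
open Finset

noncomputable def delB (M s : ℕ) : Bool :=
  allLt (Nat.shiftRight (Nat.add M 2) 1) fun c => or (bt s c) (bt s (Nat.sub (Nat.succ M) c))

theorem key_chk : allLt 7 (fun M => allLt 1024 fun s =>
    force (keyOf (Nat.add (Nat.mul M 1024) s)) fun t => cond (Nat.beq t 0) (delB M s)
      (and (and (Nat.ble (Nat.shiftRight t 7) 135)
        (Nat.ble (Nat.succ (Nat.mod t 128)) (dimOf (Nat.shiftRight t 7))))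
        (Nat.beq (stOf (Nat.shiftRight t 7) (Nat.mod t 128)) (Nat.add (Nat.mul M 1024) s)))) = true := by
  decide +kernel

theorem st_chk : allLt 136 (fun b => allLt (dimOf b) fun i =>
    and (and (Nat.ble 1 b) (Nat.ble (stOf b i) 7167))
      (Nat.beq (keyOf (stOf b i)) (Nat.add (Nat.mul 128 b) i))) = true := by
  decide +kernel

theorem dimOf_lt (b : ℕ) : dimOf b < 128 := Nat.mod_lt _ (by norm_num)

theorem key_zero {M s : ℕ} (hM : M < 7) (hs : s < 1024) (h : keyOf (M * 1024 + s) = 0) :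
    Del M (toF s) := by
  have h1 := allLt_iff.mp (allLt_iff.mp key_chk M hM) s hs
  rw [force_eq] at h1
  have h2 : keyOf (Nat.add (Nat.mul M 1024) s) = 0 := h
  rw [h2] at h1
  have h3 : delB M s = true := h1
  unfold delB at h3
  rw [half_eq] at h3
  intro c hc
  have h4 := allLt_iff.mp h3 c hc
  rw [Bool.or_eq_true, bt_eq, bt_eq] at h4
  rcases h4 with h4 | h4
  · exact Or.inl (mem_toF.mpr ⟨by omega, h4⟩)
  · exact Or.inr (mem_toF.mpr ⟨by omega, h4⟩)

theorem key_pos {M s : ℕ} (hM : M < 7) (hs : s < 1024) (h : keyOf (M * 1024 + s) ≠ 0) :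
    keyOf (M * 1024 + s) / 128 < 136 ∧
      keyOf (M * 1024 + s) % 128 < dimOf (keyOf (M * 1024 + s) / 128) ∧
      stOf (keyOf (M * 1024 + s) / 128) (keyOf (M * 1024 + s) % 128) = M * 1024 + s := by
  have h1 := allLt_iff.mp (allLt_iff.mp key_chk M hM) s hs
  rw [force_eq] at h1
  have h2 : Nat.beq (keyOf (Nat.add (Nat.mul M 1024) s)) 0 = false := by
    rw [← Bool.not_eq_true, Nat.beq_eq]; exact h
  rw [h2, cond_false, Bool.and_eq_true, Bool.and_eq_true] at h1
  have e : ∀ t, Nat.shiftRight t 7 = t / 128 := fun t => Nat.shiftRight_eq_div_pow t 7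
  rw [e] at h1
  exact ⟨Nat.lt_succ_of_le (Nat.le_of_ble_eq_true h1.1.1), Nat.le_of_ble_eq_true h1.1.2,
    Nat.eq_of_beq_eq_true h1.2⟩

theorem st_spec {b i : ℕ} (hb : b < 136) (hi : i < dimOf b) :
    1 ≤ b ∧ stOf b i < 7168 ∧ keyOf (stOf b i) = 128 * b + i := by
  have h1 := allLt_iff.mp (allLt_iff.mp st_chk b hb) i hi
  rw [Bool.and_eq_true, Bool.and_eq_true] at h1
  exact ⟨Nat.le_of_ble_eq_true h1.1.1, Nat.lt_succ_of_le (Nat.le_of_ble_eq_true h1.1.2),
    Nat.eq_of_beq_eq_true h1.2⟩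

variable {Φ : ℕ → Finset ℕ → ℝ}

/-- coordinates of `Φ` in block `b`. -/
noncomputable def xb (Φ : ℕ → Finset ℕ → ℝ) (b j : ℕ) : ℝ :=
  Φ (stOf b j / 1024) (toF (stOf b j % 1024))

theorem leaf_rep (hdel : ∀ M < 7, ∀ S, Del M S → Φ M S = 0) (b d : ℕ) {M : ℕ} (hM : M < 7) :
    RepF d (xb Φ b) (leafN b d (BW ^ (2 * d)) M) (Φ M) := by
  intro s hs σ m
  unfold leafN
  rw [force_eq]
  show Rep d _ (cond (Nat.beq (keyOf (M * 1024 + s)) 0) 0
    (cond (and (Nat.beq (keyOf (M * 1024 + s) >>> 7) b)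
      (Nat.ble (Nat.succ (keyOf (M * 1024 + s) % 128)) d))
      (leafP d (BW ^ (2 * d)) (keyOf (M * 1024 + s) % 128) σ m) (BW ^ (2 * d) * BW))) _
  by_cases h0 : keyOf (M * 1024 + s) = 0
  · rw [h0, hdel M hM _ (key_zero hM hs h0)]
    exact Rep.zero.congr (by simp)
  have h2 : Nat.beq (keyOf (M * 1024 + s)) 0 = false := by
    rw [← Bool.not_eq_true, Nat.beq_eq]; exact h0
  rw [h2, cond_false]
  cases hc : and (Nat.beq (keyOf (M * 1024 + s) >>> 7) b)
      (Nat.ble (Nat.succ (keyOf (M * 1024 + s) % 128)) d)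
  · exact Rep.poison _
  · rw [Bool.and_eq_true, Nat.shiftRight_eq_div_pow] at hc
    have h3 : keyOf (M * 1024 + s) / 128 = b := Nat.eq_of_beq_eq_true hc.1
    have h4 : keyOf (M * 1024 + s) % 128 < d := Nat.le_of_ble_eq_true hc.2
    have h5 := (key_pos hM hs h0).2.2
    rw [h3] at h5
    refine (Rep.leaf h4 σ m).congr ?_
    unfold xb
    rw [h5, show (M * 1024 + s) / 1024 = M by omega, show (M * 1024 + s) % 1024 = s by omega]

/-- the full row. -/
noncomputable def Row (Φ : ℕ → Finset ℕ → ℝ) (M : ℕ) (S : Finset ℕ) : ℝ :=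
  (S96 : ℝ) * RowA Φ M S + RowB Φ M S

theorem block_nonneg (hdel : ∀ M < 7, ∀ S, Del M S → Φ M S = 0) {b : ℕ} (hb : b < 136) :
    0 ≤ ∑ i ∈ range (dimOf b), xb Φ b i * Row Φ (stOf b i / 1024) (toF (stOf b i % 1024)) := by
  rcases Nat.eq_zero_or_pos (dimOf b) with h0 | h0
  · rw [h0]; simp
  obtain ⟨cs, h⟩ := blocks_ok b (st_spec hb h0).1 (by omega)
  unfold blockOK at h
  have etb : Nat.shiftLeft 1 (Nat.mul 144 (Nat.mul 2 (dimOf b))) = BW ^ (2 * dimOf b) := by
    show 1 <<< (144 * (2 * dimOf b)) = _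
    rw [Nat.shiftLeft_eq, one_mul, pow_mul, ← BW_eq]
  rw [force_eq, force_eq, etb, mkCols_eq, allLt_iff] at h
  set d := dimOf b with hd
  let N : ℕ → ℕ := fun i =>
    S96 * rowA (leafN b d (BW ^ (2 * d))) (stOf b i / 1024) (stOf b i % 1024) 0 1 +
      rowB (leafN b d (BW ^ (2 * d))) (stOf b i / 1024) (stOf b i % 1024) 0 1 +
      S68 * lRow i (colSpec d (BW ^ (2 * d)) cs 0)
  have hN : ∀ i < d, rowOK d EPS i (N i) = true := by
    intro i hi
    have := h i hi
    rw [force_eq, force_eq, force_eq] at this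
    have e : Nat.shiftRight (stOf b i) 10 = stOf b i / 1024 := Nat.shiftRight_eq_div_pow _ 10
    rw [e] at this
    exact this
  have hR : ∀ i < d, Row Φ (stOf b i / 1024) (toF (stOf b i % 1024)) -
      S68 * rowS d (xb Φ b) cs 0 i = ∑ j ∈ range d, Rv d (N i) j * xb Φ b j := by
    intro i hi
    have hM : stOf b i / 1024 < 7 := by have := (st_spec hb hi).2.1; omega
    have hs : stOf b i % 1024 < 1024 := Nat.mod_lt _ (by norm_num)
    have hl : ∀ M < 7, RepF d (xb Φ b) (leafN b d (BW ^ (2 * d)) M) (Φ M) :=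
      fun M hM => leaf_rep hdel b d hM
    have r := (((rowA_rep hl hM _ hs 0 1).mul S96).add (rowB_rep hl (stOf b i / 1024) _ hs 0 1)).add
      ((lRow_rep (d := d) (x := xb Φ b) cs 0 i).mul S68)
    refine Rep.read (r.congr ?_) (rowOK_sound (hN i hi)).1
    unfold Row; push_cast; ring
  have hp := psd_of_dom (d := d) (x := xb Φ b) (fun i j => Rv d (N i) j) EPS (Nat.cast_nonneg _)
    (fun i hi j hj hji => (rowOK_sound (hN i hi)).2.1 j hj hji)
    (fun i hi => (rowOK_sound (hN i hi)).2.2 hi)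
  have hq := mul_nonneg (Nat.cast_nonneg (α := ℝ) S68) (rowS_nonneg (d := d) (x := xb Φ b) cs 0)
  rw [mul_sum] at hq
  have := add_nonneg hp hq
  rw [← sum_add_distrib] at this
  refine this.trans_eq (sum_congr rfl fun i hi => ?_)
  rw [← hR i (mem_range.mp hi)]; ring

set_option linter.constructorNameAsVariable false in
theorem rows_nonneg (hdel : ∀ M < 7, ∀ S, Del M S → Φ M S = 0) :
    0 ≤ ∑ M ∈ range 7, ∑ S ∈ (range 10).powerset, Φ M S * Row Φ M S := by
  simp only [sum_toF]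
  have h := sum_nonneg (s := range 136) fun b hb => block_nonneg hdel (mem_range.mp hb)
  refine h.trans_eq ?_
  rw [← sum_product', ← sum_filter_add_sum_filter_not (range 7 ×ˢ range 1024)
    (fun p => keyOf (p.1 * 1024 + p.2) ≠ 0), 
    sum_eq_zero (s := filter (fun p : ℕ × ℕ => ¬ keyOf (p.1 * 1024 + p.2) ≠ 0) _), add_zero,
    sum_sigma']
  · symm
    refine sum_nbij' (fun p => ⟨keyOf (p.1 * 1024 + p.2) / 128, keyOf (p.1 * 1024 + p.2) % 128⟩)
      (fun q => (stOf q.1 q.2 / 1024, stOf q.1 q.2 % 1024)) ?_ ?_ ?_ ?_ ?_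
    · rintro ⟨M, s⟩ hp
      simp only [mem_filter, mem_product, mem_range] at hp
      have := key_pos hp.1.1 hp.1.2 hp.2
      simp only [mem_sigma, mem_range]
      exact ⟨this.1, this.2.1⟩
    · rintro ⟨b, i⟩ hq
      simp only [mem_sigma, mem_range] at hq
      have := st_spec hq.1 hq.2
      simp only [mem_filter, mem_product, mem_range]
      rw [Nat.div_add_mod' (stOf b i) 1024]
      omega
    · rintro ⟨M, s⟩ hp
      simp only [mem_filter, mem_product, mem_range] at hp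
      have := (key_pos hp.1.1 hp.1.2 hp.2).2.2
      simp only [this, Prod.mk.injEq]
      omega
    · rintro ⟨b, i⟩ hq
      simp only [mem_sigma, mem_range] at hq
      have h1 := st_spec hq.1 hq.2
      have h2 := dimOf_lt b
      simp only [Nat.div_add_mod' (stOf b i) 1024, h1.2.2]
      have e1 : (128 * b + i) / 128 = b := by omega
      have e2 : (128 * b + i) % 128 = i := by omega
      rw [e1, e2]
    · rintro ⟨M, s⟩ hp
      simp only [mem_filter, mem_product, mem_range] at hp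
      have := (key_pos hp.1.1 hp.1.2 hp.2).2.2
      have hs := hp.1.2
      simp only [xb, this, show (M * 1024 + s) / 1024 = M by omega,
        show (M * 1024 + s) % 1024 = s by omega]
  · rintro ⟨M, s⟩ hp
    simp only [mem_filter, mem_product, mem_range, ne_eq, not_not] at hp
    rw [hdel M hp.1.1 _ (key_zero hp.1.1 hp.1.2 hp.2), zero_mul]

end Vale.Agent.P359
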