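import Vale.Agent.P359.Tabs

/-! The local certificate: computational part. -/

namespace Vale.Agent.P359

/-- parity of the number of bits of `s` below `f`. -/
def par (f s : ℕ) : ℕ := Nat.mod (Nat.shiftRight pTab (Nat.mod s (Nat.shiftLeft 1 f))) 2

def keyOf (code : ℕ) : ℕ := dg kTab 16 65536 code
def stOf (b i : ℕ) : ℕ := dg gTab 13 8192 (Nat.add (Nat.mul 128 b) i)
def dimOf (b : ℕ) : ℕ := dg dTab 7 128 b
def zOf (T M M' : ℕ) : ℕ := dg zTab 37 137438953472 (Nat.add (Nat.mul (Nat.add (Nat.mul T 7) M) 7) M')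
def yOf (T M M' : ℕ) : ℕ := dg yTab 37 137438953472 (Nat.add (Nat.mul (Nat.add (Nat.mul T 7) M) 7) M')
def alOf (M : ℕ) : ℕ := dg alTab 37 137438953472 M
def sOf (T : ℕ) : ℕ := dg sTab 37 137438953472 T
def rOf (M c : ℕ) : ℕ := dg rTab 50 1125899906842624 (Nat.add (Nat.mul M 5) c)
/-- `2 ^ 48 φ_∞(P, c)` approximant for `2 c ≤ P + 1`. -/
def phN (P c : ℕ) : ℕ := Nat.mul (Nat.sub (Nat.succ P) (Nat.mul 2 c)) (rOf P c)

def val3 (T M : ℕ) : Bool := and (Nat.ble M T) (Nat.ble (Nat.sub T M) 9)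
def val4 (T M : ℕ) : Bool := and (Nat.ble M T) (Nat.ble (Nat.sub T M) 8)

noncomputable def leafN (b d tb M s σ m : ℕ) : ℕ :=
  force (keyOf (Nat.add (Nat.mul M 1024) s)) fun t =>
    cond (Nat.beq t 0) 0
      (cond (and (Nat.beq (Nat.shiftRight t 7) b) (Nat.ble (Nat.succ (Nat.mod t 128)) d))
        (leafP d tb (Nat.mod t 128) σ m) (Nat.mul tb BW))

noncomputable def annN (f : ℕ) (F : ℕ → ℕ → ℕ → ℕ) (s σ m : ℕ) : ℕ :=
  cond (bt s f) 0 (force (tg s f) fun s' => force (Nat.add σ (par f s)) fun σ' => F s' σ' m)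

noncomputable def creN (f : ℕ) (F : ℕ → ℕ → ℕ → ℕ) (s σ m : ℕ) : ℕ :=
  cond (bt s f) (force (tg s f) fun s' => force (Nat.add σ (par f s)) fun σ' => F s' σ' m) 0

/-- multiply by a sign-magnitude encoded integer. -/
noncomputable def scS (e : ℕ) (F : ℕ → ℕ → ℕ → ℕ) (s σ m : ℕ) : ℕ :=
  force e fun e' => force (Nat.mul m (Nat.shiftRight e' 1)) fun m' => F s (Nat.add σ e') m'

/-- multiply by a natural number. -/
noncomputable def scN (e : ℕ) (F : ℕ → ℕ → ℕ → ℕ) (s σ m : ℕ) : ℕ :=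
  force (Nat.mul m e) fun m' => F s σ m'

noncomputable def sumN (n : ℕ) (F : ℕ → ℕ → ℕ → ℕ → ℕ) (s σ m : ℕ) : ℕ :=
  loop n fun i => F i s σ m

noncomputable def ifN (c : Bool) (F : ℕ → ℕ → ℕ → ℕ) (s σ m : ℕ) : ℕ := cond c (F s σ m) 0

noncomputable def addN (F G : ℕ → ℕ → ℕ → ℕ) (s σ m : ℕ) : ℕ := Nat.add (F s σ m) (G s σ m)

/-- approximate pair annihilation. -/
noncomputable def pairN (P : ℕ) (F : ℕ → ℕ → ℕ → ℕ) : ℕ → ℕ → ℕ → ℕ :=
  sumN (Nat.shiftRight (Nat.add P 2) 1) fun c =>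
    annN (Nat.sub (Nat.succ P) c) (annN c (scN (phN P c) F))

/-- approximate pair creation. -/
noncomputable def pairC (P : ℕ) (F : ℕ → ℕ → ℕ → ℕ) : ℕ → ℕ → ℕ → ℕ :=
  sumN (Nat.shiftRight (Nat.add P 2) 1) fun c =>
    creN c (creN (Nat.sub (Nat.succ P) c) (scN (phN P c) F))

/-- `2 ^ 96`. -/
def S96 : ℕ := 79228162514264337593543950336

noncomputable def rowA (lf : ℕ → ℕ → ℕ → ℕ → ℕ) (M : ℕ) : ℕ → ℕ → ℕ → ℕ :=
  addN (scN (alOf M) (lf M))
    (sumN 16 fun T => ifN (val3 T M) (creN (Nat.sub T M)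
      (sumN 7 fun M' => ifN (val3 T M') (annN (Nat.sub T M') (scS (zOf T M M') (lf M'))))))

noncomputable def rowB (lf : ℕ → ℕ → ℕ → ℕ → ℕ) (M : ℕ) : ℕ → ℕ → ℕ → ℕ :=
  sumN 16 fun T => ifN (val4 T M) (pairC (Nat.sub T M)
    (sumN 7 fun M' => ifN (val4 T M') (scS (yOf T M M') (pairN (Nat.sub T M') (lf M')))))

/-- `2 ^ 109`. -/
def EPS : ℕ := 649037107316853453566312041152512

/-- `2 ^ 68`. -/
def S68 : ℕ := 295147905179352825856

noncomputable def blockOK (b : ℕ) (cs : List ℕ) : Bool :=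
  force (dimOf b) fun d => force (Nat.shiftLeft 1 (Nat.mul 144 (Nat.mul 2 d))) fun tb =>
    mkCols d tb cs 0 fun l => allLt d fun i => force (stOf b i) fun code =>
      force (Nat.shiftRight code 10) fun M => force (Nat.mod code 1024) fun s =>
        rowOK d EPS i (Nat.add (Nat.add (Nat.mul S96 (rowA (leafN b d tb) M s 0 1))
          (rowB (leafN b d tb) M s 0 1)) (Nat.mul S68 (lRow i l)))

end Vale.Agent.P359
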