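import Vale.Agent.P359.BDefs
import Vale.Agent.P359.Coef

/-! Part Proj: explicit form of the pair projection and of the energy of a fermionic state. -/

namespace Vale.Agent.P359
open Finset

/-- `wv` as a complex vector. -/
noncomputable def wc (Q M : ℕ) : Two Q := WithLp.toLp 2 fun p => (wv Q M p : ℂ)

lemma lowerTwo_smul (Q : ℕ) (c : ℂ) (w : Two Q) : lowerTwo Q (c • w) = c • lowerTwo Q w := by
  ext p
  simp only [lowerTwo, PiLp.smul_apply, smul_eq_mul, mul_add, mul_sum]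
  congr 1 <;> exact sum_congr rfl fun _ _ => by ring

lemma sum_lowerEl (Q : ℕ) (hQ : 1 ≤ Q) (a : Orb Q) (g : ℕ → ℝ) :
    ∑ c : Orb Q, lowerEl Q a c * (g c : ℂ) =
      ((if 1 ≤ (a : ℕ) then √Q * jU Q (a - 1) * g (a - 1) else 0 : ℝ) : ℂ) := by
  have hq : (0 : ℝ) < √Q := Real.sqrt_pos.2 (by exact_mod_cast hQ)
  split_ifs with h
  · rw [sum_eq_single (⟨a - 1, by omega⟩ : Orb Q)]
    · have e : (a : ℕ) = a - 1 + 1 := by omega
      simp only [lowerEl, if_pos e]
      rw [jU_eq, mul_div_cancel₀ _ hq.ne', jj]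
      push_cast; ring
    · intro b _ hb
      have : ¬ (a : ℕ) = b + 1 := fun e => hb (Fin.ext (by simp only; omega))
      simp [lowerEl, this]
    · simp
  · refine (sum_eq_zero fun b _ => ?_).trans (by simp)
    have : ¬ (a : ℕ) = b + 1 := by omega
    simp [lowerEl, this]

lemma lowerTwo_wc (Q M : ℕ) (hQ : 1 ≤ Q) :
    lowerTwo Q (wc Q M) = ((√Q * jV Q M : ℝ) : ℂ) • wc Q (M + 1) := by
  ext ⟨a, b⟩
  have h1 := sum_lowerEl Q hQ a (fun c => if c + (b : ℕ) = M + 1 then phi Q M c / √2 else 0)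
  have h2 := sum_lowerEl Q hQ b (fun c => if (a : ℕ) + c = M + 1 then phi Q M a / √2 else 0)
  simp only [lowerTwo, wc, wv, PiLp.smul_apply, smul_eq_mul]
  rw [h1, h2, ← Complex.ofReal_add, ← Complex.ofReal_mul]
  congr 1
  by_cases h : (a : ℕ) + b = M + 1 + 1
  · have hr := phi_raise Q M a hQ (by omega)
    rw [if_pos h, mul_assoc _ (jV Q M), ← mul_div_assoc (jV Q M), ← hr]
    by_cases ha : 1 ≤ (a : ℕ) <;> by_cases hb : 1 ≤ (b : ℕ)
    · rw [if_pos ha, if_pos hb, if_pos (by omega), if_pos (by omega), if_pos (by omega), if_pos ha,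
        show (b : ℕ) - 1 = M + 1 - a by omega]
      ring
    · rw [if_pos ha, if_neg hb, if_pos (by omega), if_neg (by omega), if_pos ha]
      ring
    · rw [if_neg ha, if_pos hb, if_pos (by omega), if_pos (by omega), if_neg ha,
        show (b : ℕ) - 1 = M + 1 - a by omega]
      ring
    · omega
  · rw [if_neg h]
    by_cases ha : 1 ≤ (a : ℕ) <;> by_cases hb : 1 ≤ (b : ℕ)
    · rw [if_pos ha, if_pos hb, if_neg (by omega), if_neg (by omega)]; ring
    · rw [if_pos ha, if_neg hb, if_neg (by omega)]; ring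
    · rw [if_neg ha, if_pos hb, if_neg (by omega)]; ring
    · rw [if_neg ha, if_neg hb]; ring

lemma topVec_eq (Q : ℕ) (hQ : 1 ≤ Q) : topVec Q = ((√2 : ℝ) : ℂ) • wc Q 0 := by
  obtain ⟨k, rfl⟩ : ∃ k, Q = k + 1 := ⟨Q - 1, by omega⟩
  have h0 := phi_zero_zero (k + 1) hQ
  have h1 : phi (k + 1) 0 1 = -1 := by
    have := phi_antisymm (k + 1) 0 0 (by omega)
    rw [h0] at this; exact this
  have hs : ((√2 : ℝ) : ℂ) ≠ 0 := by exact_mod_cast (Real.sqrt_pos.2 two_pos).ne'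
  ext ⟨a, b⟩
  simp only [topVec, wc, wv, PiLp.smul_apply, smul_eq_mul, PiLp.sub_apply, PiLp.single_apply,
    Prod.mk.injEq, Fin.ext_iff, Fin.val_zero, Fin.val_one]
  by_cases h : (a : ℕ) + b = 0 + 1
  · rw [if_pos h]
    rcases Nat.eq_zero_or_pos a with ha | ha
    · rw [if_pos ⟨ha, by omega⟩, if_neg (by omega), ha, h0]; push_cast; field_simp; ring
    · have ha' : (a : ℕ) = 1 := by omega
      rw [if_neg (by omega), if_pos ⟨ha', by omega⟩, ha', h1]; push_cast; field_simp; ring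
  · rw [if_neg h, if_neg (by omega), if_neg (by omega)]; simp

lemma iter_eq (Q : ℕ) (hQ : 1 ≤ Q) (k : ℕ) : (lowerTwo Q)^[k] (topVec Q) =
    ((√2 * ∏ m ∈ range k, (√Q * jV Q m) : ℝ) : ℂ) • wc Q k := by
  induction k with
  | zero => simpa using topVec_eq Q hQ
  | succ k ih =>
    rw [Function.iterate_succ_apply', ih, lowerTwo_smul, lowerTwo_wc Q k hQ, smul_smul,
      prod_range_succ]
    congr 1; push_cast; ring

lemma wc_mem (Q : ℕ) (hQ : 1 ≤ Q) (M : ℕ) (hM : M < 2 * Q - 1) : wc Q M ∈ spinComp Q := by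
  have hq : (0 : ℝ) < √Q := Real.sqrt_pos.2 (by exact_mod_cast hQ)
  have h : (lowerTwo Q)^[M] (topVec Q) ∈ spinComp Q := Submodule.subset_span ⟨M, rfl⟩
  rw [iter_eq Q hQ] at h
  refine (Submodule.smul_mem_iff _ ?_).1 h
  have : 0 < √2 * ∏ m ∈ range M, (√Q * jV Q m) := mul_pos (Real.sqrt_pos.2 two_pos)
    (prod_pos fun m hm => mul_pos hq (jV_pos Q m (by have := mem_range.1 hm; omega)))
  exact_mod_cast this.ne'

lemma wv_of_ge (Q M : ℕ) (hQ : 1 ≤ Q) (hM : 2 * Q - 1 ≤ M) (p : Orb Q × Orb Q) :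
    wv Q M p = 0 := by simp [wv, phi_of_ge Q M _ hQ hM]

lemma wv_norm (Q M : ℕ) (hQ : 1 ≤ Q) (hM : M < 2 * Q - 1) :
    ∑ q : Orb Q × Orb Q, wv Q M q * wv Q M q = 1 := by
  have h2 : √2 * √2 = 2 := Real.mul_self_sqrt two_pos.le
  have key : ∀ a : Orb Q, ∑ b : Orb Q, wv Q M (a, b) * wv Q M (a, b) =
      if (a : ℕ) ≤ M + 1 then phi Q M a ^ 2 / 2 else 0 := fun a => by
    split_ifs with h
    · by_cases hb : M + 1 - a ≤ Q
      · rw [sum_eq_single (⟨M + 1 - a, by omega⟩ : Orb Q)]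
        · simp only [wv]
          rw [if_pos (by omega), div_mul_div_comm, h2, sq]
        · intro b _ hb'
          have : ¬ (a : ℕ) + b = M + 1 := fun e => hb' (Fin.ext (by simp only; omega))
          simp [wv, this]
        · simp
      · have e := phi_antisymm Q M a h
        rw [phi_of_lt Q M _ (by omega)] at e
        have e' : phi Q M a = 0 := by linarith
        simp [wv, e']
    · refine sum_eq_zero fun b _ => ?_
      have : ¬ (a : ℕ) + b = M + 1 := by omega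
      simp [wv, this]
  rw [Fintype.sum_prod_type]
  simp only [key]
  rw [Fin.sum_univ_eq_sum_range (fun a => if a ≤ M + 1 then phi Q M a ^ 2 / 2 else 0) (Q + 1)]
  have e1 : ∑ a ∈ range (Q + 1), (if a ≤ M + 1 then phi Q M a ^ 2 / 2 else 0) =
      ∑ a ∈ range (Q + 1 + (M + 2)), (if a ≤ M + 1 then phi Q M a ^ 2 / 2 else 0) :=
    sum_subset (range_subset_range.2 (by omega)) fun a _ ha => by
      rw [phi_of_lt Q M a (by have := mt mem_range.2 ha; omega)]; simp
  have e2 : ∑ a ∈ range (M + 2), (if a ≤ M + 1 then phi Q M a ^ 2 / 2 else 0) =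
      ∑ a ∈ range (Q + 1 + (M + 2)), (if a ≤ M + 1 then phi Q M a ^ 2 / 2 else 0) :=
    sum_subset (range_subset_range.2 (by omega)) fun a _ ha =>
      if_neg (by have := mt mem_range.2 ha; omega)
  rw [e1, ← e2, sum_congr rfl fun a ha => if_pos (by have := mem_range.1 ha; omega), ← sum_div,
    phi_norm Q M hQ hM]
  norm_num

lemma wv_orth (Q M M' : ℕ) (h : M ≠ M') (q : Orb Q × Orb Q) : wv Q M q * wv Q M' q = 0 := by
  simp only [wv]
  split_ifs with h1 h2
  · omega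
  all_goals simp

theorem proj_apply (Q : ℕ) (hQ : 1 ≤ Q) (w : Two Q) (p : Orb Q × Orb Q) :
    (spinComp Q).starProjection w p =
      ∑ M ∈ range (2 * Q - 1), (wv Q M p : ℂ) * ∑ q : Orb Q × Orb Q, (wv Q M q : ℂ) * w q := by
  have key : (spinComp Q).starProjection w =
      ∑ M ∈ range (2 * Q - 1), (∑ q : Orb Q × Orb Q, (wv Q M q : ℂ) * w q) • wc Q M := by
    refine Submodule.eq_starProjection_of_mem_orthogonal
      (Submodule.sum_mem _ fun M hM => Submodule.smul_mem _ _ (wc_mem Q hQ M (mem_range.1 hM))) ?_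
    rw [spinComp, Submodule.mem_orthogonal]
    intro u hu
    induction hu using Submodule.span_induction with
    | zero => simp
    | add x y _ _ hx hy => rw [inner_add_left, hx, hy, add_zero]
    | smul a x _ hx => rw [inner_smul_left, hx, mul_zero]
    | mem x hx =>
      obtain ⟨k, rfl⟩ := hx
      simp only
      rw [iter_eq Q hQ, inner_smul_left]
      refine mul_eq_zero_of_right _ ?_
      have hin : ∀ v : Two Q, inner ℂ (wc Q k) v = ∑ q : Orb Q × Orb Q, (wv Q k q : ℂ) * v q :=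
        fun v => by simp [PiLp.inner_apply, wc, mul_comm]
      rcases lt_or_ge k (2 * Q - 1) with hk | hk
      · rw [inner_sub_right, inner_sum, sum_eq_single k]
        · rw [inner_smul_right, hin, hin]
          have : ∑ q : Orb Q × Orb Q, (wv Q k q : ℂ) * wc Q k q = 1 := by
            simp only [wc]; exact_mod_cast wv_norm Q k hQ hk
          rw [this]; ring
        · intro M _ hM
          rw [inner_smul_right, hin]
          refine mul_eq_zero_of_right _ (sum_eq_zero fun q _ => ?_)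
          simp only [wc]; exact_mod_cast wv_orth Q k M hM.symm q
        · intro h; exact absurd (mem_range.2 hk) h
      · rw [hin]; simp [wv_of_ge Q k hQ hk]
  rw [key]
  simp only [WithLp.ofLp_sum, Finset.sum_apply, PiLp.smul_apply, smul_eq_mul, wc]
  exact sum_congr rfl fun _ _ => mul_comm _ _

/-- Complex contraction. -/
noncomputable def contrC {n Q : ℕ} (M : ℕ) (ψ : State (n + 2) Q) (x : Fin n → Orb Q) : ℂ :=
  ∑ q : Orb Q × Orb Q, (wv Q M q : ℂ) * ψ (Fin.cons q.1 (Fin.cons q.2 x))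

lemma contrC_re {n Q : ℕ} (M : ℕ) (ψ : State (n + 2) Q) (x : Fin n → Orb Q) :
    (contrC M ψ x).re = contrR M (fun y => (ψ y).re) x := by
  simp [contrC, contrR]

lemma contrC_im {n Q : ℕ} (M : ℕ) (ψ : State (n + 2) Q) (x : Fin n → Orb Q) :
    (contrC M ψ x).im = contrR M (fun y => (ψ y).im) x := by
  simp [contrC, contrR]

lemma exists_perm {n : ℕ} (i j : Fin (n + 2)) (h : i ≠ j) :
    ∃ σ : Equiv.Perm (Fin (n + 2)), σ 0 = i ∧ σ 1 = j := by
  refine ⟨Equiv.swap 0 i * Equiv.swap 1 (Equiv.swap 0 i j), ?_, by simp⟩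
  have h1 : (0 : Fin (n + 2)) ≠ Equiv.swap 0 i j := fun e => h (by
    have := congrArg (Equiv.swap 0 i) e
    simpa using this)
  rw [Equiv.Perm.mul_apply, Equiv.swap_apply_of_ne_of_ne zero_ne_one h1, Equiv.swap_apply_left]

lemma update_comp {n Q : ℕ} (σ : Equiv.Perm (Fin (n + 2))) (x : Fin (n + 2) → Orb Q)
    (a b : Orb Q) : Function.update (Function.update x (σ 0) a) (σ 1) b ∘ σ =
      Fin.cons a (Fin.cons b (Fin.tail (Fin.tail (x ∘ σ)))) := by
  funext k
  refine Fin.cases ?_ (fun k => Fin.cases ?_ (fun k => ?_) k) k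
  · simp
  · simp
  · have h1 : σ k.succ.succ ≠ σ 1 := σ.injective.ne (Fin.succ_succ_ne_one k)
    simp [Function.update_of_ne h1, Fin.tail]

lemma sign_sq {N : ℕ} (σ : Equiv.Perm (Fin N)) :
    (((Equiv.Perm.sign σ : ℤˣ) : ℤ) : ℂ) * (((Equiv.Perm.sign σ : ℤˣ) : ℤ) : ℂ) = 1 := by
  rw [← Int.cast_mul, ← Units.val_mul, Int.units_mul_self]; simp

lemma pairTerm_apply {n Q : ℕ} (hQ : 1 ≤ Q) (ψ : State (n + 2) Q) (hψ : IsFermionic ψ)
    (σ : Equiv.Perm (Fin (n + 2))) (x : Fin (n + 2) → Orb Q) :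
    pairTerm (σ 0) (σ 1) ψ x = (((Equiv.Perm.sign σ : ℤˣ) : ℤ) : ℂ) *
      ∑ M ∈ range (2 * Q - 1), (wv Q M ((x ∘ σ) 0, (x ∘ σ) 1) : ℂ) *
        contrC M ψ (Fin.tail (Fin.tail (x ∘ σ))) := by
  simp only [pairTerm]
  rw [proj_apply Q hQ, mul_sum]
  refine sum_congr rfl fun M _ => ?_
  rw [mul_left_comm, contrC, mul_sum (univ : Finset (Orb Q × Orb Q))
    (a := (((Equiv.Perm.sign σ : ℤˣ) : ℤ) : ℂ))]
  congr 1
  refine sum_congr rfl fun q _ => ?_
  rw [← update_comp, hψ, mul_left_comm, ← mul_assoc (_ : ℂ) _ (ψ _), sign_sq, one_mul]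
  rfl

lemma inner_pairTerm {n Q : ℕ} (hQ : 1 ≤ Q) (ψ : State (n + 2) Q) (hψ : IsFermionic ψ)
    (i j : Fin (n + 2)) (h : i ≠ j) : inner ℂ ψ (pairTerm i j ψ) =
      ∑ M ∈ range (2 * Q - 1), ∑ x : Fin n → Orb Q,
        contrC M ψ x * (starRingEnd ℂ) (contrC M ψ x) := by
  obtain ⟨σ, rfl, rfl⟩ := exists_perm i j h
  let F : (Fin (n + 2) → Orb Q) → ℂ := fun y => (∑ M ∈ range (2 * Q - 1),
    (wv Q M (y 0, y 1) : ℂ) * contrC M ψ (Fin.tail (Fin.tail y))) * (starRingEnd ℂ) (ψ y)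
  have h1 : inner ℂ ψ (pairTerm (σ 0) (σ 1) ψ) = ∑ x : Fin (n + 2) → Orb Q, F (x ∘ σ) := by
    rw [PiLp.inner_apply]
    refine sum_congr rfl fun x _ => ?_
    rw [RCLike.inner_apply, pairTerm_apply hQ ψ hψ]
    simp only [F]
    rw [hψ σ x, map_mul, map_intCast]
    ring
  have h2 : ∑ x : Fin (n + 2) → Orb Q, F (x ∘ σ) = ∑ y, F y :=
    (Equiv.arrowCongr σ.symm (Equiv.refl _)).sum_comp F
  rw [h1, h2, ← (Fin.consEquiv fun _ => Orb Q).sum_comp, Fintype.sum_prod_type]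
  have h3 : ∀ a : Orb Q, ∑ y : Fin (n + 1) → Orb Q, F (Fin.consEquiv (fun _ => Orb Q) (a, y)) =
      ∑ b : Orb Q, ∑ x : Fin n → Orb Q, ∑ M ∈ range (2 * Q - 1), contrC M ψ x *
        ((wv Q M (a, b) : ℂ) * (starRingEnd ℂ) (ψ (Fin.cons a (Fin.cons b x)))) := fun a => by
    rw [← (Fin.consEquiv fun _ => Orb Q).sum_comp, Fintype.sum_prod_type]
    refine sum_congr rfl fun b _ => sum_congr rfl fun x _ => ?_
    simp only [F, sum_mul]
    refine sum_congr rfl fun M _ => ?_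
    have e : (Fin.consEquiv (fun _ => Orb Q) (a, Fin.consEquiv (fun _ => Orb Q) (b, x)) :
      Fin (n + 2) → Orb Q) = Fin.cons a (Fin.cons b x) := rfl
    rw [e, Fin.tail_cons, Fin.tail_cons, Fin.cons_zero, Fin.cons_one, Fin.cons_zero]
    ring
  simp only [h3]
  rw [← Fintype.sum_prod_type', sum_comm]
  rw [sum_comm (s := range (2 * Q - 1))]
  refine sum_congr rfl fun x _ => ?_
  rw [sum_comm]
  refine sum_congr rfl fun M _ => ?_
  rw [← mul_sum]
  congr 1
  simp [contrC]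

theorem energy_eq (n Q : ℕ) (hQ : 1 ≤ Q) (ψ : State (n + 2) Q) (hψ : IsFermionic ψ) :
    (inner ℂ ψ (ham ψ)).re = (((n : ℝ) + 2) * ((n : ℝ) + 1) / 2) *
      ∑ M ∈ range (2 * Q - 1), ∑ x : Fin n → Orb Q,
        (contrR M (fun y => (ψ y).re) x ^ 2 + contrR M (fun y => (ψ y).im) x ^ 2) := by
  have h : ∀ i : Fin (n + 2), ∀ j ∈ Ioi i, (inner ℂ ψ (pairTerm i j ψ)).re =
      ∑ M ∈ range (2 * Q - 1), ∑ x : Fin n → Orb Q,
        (contrR M (fun y => (ψ y).re) x ^ 2 + contrR M (fun y => (ψ y).im) x ^ 2) :=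
    fun i j hj => by
    rw [inner_pairTerm hQ ψ hψ i j (mem_Ioi.1 hj).ne, Complex.re_sum]
    refine sum_congr rfl fun M _ => ?_
    rw [Complex.re_sum]
    refine sum_congr rfl fun x _ => ?_
    rw [Complex.mul_conj, Complex.ofReal_re, Complex.normSq_apply, contrC_re, contrC_im]
    ring
  rw [ham, inner_sum, Complex.re_sum]
  rw [sum_congr rfl fun i _ => by rw [inner_sum, Complex.re_sum, sum_congr rfl (h i), sum_const,
    Fin.card_Ioi, nsmul_eq_mul], ← sum_mul]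
  congr 1
  rw [Fin.sum_univ_eq_sum_range (fun i => ((n + 2 - 1 - i : ℕ) : ℝ)) (n + 2),
    sum_range_reflect (fun i => (i : ℝ)) (n + 2), eq_div_iff two_ne_zero]
  have := congrArg (Nat.cast : ℕ → ℝ) (sum_range_id_mul_two (n + 2))
  rw [show n + 2 - 1 = n + 1 from rfl] at this
  push_cast at this
  exact this

/-- A fermionic state killed by all contractions is in the kernel of `ham`. -/
theorem ham_eq_zero (n Q : ℕ) (hQ : 1 ≤ Q) (ψ : State (n + 2) Q) (hψ : IsFermionic ψ)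
    (h1 : ∀ M, contrR M (fun y => (ψ y).re) = 0) (h2 : ∀ M, contrR M (fun y => (ψ y).im) = 0) :
    ham ψ = 0 := by
  have h : ∀ M x, contrC M ψ x = 0 := fun M x =>
    Complex.ext (by rw [contrC_re, h1]; rfl) (by rw [contrC_im, h2]; rfl)
  refine sum_eq_zero fun i _ => sum_eq_zero fun j hj => ?_
  obtain ⟨σ, rfl, rfl⟩ := exists_perm i j (mem_Ioi.1 hj).ne
  ext x
  rw [pairTerm_apply hQ ψ hψ]
  simp [h]

end Vale.Agent.P359
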