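import Vale.Agent.P359.SecN

/-! Sector checks. -/

namespace Vale.Agent.P359

theorem s4ok0 : sec4OK 0 = true := by decide +kernel

theorem s4ok1 : sec4OK 1 = true := by decide +kernel

theorem s4ok2 : sec4OK 2 = true := by decide +kernel

theorem s4ok3 : sec4OK 3 = true := by decide +kernel

theorem s4ok4 : sec4OK 4 = true := by decide +kernel

theorem s4ok5 : sec4OK 5 = true := by decide +kernel

theorem s4ok6 : sec4OK 6 = true := by decide +kernel

theorem s4ok7 : sec4OK 7 = true := by decide +kernel

theorem s4ok8 : sec4OK 8 = true := by decide +kernel

theorem s4ok9 : sec4OK 9 = true := by decide +kernel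

theorem s4ok10 : sec4OK 10 = true := by decide +kernel

theorem s4ok11 : sec4OK 11 = true := by decide +kernel

theorem s4ok12 : sec4OK 12 = true := by decide +kernel

theorem s4ok13 : sec4OK 13 = true := by decide +kernel

theorem s4ok14 : sec4OK 14 = true := by decide +kernel

theorem s4ok15 : sec4OK 15 = true := by decide +kernel

theorem s4ok16 : sec4OK 16 = true := by decide +kernel

theorem s4ok17 : sec4OK 17 = true := by decide +kernel

theorem s4ok18 : sec4OK 18 = true := by decide +kernel

theorem s4ok19 : sec4OK 19 = true := by decide +kernel

end Vale.Agent.P359
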