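import Vale.Agent.P359.SecN

/-! Sector checks. -/

namespace Vale.Agent.P359

theorem s4ok20 : sec4OK 20 = true := by decide +kernel

theorem s4ok21 : sec4OK 21 = true := by decide +kernel

theorem s4ok22 : sec4OK 22 = true := by decide +kernel

theorem s4ok23 : sec4OK 23 = true := by decide +kernel

theorem s4ok24 : sec4OK 24 = true := by decide +kernel

end Vale.Agent.P359
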