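import Vale.Agent.P359.SecN

/-! Sector checks. -/

namespace Vale.Agent.P359

theorem s4ok25 : sec4OK 25 = true := by decide +kernel

theorem s4ok26 : sec4OK 26 = true := by decide +kernel

theorem s4ok27 : sec4OK 27 = true := by decide +kernel

theorem s4ok28 : sec4OK 28 = true := by decide +kernel

end Vale.Agent.P359
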