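import Vale.Agent.P359.SecD1
import Vale.Agent.P359.SecD2
import Vale.Agent.P359.SecD3
import Vale.Agent.P359.SecD4

/-! All sectors pass. -/

namespace Vale.Agent.P359

theorem sec3_ok (T : ℕ) (h : T < 29) : sec3OK T = true := by
  interval_cases T
  exacts [s3ok0, s3ok1, s3ok2, s3ok3, s3ok4, s3ok5, s3ok6, s3ok7,
    s3ok8, s3ok9, s3ok10, s3ok11, s3ok12, s3ok13, s3ok14, s3ok15,
    s3ok16, s3ok17, s3ok18, s3ok19, s3ok20, s3ok21, s3ok22, s3ok23,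
    s3ok24, s3ok25, s3ok26, s3ok27, s3ok28]

theorem sec4_ok (T : ℕ) (h : T < 29) : sec4OK T = true := by
  interval_cases T
  exacts [s4ok0, s4ok1, s4ok2, s4ok3, s4ok4, s4ok5, s4ok6, s4ok7,
    s4ok8, s4ok9, s4ok10, s4ok11, s4ok12, s4ok13, s4ok14, s4ok15,
    s4ok16, s4ok17, s4ok18, s4ok19, s4ok20, s4ok21, s4ok22, s4ok23,
    s4ok24, s4ok25, s4ok26, s4ok27, s4ok28]

end Vale.Agent.P359
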