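import Vale.Agent.P359.LDefs
import Vale.Agent.P359.SecD

/-! Part Sec: soundness of the sector certificates. -/

namespace Vale.Agent.P359
open Finset

namespace Sc

theorem psd_of_small (d : ℕ) (E : ℕ → ℕ → ℝ) (e : ℝ) (he : 0 ≤ e)
    (h1 : ∀ A < d, (d : ℝ) * e ≤ E A A) (h2 : ∀ A < d, ∀ B < d, A ≠ B → |E A B| ≤ e)
    (x : ℕ → ℝ) : 0 ≤ ∑ A ∈ range d, ∑ B ∈ range d, E A B * (x A * x B) := by
  have key : ∀ A ∈ range d, ∀ B ∈ range d,
      (if A = B then (d : ℝ) * e * x A ^ 2 else 0) - e / 2 * x A ^ 2 - e / 2 * x B ^ 2 ≤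
        E A B * (x A * x B) := by
    intro A hA B hB
    rw [mem_range] at hA hB
    by_cases hAB : A = B
    · subst hAB
      rw [if_pos rfl]
      have := h1 A hA
      nlinarith [sq_nonneg (x A), mul_nonneg he (sq_nonneg (x A)),
        mul_nonneg (sub_nonneg.mpr this) (sq_nonneg (x A))]
    · rw [if_neg hAB]
      have := abs_le.mp (h2 A hA B hB hAB)
      nlinarith [mul_nonneg (sub_nonneg.mpr this.2) (sq_nonneg (x A - x B)),
        mul_nonneg (sub_nonneg.mpr this.1) (sq_nonneg (x A + x B))]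
  refine le_trans (le_of_eq ?_) (sum_le_sum fun A hA => sum_le_sum fun B hB => key A hA B hB)
  simp only [sum_sub_distrib, sum_const, card_range, nsmul_eq_mul, ← mul_sum]
  have : ∑ A ∈ range d, ∑ B ∈ range d, (if A = B then (d : ℝ) * e * x A ^ 2 else 0) =
      (d : ℝ) * e * ∑ A ∈ range d, x A ^ 2 := by
    rw [mul_sum]
    refine sum_congr rfl fun A hA => ?_
    rw [sum_ite_eq, if_pos hA]
  rw [this]; ring

theorem secOK_psd (R : ℕ → ℕ → ℤ) (μ : ℤ) (l d : ℕ) (h : secOK R μ l d = true) (x : ℕ → ℝ) :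
    0 ≤ ∑ A ∈ range d, ∑ B ∈ range d,
      ((R A B : ℝ) + if A = B then (μ : ℝ) else 0) * (x A * x B) := by
  unfold secOK at h
  simp only [allLt_iff] at h
  have h0 := psd_of_small d
    (fun A B => ((R A B : ℝ) + if A = B then (μ : ℝ) else 0) - (lg l A : ℝ) * (lg l B : ℝ))
    (EPS2 : ℝ) (Nat.cast_nonneg _) ?_ ?_ x
  · have h3 : ∑ A ∈ range d, ∑ B ∈ range d, (lg l A : ℝ) * (lg l B : ℝ) * (x A * x B) =
        (∑ A ∈ range d, (lg l A : ℝ) * x A) ^ 2 := by
      rw [sq, sum_mul_sum]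
      exact sum_congr rfl fun A _ => sum_congr rfl fun B _ => by ring
    simp only [sub_mul, sum_sub_distrib] at h0
    rw [h3] at h0
    nlinarith [sq_nonneg (∑ A ∈ range d, (lg l A : ℝ) * x A)]
  · intro A hA
    have := h A hA A hA
    rw [Nat.beq_refl, cond_true, decide_eq_true_eq] at this
    have h4 : ((d * EPS2 : ℕ) : ℤ) ≤ R A A + μ - lg l A * lg l A := this
    simp only [if_true]
    exact_mod_cast h4
  · intro A hA B hB hAB
    have := h A hA B hB
    have hb : Nat.beq A B = false := by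
      rw [Bool.eq_false_iff]; intro hh; exact hAB (Nat.eq_of_beq_eq_true hh)
    rw [hb, cond_false, Nat.ble_eq] at this
    have h4 : (R A B - lg l A * lg l B).natAbs ≤ EPS2 := this
    simp only [if_neg hAB, add_zero]
    have h5 : |R A B - lg l A * lg l B| ≤ (EPS2 : ℤ) := by
      rw [Int.abs_eq_natAbs]; exact_mod_cast h4
    exact_mod_cast h5

theorem sgd_abs (e : ℕ) : |(sgd e : ℝ)| ≤ e / 2 := by
  unfold sgd
  rw [force_eq]
  have h : ((Nat.shiftRight e 1 : ℕ) : ℝ) ≤ e / 2 := by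
    have : Nat.shiftRight e 1 = e / 2 := by
      show e >>> 1 = e / 2
      rw [Nat.shiftRight_one]
    rw [this]; exact Nat.cast_div_le
  cases Nat.beq (Nat.mod e 2) 1
  · rw [cond_false]
    show |(((Nat.shiftRight e 1 : ℕ) : ℤ) : ℝ)| ≤ _
    rw [Int.cast_natCast, Nat.abs_cast]; exact h
  · rw [cond_true, Int.negOfNat_eq]
    show |((-((Nat.shiftRight e 1 : ℕ) : ℤ) : ℤ) : ℝ)| ≤ _
    rw [Int.cast_neg, abs_neg, Int.cast_natCast, Nat.abs_cast]; exact h

theorem xg_abs (x A B : ℕ) : |(xg x A B : ℝ)| ≤ 2 ^ 51 := by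
  unfold xg
  refine (sgd_abs _).trans ?_
  have : dg x 52 4503599627370496 (Nat.add (Nat.mul 32 A) B) ≤ 4503599627370496 :=
    (Nat.mod_lt _ (by norm_num)).le
  have h2 : (dg x 52 4503599627370496 (Nat.add (Nat.mul 32 A) B) : ℝ) ≤ 4503599627370496 := by
    exact_mod_cast this
  have h3 : (2 : ℝ) ^ 51 = 4503599627370496 / 2 := by norm_num
  rw [h3]
  linarith

theorem xg_zero (A B : ℕ) : xg 0 A B = 0 := by
  unfold xg dg
  have : ∀ k, Nat.shiftRight 0 k = 0 := fun k => Nat.zero_shiftRight k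
  rw [this]; rfl

theorem commI_cast (u v : ℕ → ℕ) (xa xb T A B : ℕ) : (commI u v xa xb T A B : ℝ) =
    ((if B + 1 ≤ T then (xg xa A B : ℝ) * u (T - (B + 1)) else 0) +
      (if 1 ≤ B then (xg xa A (B - 1) : ℝ) * v (B - 1) else 0)) -
      ((xg xb A B : ℝ) * u (T - A) + (xg xb (A + 1) B : ℝ) * v A) := by
  unfold commI
  simp only [Bool.cond_eq_ite, Nat.ble_eq, Nat.succ_eq_add_one, Nat.sub_eq, Int.add_def,
    Int.mul_def, Int.ofNat_eq_natCast]
  show (((_ : ℤ) - _ : ℤ) : ℝ) = _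
  push_cast
  rfl

/-- Right side minus left side of the Gram relation. -/
noncomputable def br (G : ℕ → ℕ → ℕ → ℝ) (u v : ℕ → ℝ) (T A B : ℕ) : ℝ :=
  (u (T - B) * G (T + 1) A B + v B * G (T + 1) A (B + 1)) -
    ((if A ≤ T then u (T - A) * G T A B else 0) + (if 1 ≤ A then v (A - 1) * G T (A - 1) B else 0))

theorem shift_sum (T : ℕ) (f g : ℕ → ℝ) :
    ∑ B ∈ range (T + 2), ((if B ≤ T then f B else 0) + (if 1 ≤ B then g (B - 1) else 0)) =
      ∑ B ∈ range (T + 1), (f B + g B) := by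
  rw [sum_add_distrib, sum_add_distrib, sum_range_succ, sum_range_succ' _ (T + 1)]
  simp only [Nat.add_one_le_iff, lt_irrefl, if_false, add_zero, Nat.zero_lt_succ,
    if_true, Nat.add_sub_cancel]
  congr 1
  exact sum_congr rfl fun B hB => if_pos (Nat.lt_succ_iff.mp (mem_range.mp hB))

theorem comm_id (G : ℕ → ℕ → ℕ → ℝ) (u v : ℕ → ℕ) (x : ℕ → ℕ) (hx : x 28 = 0) :
    secSum (fun T A B => (commI u v (x (T - 1)) (x T) T A B : ℝ) * G T A B) =
      ∑ T ∈ range 28, ∑ A ∈ range (T + 2), ∑ B ∈ range (T + 1),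
        (xg (x T) A B : ℝ) * br G (fun f => u f) (fun f => v f) T A B := by
  unfold secSum br
  simp only [commI_cast, sub_mul, mul_sub, sum_sub_distrib]
  congr 1
  · rw [sum_range_succ']
    simp only [zero_add, range_one, sum_singleton, Nat.add_sub_cancel]
    rw [if_neg (by norm_num), if_neg (by norm_num), add_zero, zero_mul, add_zero]
    refine sum_congr rfl fun T _ => sum_congr rfl fun A _ => ?_
    have := shift_sum T (fun B => (xg (x T) A B : ℝ) * (u (T - B) * G (T + 1) A B))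
      (fun B => (xg (x T) A B : ℝ) * (v B * G (T + 1) A (B + 1)))
    simp only [mul_add]
    rw [← this]
    refine sum_congr rfl fun B _ => ?_
    rw [add_mul]
    congr 1
    · by_cases h : B ≤ T
      · rw [if_pos h, if_pos (by omega), Nat.add_sub_add_right]; ring
      · rw [if_neg h, if_neg (by omega), zero_mul]
    · by_cases h : 1 ≤ B
      · rw [if_pos h, if_pos h, Nat.sub_add_cancel h]; ring
      · rw [if_neg h, if_neg h, zero_mul]
  · rw [sum_range_succ]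
    simp only [hx, xg_zero, Int.cast_zero, zero_mul, add_zero, sum_const_zero]
    refine sum_congr rfl fun T _ => ?_
    rw [sum_comm, sum_comm (s := range (T + 2))]
    refine sum_congr rfl fun B _ => ?_
    have := shift_sum T (fun A => (xg (x T) A B : ℝ) * (u (T - A) * G T A B))
      (fun A => (xg (x T) (A + 1) B : ℝ) * (v A * G T A B))
    refine Eq.trans (sum_congr rfl fun A _ => by ring) (this.symm.trans ?_)
    refine sum_congr rfl fun A _ => ?_
    rw [mul_add]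
    congr 1
    · split_ifs <;> simp
    · by_cases h : 1 ≤ A
      · rw [if_pos h, if_pos h, Nat.sub_add_cancel h]
      · rw [if_neg h, if_neg h, mul_zero]

theorem term_le {a a' g Γ : ℝ} (h : |a - a' / 2 ^ 48| ≤ 1 / 2 ^ 42) (hg : |g| ≤ Γ) :
    |a' * g - 2 ^ 48 * (a * g)| ≤ 64 * Γ := by
  have : a' * g - 2 ^ 48 * (a * g) = -(2 ^ 48) * ((a - a' / 2 ^ 48) * g) := by
    field_simp; ring
  rw [this, abs_mul, abs_mul, abs_neg, abs_of_pos (by positivity)]
  have h2 := mul_le_mul h hg (abs_nonneg _) (by positivity)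
  calc (2 : ℝ) ^ 48 * (|a - a' / 2 ^ 48| * |g|) ≤ 2 ^ 48 * (1 / 2 ^ 42 * Γ) := by gcongr
    _ = 64 * Γ := by ring

theorem br_le (G : ℕ → ℕ → ℕ → ℝ) (u v : ℕ → ℝ) (U V : ℕ → ℝ) (Γ : ℝ) (hG : Gram G u v Γ)
    (hu : ∀ f < 29, |u f - U f / 2 ^ 48| ≤ 1 / 2 ^ 42)
    (hv : ∀ f < 29, |v f - V f / 2 ^ 48| ≤ 1 / 2 ^ 42) (T A B : ℕ) (hT : T < 28)
    (hA : A ≤ T + 1) (hB : B ≤ T) : |br G U V T A B| ≤ 256 * Γ := by
  have hΓ : 0 ≤ Γ := (abs_nonneg _).trans (hG.bound 0 0 0 (by norm_num) le_rfl le_rfl)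
  have hr := hG.rel T A B hA hB
  have e1 := abs_le.mp (term_le (hu (T - B) (by omega))
    (hG.bound (T + 1) A B (by omega) hA (by omega)))
  have e2 := abs_le.mp (term_le (hv B (by omega))
    (hG.bound (T + 1) A (B + 1) (by omega) hA (by omega)))
  have e4 := abs_le.mp (term_le (hv (A - 1) (by omega))
    (hG.bound T (A - 1) B (by omega) (by omega) hB))
  unfold br
  rw [abs_le]
  by_cases h1 : A ≤ T
  · have e3 := abs_le.mp (term_le (hu (T - A) (by omega))
      (hG.bound T A B (by omega) h1 hB))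
    rw [if_pos h1] at hr ⊢
    split_ifs at hr ⊢ <;> constructor <;> linarith [e1.1, e1.2, e2.1, e2.2, e3.1, e3.2, e4.1, e4.2]
  · rw [if_neg h1] at hr ⊢
    split_ifs at hr ⊢ <;> constructor <;> linarith [e1.1, e1.2, e2.1, e2.2, e4.1, e4.2]

theorem comm_le (G : ℕ → ℕ → ℕ → ℝ) (u v : ℕ → ℝ) (U V : ℕ → ℕ) (Γ : ℝ) (hG : Gram G u v Γ)
    (hu : ∀ f < 29, |u f - (U f : ℝ) / 2 ^ 48| ≤ 1 / 2 ^ 42)
    (hv : ∀ f < 29, |v f - (V f : ℝ) / 2 ^ 48| ≤ 1 / 2 ^ 42) (x : ℕ → ℕ) (hx : x 28 = 0) :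
    secSum (fun T A B => (commI U V (x (T - 1)) (x T) T A B : ℝ) * G T A B) ≤
      2 ^ 92 * (3 / 1000000 * Γ) := by
  have hΓ : 0 ≤ Γ := (abs_nonneg _).trans (hG.bound 0 0 0 (by norm_num) le_rfl le_rfl)
  rw [comm_id G U V x hx]
  calc _ ≤ ∑ T ∈ range 28, ∑ A ∈ range (T + 2), ∑ B ∈ range (T + 1),
        (2 : ℝ) ^ 51 * (256 * Γ) := by
        refine sum_le_sum fun T hT => sum_le_sum fun A hA => sum_le_sum fun B hB => ?_
        rw [mem_range] at hT hA hB
        refine (le_abs_self _).trans ?_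
        rw [abs_mul]
        exact mul_le_mul (xg_abs _ _ _)
          (br_le G u v _ _ Γ hG hu hv T A B hT (by omega) (by omega)) (abs_nonneg _)
          (by positivity)
    _ ≤ ∑ T ∈ range 28, (29 * 28 : ℝ) * ((2 : ℝ) ^ 51 * (256 * Γ)) := by
        refine sum_le_sum fun T hT => ?_
        rw [mem_range] at hT
        simp only [sum_const, card_range, nsmul_eq_mul]
        rw [← mul_assoc]
        have h1 : ((T + 2 : ℕ) : ℝ) ≤ 29 := by exact_mod_cast (by omega : T + 2 ≤ 29)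
        have h2 : ((T + 1 : ℕ) : ℝ) ≤ 28 := by exact_mod_cast (by omega : T + 1 ≤ 28)
        gcongr
    _ ≤ _ := by
        simp only [sum_const, card_range, nsmul_eq_mul]
        push_cast
        linarith

theorem trace_le (G : ℕ → ℕ → ℕ → ℝ) (u v : ℕ → ℝ) (Γ : ℝ) (hG : Gram G u v Γ) (μ : ℝ)
    (hμ : 0 ≤ μ) (T : ℕ) (hT : T < 29) :
    ∑ A ∈ range (T + 1), ∑ B ∈ range (T + 1), (if A = B then μ else 0) * G T A B ≤
      29 * μ * Γ := by
  have hΓ : 0 ≤ Γ := (abs_nonneg _).trans (hG.bound 0 0 0 (by norm_num) le_rfl le_rfl)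
  calc _ ≤ ∑ A ∈ range (T + 1), μ * Γ := by
        refine sum_le_sum fun A hA => ?_
        simp only [ite_mul, zero_mul]
        rw [sum_ite_eq, if_pos hA]
        have hA' : A ≤ T := Nat.lt_succ_iff.mp (mem_range.mp hA)
        exact mul_le_mul_of_nonneg_left ((le_abs_self _).trans (hG.bound T A A hT hA' hA')) hμ
    _ ≤ _ := by
        simp only [sum_const, card_range, nsmul_eq_mul]
        have h1 : ((T + 1 : ℕ) : ℝ) ≤ 29 := by exact_mod_cast (by omega : T + 1 ≤ 29)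
        rw [mul_assoc]
        gcongr

/-- Consequence of a passed check. -/
theorem lower (G : ℕ → ℕ → ℕ → ℝ) (u v : ℕ → ℝ) (Γ : ℝ) (hG : Gram G u v Γ) (T : ℕ) (hT : T < 29)
    (R : ℕ → ℕ → ℤ) (μ : ℤ) (hμ : 0 ≤ μ) (l : ℕ) (h : secOK R μ l (T + 1) = true) :
    -(29 * (μ : ℝ) * Γ) ≤ ∑ A ∈ range (T + 1), ∑ B ∈ range (T + 1), (R A B : ℝ) * G T A B := by
  have h1 := hG.psd T _ (secOK_psd R μ l _ h)
  have h2 := trace_le G u v Γ hG μ (by exact_mod_cast hμ) T hT
  simp only [add_mul, sum_add_distrib] at h1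
  linarith

theorem sym_sum (G : ℕ → ℕ → ℝ) (hs : ∀ A B, G A B = G B A) (K : ℕ → ℕ → ℝ) (d : ℕ) :
    ∑ A ∈ range d, ∑ B ∈ range d, (K A B + K B A) * G A B =
      2 * ∑ A ∈ range d, ∑ B ∈ range d, K A B * G A B := by
  simp only [add_mul, sum_add_distrib]
  rw [two_mul]
  congr 1
  rw [sum_comm]
  exact sum_congr rfl fun A _ => sum_congr rfl fun B _ => by rw [hs]

theorem sec3_low (G : ℕ → ℕ → ℕ → ℝ) (u v : ℕ → ℝ) (Γ : ℝ) (hG : Gram G u v Γ)
    (hnull : ∀ T A B, A ≤ T → null3 T A = true → G T A B = 0) (T : ℕ) (hT : T < 29) :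
    -(29 * (MU : ℝ) * Γ) ≤ ∑ A ∈ range (T + 1), ∑ B ∈ range (T + 1),
      (K3 (nth xL3 (T - 1)) (nth xL3 T) T A B : ℝ) * G T A B := by
  have h := sec3_ok T hT
  unfold sec3OK at h
  simp only [force_eq] at h
  have h1 := lower G u v Γ hG T hT _ _ (by decide) _ h
  have h2 := sym_sum (G T) (hG.symm T)
    (fun A B => (K3 (nth xL3 (T - 1)) (nth xL3 T) T A B : ℝ)) (T + 1)
  have h3 : ∑ A ∈ range (T + 1), ∑ B ∈ range (T + 1),
      (R3 (nth xL3 (Nat.sub T 1)) (nth xL3 T) T A B : ℝ) * G T A B =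
      ∑ A ∈ range (T + 1), ∑ B ∈ range (T + 1),
      ((K3 (nth xL3 (T - 1)) (nth xL3 T) T A B : ℝ) +
        (K3 (nth xL3 (T - 1)) (nth xL3 T) T B A : ℝ)) * G T A B := by
    refine sum_congr rfl fun A hA => sum_congr rfl fun B hB => ?_
    have hA' : A ≤ T := Nat.lt_succ_iff.mp (mem_range.mp hA)
    have hB' : B ≤ T := Nat.lt_succ_iff.mp (mem_range.mp hB)
    unfold R3
    cases ha : null3 T A
    · cases hb : null3 T B
      · rw [Bool.or_false, cond_false, Int.add_def, Int.cast_add]; rfl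
      · rw [hG.symm, hnull T B A hB' hb, mul_zero, mul_zero]
    · rw [hnull T A B hA' ha, mul_zero, mul_zero]
  have h4 : ((Int.mul 2 MU : ℤ) : ℝ) = 2 * MU := by rw [Int.mul_def]; push_cast; rfl
  rw [h3, h2, h4] at h1
  linarith

theorem refl_sum (G : ℕ → ℕ → ℝ) (T : ℕ) (hswap : ∀ A B, A ≤ T → G (T - A) B = G A B)
    (K : ℕ → ℕ → ℝ) :
    ∑ A ∈ range (T + 1), ∑ B ∈ range (T + 1), K (T - A) B * G A B =
      ∑ A ∈ range (T + 1), ∑ B ∈ range (T + 1), K A B * G A B := by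
  rw [← sum_range_reflect (fun A => ∑ B ∈ range (T + 1), K A B * G A B)]
  refine sum_congr rfl fun A hA => sum_congr rfl fun B _ => ?_
  rw [Nat.add_sub_cancel, hswap A B (Nat.lt_succ_iff.mp (mem_range.mp hA))]

theorem refl_sum' (G : ℕ → ℕ → ℝ) (T : ℕ) (hs : ∀ A B, G A B = G B A)
    (hswap : ∀ A B, A ≤ T → G (T - A) B = G A B) (K : ℕ → ℕ → ℝ) :
    ∑ A ∈ range (T + 1), ∑ B ∈ range (T + 1), K A (T - B) * G A B =
      ∑ A ∈ range (T + 1), ∑ B ∈ range (T + 1), K A B * G A B := by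
  have := refl_sum G T hswap (fun B A => K A B)
  rw [sum_comm, sum_comm (f := fun A B => K A B * G A B)]
  simpa only [hs] using this

theorem sec4_low (G : ℕ → ℕ → ℕ → ℝ) (v : ℕ → ℝ) (Γ : ℝ) (hG : Gram G v v Γ)
    (hswap : ∀ T A B, A ≤ T → G T (T - A) B = G T A B) (T : ℕ) (hT : T < 29) :
    -(29 * (MU : ℝ) * Γ) ≤ ∑ A ∈ range (T + 1), ∑ B ∈ range (T + 1),
      (K4 (nth xL4 (T - 1)) (nth xL4 T) T A B : ℝ) * G T A B := by
  have h := sec4_ok T hT
  unfold sec4OK at h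
  simp only [force_eq] at h
  have h1 := lower G v v Γ hG T hT _ _ (by decide) _ h
  have h2 := sym_sum (G T) (hG.symm T)
    (fun A B => (K4 (nth xL4 (T - 1)) (nth xL4 T) T A B : ℝ)) (T + 1)
  set H : ℕ → ℕ → ℝ := fun A B => (K4 (nth xL4 (T - 1)) (nth xL4 T) T A B : ℝ) +
    (K4 (nth xL4 (T - 1)) (nth xL4 T) T B A : ℝ) with hH
  have h3 : ∀ A B, (R4 (nth xL4 (Nat.sub T 1)) (nth xL4 T) T A B : ℝ) =
      H A B + H (T - A) B + (H A (T - B) + H (T - A) (T - B)) := by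
    intro A B
    unfold R4 R4h
    simp only [Int.add_def, Int.cast_add, hH]
    rfl
  have h5 := refl_sum (G T) T (hswap T) H
  have h6 := refl_sum' (G T) T (hG.symm T) (hswap T) H
  have h7 := refl_sum (G T) T (hswap T) (fun A B => H A (T - B))
  have h4 : ((Int.mul 8 MU : ℤ) : ℝ) = 8 * MU := by rw [Int.mul_def]; push_cast; rfl
  rw [h4] at h1
  simp only [h3, add_mul (H _ _ + H _ _), add_mul (H _ _) (H _ _), sum_add_distrib] at h1
  rw [h7, h5, h6] at h1
  have h8 : ∑ A ∈ range (T + 1), ∑ B ∈ range (T + 1), H A B * G T A B = _ := h2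
  linarith

theorem base4_sum (G : ℕ → ℕ → ℝ) (T : ℕ) :
    ∑ A ∈ range (T + 1), ∑ B ∈ range (T + 1), (base4 T A B : ℝ) * G A B =
      2 ^ 92 * (G 0 0 -
        ∑ A ∈ range (T + 1), ∑ B ∈ range (T + 1), (yI T A B : ℝ) / 2 ^ 32 * G A B) := by
  have h : ∀ A B, (base4 T A B : ℝ) * G A B =
      (if A = 0 then (if B = 0 then 2 ^ 92 * G 0 0 else 0) else 0) -
        2 ^ 92 * ((yI T A B : ℝ) / 2 ^ 32 * G A B) := by
    intro A B
    unfold base4
    simp only [Bool.cond_eq_ite, Nat.beq_eq, Bool.and_eq_true, Int.mul_def]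
    show (((_ : ℤ) - _ : ℤ) : ℝ) * _ = _
    unfold S92 S60
    push_cast
    by_cases hA : A = 0
    · by_cases hB : B = 0
      · subst hA hB; simp only [and_self, if_true]; ring
      · simp only [hB, and_false, if_false, ite_self]; ring
    · simp only [hA, false_and, if_false]; ring
  simp only [h, sum_sub_distrib, ← mul_sum, mul_sub]
  congr 1
  rw [sum_range_succ']
  simp

theorem base3_sum (G : ℕ → ℕ → ℝ) (T : ℕ) :
    ∑ A ∈ range (T + 1), ∑ B ∈ range (T + 1), (base3 T A B : ℝ) * G A B =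
      2 ^ 92 * ((if T ≤ 27 then (phI T 1 : ℝ) / 2 ^ 48 * G 0 T else 0) -
        (if 1 ≤ T then (phI (T - 1) 0 : ℝ) / 2 ^ 48 * G 0 (T - 1) else 0) +
        (sOf T : ℝ) / 2 ^ 32 * G 0 0 -
        ∑ A ∈ range (T + 1), ∑ B ∈ range (T + 1), (zI T A B : ℝ) / 2 ^ 32 * G A B) := by
  have h : ∀ A B, (base3 T A B : ℝ) * G A B =
      (if A = 0 then 2 ^ 92 *
        ((if B = T then (if T ≤ 27 then (phI T 1 : ℝ) / 2 ^ 48 * G 0 T else 0) else 0) -
        (if B = T - 1 then (if 1 ≤ T then (phI (T - 1) 0 : ℝ) / 2 ^ 48 * G 0 (T - 1) else 0) else 0) +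
        (if B = 0 then (sOf T : ℝ) / 2 ^ 32 * G 0 0 else 0)) else 0) -
        2 ^ 92 * ((zI T A B : ℝ) / 2 ^ 32 * G A B) := by
    intro A B
    unfold base3
    simp only [Bool.cond_eq_ite, Nat.beq_eq, Nat.ble_eq, Bool.and_eq_true, Int.mul_def,
      Int.add_def, Nat.succ_eq_add_one, Int.ofNat_eq_natCast]
    show (((if A = 0 then S44 * ((_ : ℤ) - _) + _ else 0 : ℤ) - _ : ℤ) : ℝ) * _ = _
    unfold S44 S60
    push_cast
    rw [sub_mul]
    congr 1
    · by_cases hA : A = 0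
      · subst hA
        rw [if_pos rfl, if_pos rfl, add_mul, mul_assoc, sub_mul, mul_sub, mul_add, mul_sub]
        refine congrArg₂ (· + ·) (congrArg₂ (· - ·) ?_ ?_) ?_
        · by_cases hB : B = T
          · subst hB
            simp only [true_and, if_true]
            split_ifs <;> ring
          · simp [hB]
        · by_cases hB : B + 1 = T
          · subst hB
            simp only [Nat.add_sub_cancel, if_true, Nat.le_add_left]
            ring
          · rw [if_neg hB]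
            split_ifs
            · omega
            · ring
            · ring
        · by_cases hB : B = 0
          · subst hB; simp only [if_true]; ring
          · simp [hB]
      · simp [hA]
    · ring
  simp only [h, sum_sub_distrib, ← mul_sum]
  rw [mul_sub (2 ^ 92 : ℝ) (_ + _)]
  congr 1
  rw [sum_range_succ']
  simp only [Nat.add_one_ne_zero, if_false, sum_const_zero, zero_add, if_true, ← mul_sum,
    sum_add_distrib, sum_sub_distrib, sum_ite_eq']
  rw [if_pos (show T ∈ range (T + 1) by simp),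
    if_pos (show T - 1 ∈ range (T + 1) from mem_range.mpr (by omega)),
    if_pos (show 0 ∈ range (T + 1) by simp)]

theorem sOf_sum : ∑ T ∈ range 29, (sOf T : ℝ) / 2 ^ 32 ≤ 26 / 10000 := by
  have h : Nat.ble (loop 29 sOf) 11166914 = true := by decide +kernel
  rw [Nat.ble_eq, loop_eq] at h
  have h2 : ((∑ T ∈ range 29, sOf T : ℕ) : ℝ) ≤ 11166914 := by exact_mod_cast h
  rw [← sum_div, ← Nat.cast_sum, div_le_iff₀ (by positivity)]
  linarith

theorem x3_zero : nth xL3 28 = 0 := by decide +kernel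

theorem x4_zero : nth xL4 28 = 0 := by decide +kernel

theorem mul_le_small {a g Γ : ℝ} (h : |a| ≤ 1 / 2 ^ 42) (hg : |g| ≤ Γ) :
    |a * g| ≤ 1 / 2 ^ 42 * Γ := by
  rw [abs_mul]; exact mul_le_mul h hg (abs_nonneg _) (by positivity)

end Sc

open Sc

theorem sector3 (G : ℕ → ℕ → ℕ → ℝ) (u v c0 c1 : ℕ → ℝ) (Γ : ℝ) (hG : Gram G u v Γ)
    (hu : ∀ f < 29, |u f - (uOf f : ℝ) / 2 ^ 48| ≤ 1 / 2 ^ 42)
    (hv : ∀ f < 29, |v f - (vOf f : ℝ) / 2 ^ 48| ≤ 1 / 2 ^ 42)
    (h0 : ∀ M < 28, |c0 M - (phI M 0 : ℝ) / 2 ^ 48| ≤ 1 / 2 ^ 42)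
    (h1 : ∀ M < 28, |c1 M - (phI M 1 : ℝ) / 2 ^ 48| ≤ 1 / 2 ^ 42)
    (hnull : ∀ T A B, A ≤ T → null3 T A = true → G T A B = 0) :
    ∑ M ∈ range 28, (c0 M * G (M + 1) 0 M - c1 M * G M 0 M) +
      secSum (fun T A B => (zI T A B : ℝ) / 2 ^ 32 * G T A B) ≤ 3 / 1000 * Γ := by
  have hΓ : 0 ≤ Γ := (abs_nonneg _).trans (hG.bound 0 0 0 (by norm_num) le_rfl le_rfl)
  have e1 := sum_le_sum fun T (hT : T ∈ range 29) =>
    sec3_low G u v Γ hG hnull T (mem_range.mp hT)
  have e2 := comm_le G u v uOf vOf Γ hG hu hv (nth xL3) x3_zero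
  unfold secSum at e2 ⊢
  unfold K3 at e1
  simp only [Int.add_def, Int.cast_add, add_mul, sum_add_distrib, base3_sum, sum_const, card_range,
    nsmul_eq_mul, ← mul_sum, sum_sub_distrib] at e1
  have e3 : ∑ T ∈ range 29, (if T ≤ 27 then (phI T 1 : ℝ) / 2 ^ 48 * G T 0 T else 0) =
      ∑ T ∈ range 28, (phI T 1 : ℝ) / 2 ^ 48 * G T 0 T := by
    rw [sum_range_succ, if_neg (by norm_num), add_zero]
    exact sum_congr rfl fun T hT => if_pos (by have := mem_range.mp hT; omega)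
  have e4 : ∑ T ∈ range 29,
      (if 1 ≤ T then (phI (T - 1) 0 : ℝ) / 2 ^ 48 * G T 0 (T - 1) else 0) =
      ∑ T ∈ range 28, (phI T 0 : ℝ) / 2 ^ 48 * G (T + 1) 0 T := by
    rw [sum_range_succ', if_neg (by norm_num), add_zero]
    exact sum_congr rfl fun T _ => by rw [if_pos (by omega), Nat.add_sub_cancel]
  have e5 : ∑ T ∈ range 29, (sOf T : ℝ) / 2 ^ 32 * G T 0 0 ≤ 26 / 10000 * Γ := by
    refine le_trans (sum_le_sum fun T hT => mul_le_mul_of_nonneg_left ((le_abs_self _).trans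
      (hG.bound T 0 0 (mem_range.mp hT) (Nat.zero_le _) (Nat.zero_le _))) (by positivity)) ?_
    rw [← sum_mul]
    exact mul_le_mul_of_nonneg_right sOf_sum hΓ
  have e6 : ∑ M ∈ range 28, (c0 M * G (M + 1) 0 M - c1 M * G M 0 M) ≤
      ∑ M ∈ range 28, ((phI M 0 : ℝ) / 2 ^ 48 * G (M + 1) 0 M -
        (phI M 1 : ℝ) / 2 ^ 48 * G M 0 M + 2 / 2 ^ 42 * Γ) := by
    refine sum_le_sum fun M hM => ?_
    rw [mem_range] at hM
    have a0 := abs_le.mp (mul_le_small (h0 M hM)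
      (hG.bound (M + 1) 0 M (by omega) (Nat.zero_le _) (by omega)))
    have a1 := abs_le.mp (mul_le_small (h1 M hM)
      (hG.bound M 0 M (by omega) (Nat.zero_le _) le_rfl))
    linarith [a0.2, a1.1]
  rw [e3, e4] at e1
  simp only [sum_add_distrib, sum_sub_distrib, sum_const, card_range, nsmul_eq_mul] at e6 ⊢
  unfold MU at e1
  push_cast at e1 e6
  linarith

theorem sector4 (G : ℕ → ℕ → ℕ → ℝ) (v : ℕ → ℝ) (Γ : ℝ) (hG : Gram G v v Γ)
    (hv : ∀ f < 29, |v f - (vOf f : ℝ) / 2 ^ 48| ≤ 1 / 2 ^ 42)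
    (hswap : ∀ T A B, A ≤ T → G T (T - A) B = G T A B) :
    secSum (fun T A B => (yI T A B : ℝ) / 2 ^ 32 * G T A B) - Γ / 100000 ≤
      ∑ T ∈ range 29, G T 0 0 := by
  have hΓ : 0 ≤ Γ := (abs_nonneg _).trans (hG.bound 0 0 0 (by norm_num) le_rfl le_rfl)
  have e1 := sum_le_sum fun T (hT : T ∈ range 29) =>
    sec4_low G v Γ hG hswap T (mem_range.mp hT)
  have e2 := comm_le G v v vOf vOf Γ hG hv hv (nth xL4) x4_zero
  unfold secSum at e2 ⊢
  unfold K4 at e1
  simp only [Int.add_def, Int.cast_add, add_mul, sum_add_distrib, base4_sum, sum_const, card_range,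
    nsmul_eq_mul, ← mul_sum, sum_sub_distrib] at e1
  unfold MU at e1
  push_cast at e1
  linarith

end Vale.Agent.P359
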