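import Vale.Agent.P359.SecN

/-! Sector checks. -/

namespace Vale.Agent.P359

theorem s3ok0 : sec3OK 0 = true := by decide +kernel

theorem s3ok1 : sec3OK 1 = true := by decide +kernel

theorem s3ok2 : sec3OK 2 = true := by decide +kernel

theorem s3ok3 : sec3OK 3 = true := by decide +kernel

theorem s3ok4 : sec3OK 4 = true := by decide +kernel

theorem s3ok5 : sec3OK 5 = true := by decide +kernel

theorem s3ok6 : sec3OK 6 = true := by decide +kernel

theorem s3ok7 : sec3OK 7 = true := by decide +kernel

theorem s3ok8 : sec3OK 8 = true := by decide +kernel

theorem s3ok9 : sec3OK 9 = true := by decide +kernel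

theorem s3ok10 : sec3OK 10 = true := by decide +kernel

theorem s3ok11 : sec3OK 11 = true := by decide +kernel

theorem s3ok12 : sec3OK 12 = true := by decide +kernel

theorem s3ok13 : sec3OK 13 = true := by decide +kernel

theorem s3ok14 : sec3OK 14 = true := by decide +kernel

theorem s3ok15 : sec3OK 15 = true := by decide +kernel

theorem s3ok16 : sec3OK 16 = true := by decide +kernel

theorem s3ok17 : sec3OK 17 = true := by decide +kernel

theorem s3ok18 : sec3OK 18 = true := by decide +kernel

theorem s3ok19 : sec3OK 19 = true := by decide +kernel

theorem s3ok20 : sec3OK 20 = true := by decide +kernel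

theorem s3ok21 : sec3OK 21 = true := by decide +kernel

theorem s3ok22 : sec3OK 22 = true := by decide +kernel

theorem s3ok23 : sec3OK 23 = true := by decide +kernel

theorem s3ok24 : sec3OK 24 = true := by decide +kernel

theorem s3ok25 : sec3OK 25 = true := by decide +kernel

theorem s3ok26 : sec3OK 26 = true := by decide +kernel

theorem s3ok27 : sec3OK 27 = true := by decide +kernel

theorem s3ok28 : sec3OK 28 = true := by decide +kernel

end Vale.Agent.P359
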